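import Vale.Agent.Lib.P171H.Base

/-!
Assembling the recursion for the explicit potential: the limiting pressure is not differentiable.
-/

open MeasureTheory Set Metric Filter Topology
open scoped ENNReal

namespace Vale.Agent.Lib.P171H

/-- The masses from level `K` on. -/
noncomputable def tailm (cs : ℝ) (T₀ K k : ℕ) : ℝ := if K ≤ k then cm cs T₀ k else 0

/-- The mass of level `K` alone. -/
noncomputable def onem (cs : ℝ) (T₀ K k : ℕ) : ℝ := if k = K then cm cs T₀ k else 0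

section masses

variable {cs : ℝ} {T₀ : ℕ}

lemma tailm_nonneg (hcs : 0 ≤ cs) (K k : ℕ) : 0 ≤ tailm cs T₀ K k := by
  unfold tailm
  split_ifs
  · exact cm_nonneg hcs k
  · exact le_rfl

lemma tailm_le (hcs : 0 ≤ cs) (K k : ℕ) : tailm cs T₀ K k ≤ cm cs T₀ k := by
  unfold tailm
  split_ifs
  · exact le_rfl
  · exact cm_nonneg hcs k

lemma tailm_support {K k : ℕ} (h : tailm cs T₀ K k ≠ 0) : K ≤ k := by
  by_contra hn
  exact h (by unfold tailm; rw [if_neg hn])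

lemma onem_nonneg (hcs : 0 ≤ cs) (K k : ℕ) : 0 ≤ onem cs T₀ K k := by
  unfold onem
  split_ifs
  · exact cm_nonneg hcs k
  · exact le_rfl

lemma onem_le (hcs : 0 ≤ cs) (K k : ℕ) : onem cs T₀ K k ≤ cm cs T₀ k := by
  unfold onem
  split_ifs
  · exact le_rfl
  · exact cm_nonneg hcs k

lemma onem_support {K k : ℕ} (h : onem cs T₀ K k ≠ 0) : K ≤ k := by
  by_contra hn
  refine h ?_
  unfold onem
  rw [if_neg]
  omega

lemma cut_add_onem (K k : ℕ) : cut cs T₀ K k + onem cs T₀ K k = cut cs T₀ (K + 1) k := by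
  unfold cut onem
  by_cases h1 : k < K
  · rw [if_pos h1, if_neg (by omega), if_pos (by omega), add_zero]
  · by_cases h2 : k = K
    · rw [if_neg h1, if_pos h2, if_pos (by omega), zero_add]
    · rw [if_neg h1, if_neg h2, if_neg (by omega), add_zero]

lemma cut_add_tailm (K k : ℕ) : cut cs T₀ K k + tailm cs T₀ K k = cm cs T₀ k := by
  unfold cut tailm
  by_cases h1 : k < K
  · rw [if_pos h1, if_neg (by omega), add_zero]
  · rw [if_neg h1, if_pos (by omega), zero_add]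

lemma tsum_onem (K : ℕ) : ∑' k, onem cs T₀ K k = cm cs T₀ K := by
  unfold onem
  exact tsum_ite_eq K (cm cs T₀)

lemma summable_tailm (hcs : 0 ≤ cs) (h : 2 ≤ T₀) (K : ℕ) : Summable (tailm cs T₀ K) :=
  Summable.of_nonneg_of_le (tailm_nonneg hcs K) (tailm_le hcs K) (summable_cm hcs h)

lemma tsum_cut (K : ℕ) : ∑' k, cut cs T₀ K k = ∑ j ∈ Finset.range K, cm cs T₀ j := by
  rw [tsum_eq_sum (s := Finset.range K)]
  · apply Finset.sum_congr rfl
    intro j hj
    unfold cut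
    rw [if_pos (Finset.mem_range.1 hj)]
  · intro j hj
    unfold cut
    rw [if_neg (fun h => hj (Finset.mem_range.2 h))]

lemma sum_add_tail (hcs : 0 ≤ cs) (h : 2 ≤ T₀) (K : ℕ) :
    ∑ j ∈ Finset.range K, cm cs T₀ j + ∑' k, tailm cs T₀ K k = ∑' k, cm cs T₀ k := by
  rw [← tsum_cut, ← (summable_cut hcs h K).tsum_add (summable_tailm hcs h K)]
  apply tsum_congr
  intro k
  exact cut_add_tailm K k

lemma cm_le_tail (hcs : 0 ≤ cs) (h : 2 ≤ T₀) (K : ℕ) : cm cs T₀ K ≤ ∑' k, tailm cs T₀ K k := by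
  have h1 := (summable_tailm hcs h K).le_tsum K (fun j _ => tailm_nonneg hcs K j)
  unfold tailm at h1 ⊢
  simpa using h1

lemma good_cut (hcs : 0 < cs) (h : 2 ≤ T₀) (K : ℕ) :
    Good (vpot (Rs T₀) (48 * (2 * cs)) (cut cs T₀ K)) (24 * (2 * cs)) (9 / 5 * (2 * cs)) := by
  apply good_vpot (by positivity) (Rs_ge_20 h) (cut_nonneg hcs.le K) (summable_cut hcs.le h K)
  have h1 := (summable_cut hcs.le h K).tsum_le_tsum (cut_le hcs.le K) (summable_cm hcs.le h)
  have h2 := tsum_cm_le hcs.le h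
  nlinarith

lemma good_cm (hcs : 0 < cs) (h : 2 ≤ T₀) :
    Good (vpot (Rs T₀) (48 * (2 * cs)) (cm cs T₀)) (24 * (2 * cs)) (9 / 5 * (2 * cs)) := by
  apply good_vpot (by positivity) (Rs_ge_20 h) (cm_nonneg hcs.le) (summable_cm hcs.le h)
  have h2 := tsum_cm_le hcs.le h
  nlinarith

lemma vpot_cut_zero_nonpos (hcs : 0 < cs) (r : ℝ) :
    vpot (Rs T₀) (48 * (2 * cs)) (cut cs T₀ 0) r ≤ 0 := by
  unfold vpot attr
  have : ∀ k, cut cs T₀ 0 k * ker (Rs T₀ k) r = 0 := by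
    intro k
    unfold cut
    simp
  simp only [this, tsum_zero, zero_sub]
  split_ifs <;> simp <;> positivity

lemma sum_inv_Tk_le (h : 2 ≤ T₀) (K : ℕ) :
    ∑ j ∈ Finset.range K, 1 / ((Tk T₀ j : ℕ) : ℝ) ≤ 2 / (T₀ : ℝ) := by
  have hT0 : (0:ℝ) < T₀ := by
    have : 0 < T₀ := by omega
    exact_mod_cast this
  have hj : ∀ j, 1 / ((Tk T₀ j : ℕ) : ℝ) ≤ (1 / 2) ^ j * (1 / (T₀ : ℝ)) := by
    intro j
    have h1 := Tk_real_ge h j
    have h2 : (0:ℝ) < (2:ℝ) ^ j * T₀ := by positivity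
    calc 1 / ((Tk T₀ j : ℕ) : ℝ) ≤ 1 / ((2:ℝ) ^ j * T₀) :=
          one_div_le_one_div_of_le h2 h1
      _ = _ := by
        rw [one_div_pow]
        field_simp
  calc _ ≤ ∑ j ∈ Finset.range K, (1 / 2 : ℝ) ^ j * (1 / (T₀ : ℝ)) := Finset.sum_le_sum fun j _ => hj j
    _ = (∑ j ∈ Finset.range K, (1 / 2 : ℝ) ^ j) * (1 / (T₀ : ℝ)) := by rw [Finset.sum_mul]
    _ ≤ 2 * (1 / (T₀ : ℝ)) := by
        apply mul_le_mul_of_nonneg_right _ (by positivity)
        exact sum_geometric_two_le K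
    _ = _ := by ring

end masses

/-- The width sequence of the recursion. -/
noncomputable def wseq (τ : ℕ → ℝ) : ℕ → ℝ
  | 0 => 2
  | k + 1 => 2 * τ k

/-- The convexity defect of the limiting pressure. -/
theorem kink_main :
    ∃ T₀ : ℕ, 2 ≤ T₀ ∧ ∃ μ J : ℝ, 0 < J ∧ ∀ t : ℝ, 0 < t → t ≤ 1 →
      J * t ≤ Pr (vpot (Rs T₀) (48 * (2 * 10 ^ 11)) (cm (10 ^ 11) T₀)) (μ + t)
        + Pr (vpot (Rs T₀) (48 * (2 * 10 ^ 11)) (cm (10 ^ 11) T₀)) (μ - t)
        - 2 * Pr (vpot (Rs T₀) (48 * (2 * 10 ^ 11)) (cm (10 ^ 11) T₀)) μ := by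
  set cs : ℝ := 10 ^ 11 with hcs
  have hcs0 : 0 < cs := by rw [hcs]; positivity
  set C : ℝ := 2 * cs with hC
  have hC0 : 0 < C := by rw [hC]; positivity
  set ε : ℝ := 1 / 10 ^ 9 with hε
  have hε0 : 0 < ε := by rw [hε]; positivity
  set x := Real.log ε with hx
  have hx3 : x + 3 ≤ 0 := by
    have h1 : x ≤ -3 := by
      rw [hx, Real.log_le_iff_le_exp hε0, Real.exp_neg]
      have h2 : Real.exp 3 = (Real.exp 1) ^ 3 := by
        rw [← Real.exp_nat_mul]
        norm_num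
      have he := Real.exp_one_lt_d9
      have h3 : Real.exp 3 ≤ 27 := by
        rw [h2]
        calc (Real.exp 1) ^ 3 ≤ 3 ^ 3 := pow_le_pow_left₀ (Real.exp_pos 1).le (by linarith) 3
          _ = 27 := by norm_num
      rw [le_inv_comm₀ hε0 (Real.exp_pos 3)]
      refine h3.trans ?_
      rw [hε]
      norm_num
    linarith
  set lo := x - 1 - 30 * C - 2 with hlo
  set hi := x + 1 + 2 with hhi
  set D := -lo with hD
  have hD0 : 0 ≤ D := by rw [hD, hlo]; linarith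
  set K₁ := Cone C D with hK₁
  have hK₁0 : 0 < K₁ := Cone_pos hC0
  -- the choice of the base of the hierarchy
  obtain ⟨n, hn⟩ := exists_nat_gt ((8 / cs + 8 * K₁) / (66 / 100 * ε))
  set T₀ : ℕ := n + 2 with hT₀
  have hT₀2 : 2 ≤ T₀ := by omega
  have hT₀r : (0:ℝ) < T₀ := by
    have : 0 < T₀ := by omega
    exact_mod_cast this
  have hT₀big : (8 / cs + 8 * K₁) / (T₀ : ℝ) ≤ 66 / 100 * ε := by
    rw [div_le_iff₀ hT₀r]
    have h1 : (8 / cs + 8 * K₁) ≤ (n : ℝ) * (66 / 100 * ε) := by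
      rw [div_lt_iff₀ (by positivity)] at hn
      exact hn.le
    have h2 : (n : ℝ) ≤ T₀ := by
      rw [hT₀]; push_cast; linarith
    have h3 : 0 < 66 / 100 * ε := by positivity
    nlinarith
  refine ⟨T₀, hT₀2, ?_⟩
  have hTpos := Tk_real_pos hT₀2
  have hTtwo := Tk_real_ge_two hT₀2
  set τ : ℕ → ℝ := fun K => 1 / ((Tk T₀ K : ℕ) : ℝ) ^ 8 with hτ
  set E : ℕ → ℝ := fun K => K₁ / ((Tk T₀ K : ℕ) : ℝ) ^ 16 with hE
  have hτpos : ∀ K, 0 < τ K := fun K => by
    have := hTpos K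
    simp only [hτ]
    positivity
  have hτle : ∀ K, τ K ≤ 1 / ((Tk T₀ K : ℕ) : ℝ) := fun K => by
    have h0 := hTpos K
    have h1 : (1:ℝ) ≤ ((Tk T₀ K : ℕ) : ℝ) := by linarith [hTtwo K]
    simp only [hτ]
    apply one_div_le_one_div_of_le h0
    exact le_self_pow₀ h1 (by norm_num)
  have hτ1 : ∀ K, τ K ≤ 1 := fun K => by
    have h1 : (1:ℝ) ≤ ((Tk T₀ K : ℕ) : ℝ) := by linarith [hTtwo K]
    refine (hτle K).trans ?_
    rw [div_le_one (hTpos K)]
    exact h1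
  have hτsum : ∀ K, ∑ j ∈ Finset.range K, τ j ≤ 1 := fun K => by
    have h1 : ∑ j ∈ Finset.range K, τ j ≤ ∑ j ∈ Finset.range K, 1 / ((Tk T₀ j : ℕ) : ℝ) :=
      Finset.sum_le_sum fun j _ => hτle j
    refine (h1.trans (sum_inv_Tk_le hT₀2 K)).trans ?_
    rw [div_le_one hT₀r]
    exact_mod_cast hT₀2
  have hE0 : ∀ K, 0 ≤ E K := fun K => by
    have := hTpos K
    simp only [hE]
    positivity
  have hElim : Tendsto E atTop (𝓝 0) := by
    have hbd : ∀ K, E K ≤ K₁ * (1 / 2) ^ K := fun K => by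
      simp only [hE]
      rw [div_eq_mul_inv]
      apply mul_le_mul_of_nonneg_left _ hK₁0.le
      rw [one_div, inv_pow]
      apply inv_anti₀ (by positivity)
      have h1 := Tk_real_ge hT₀2 K
      have h2 : (1:ℝ) ≤ ((Tk T₀ K : ℕ) : ℝ) := by linarith [hTtwo K]
      have h3 : (1:ℝ) ≤ T₀ := by
        have : 1 ≤ T₀ := by omega
        exact_mod_cast this
      have h4 : (2:ℝ) ^ K ≤ ((Tk T₀ K : ℕ) : ℝ) := by
        have h5 : (0:ℝ) < (2:ℝ) ^ K := by positivity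
        nlinarith
      exact h4.trans (le_self_pow₀ h2 (by norm_num))
    have hl : Tendsto (fun K : ℕ => K₁ * (1 / 2 : ℝ) ^ K) atTop (𝓝 0) := by
      have := (tendsto_pow_atTop_nhds_zero_of_lt_one (by norm_num : (0:ℝ) ≤ 1 / 2)
        (by norm_num)).const_mul K₁
      simpa using this
    exact squeeze_zero hE0 hbd hl
  -- the range of potentials
  have hμrange : ∀ μ ∈ Icc lo hi, μ ≤ 0 ∧ -D ≤ μ := by
    intro μ hμ
    constructor
    · have := hμ.2
      rw [hhi] at this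
      linarith
    · rw [hD, neg_neg]
      exact hμ.1
  have hpc : ∀ K, 0 < cm cs T₀ K := cm_pos hcs0 hT₀2
  -- the budget
  have hA0 : 2 * wseq τ 0 / cm cs T₀ 0 = 4 / cs := by
    have : cm cs T₀ 0 = cs := by
      unfold cm
      rw [Tk_zero]
      field_simp
    rw [this]
    simp only [wseq]
    ring
  have hAs : ∀ j, 2 * wseq τ (j + 1) / cm cs T₀ (j + 1) ≤ (4 / cs) * (1 / ((Tk T₀ j : ℕ) : ℝ)) := by
    intro j
    simp only [wseq, hτ]
    unfold cm
    rw [Tk_succ]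
    push_cast
    have h0 := hTpos j
    have hT1 : (1:ℝ) ≤ ((Tk T₀ j : ℕ) : ℝ) := by linarith [hTtwo j]
    have hT₀1 : (1:ℝ) ≤ T₀ := by
      have : 1 ≤ T₀ := by omega
      exact_mod_cast this
    set Y := ((Tk T₀ j : ℕ) : ℝ) with hY
    set Z := (T₀ : ℝ) with hZ
    have e : 2 * (2 * (1 / Y ^ 8)) / (cs * Z ^ 2 / (Y ^ 2) ^ 2) = 4 / cs * (1 / (Y ^ 4 * Z ^ 2)) := by
      field_simp
      ring
    rw [e]
    apply mul_le_mul_of_nonneg_left _ (by positivity)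
    apply one_div_le_one_div_of_le h0
    have h1 : Y ≤ Y ^ 4 := le_self_pow₀ hT1 (by norm_num)
    have h2 : 1 ≤ Z ^ 2 := one_le_pow₀ hT₀1
    nlinarith
  have hBs : ∀ j, 4 * E j / τ j ≤ (4 * K₁) * (1 / ((Tk T₀ j : ℕ) : ℝ)) := by
    intro j
    simp only [hE, hτ]
    have h0 := hTpos j
    have hT1 : (1:ℝ) ≤ ((Tk T₀ j : ℕ) : ℝ) := by linarith [hTtwo j]
    set Y := ((Tk T₀ j : ℕ) : ℝ) with hY
    have e : 4 * (K₁ / Y ^ 16) / (1 / Y ^ 8) = 4 * K₁ * (1 / Y ^ 8) := by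
      field_simp
    rw [e]
    apply mul_le_mul_of_nonneg_left _ (by positivity)
    apply one_div_le_one_div_of_le h0
    exact le_self_pow₀ hT1 (by norm_num)
  have hbud : ∀ K, (∑ j ∈ Finset.range K, (2 * wseq τ j / cm cs T₀ j + 4 * E j / τ j))
      + 2 * wseq τ K / cm cs T₀ K ≤ 16 / 10 * ε - 65 / 100 * ε - 1 / 4 * ε := by
    intro K
    have h1 : (∑ j ∈ Finset.range K, (2 * wseq τ j / cm cs T₀ j + 4 * E j / τ j))
        + 2 * wseq τ K / cm cs T₀ K
        = (∑ j ∈ Finset.range (K + 1), 2 * wseq τ j / cm cs T₀ j)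
          + ∑ j ∈ Finset.range K, 4 * E j / τ j := by
      rw [Finset.sum_add_distrib, Finset.sum_range_succ]
      ring
    rw [h1, Finset.sum_range_succ', hA0]
    have h2 : ∑ j ∈ Finset.range K, 2 * wseq τ (j + 1) / cm cs T₀ (j + 1)
        ≤ (4 / cs) * (2 / (T₀ : ℝ)) := by
      calc _ ≤ ∑ j ∈ Finset.range K, (4 / cs) * (1 / ((Tk T₀ j : ℕ) : ℝ)) :=
            Finset.sum_le_sum fun j _ => hAs j
        _ = (4 / cs) * ∑ j ∈ Finset.range K, (1 / ((Tk T₀ j : ℕ) : ℝ)) := by rw [Finset.mul_sum]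
        _ ≤ _ := mul_le_mul_of_nonneg_left (sum_inv_Tk_le hT₀2 K) (by positivity)
    have h3 : ∑ j ∈ Finset.range K, 4 * E j / τ j ≤ (4 * K₁) * (2 / (T₀ : ℝ)) := by
      calc _ ≤ ∑ j ∈ Finset.range K, (4 * K₁) * (1 / ((Tk T₀ j : ℕ) : ℝ)) :=
            Finset.sum_le_sum fun j _ => hBs j
        _ = (4 * K₁) * ∑ j ∈ Finset.range K, (1 / ((Tk T₀ j : ℕ) : ℝ)) := by rw [Finset.mul_sum]
        _ ≤ _ := mul_le_mul_of_nonneg_left (sum_inv_Tk_le hT₀2 K) (by positivity)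
    have h4 : (4 / cs) * (2 / (T₀ : ℝ)) + (4 * K₁) * (2 / (T₀ : ℝ)) = (8 / cs + 8 * K₁) / (T₀ : ℝ) := by
      field_simp
      ring
    have h5 : 4 / cs ≤ 4 / 100 * ε := by
      rw [hcs, hε]
      norm_num
    linarith
  -- apply the abstract recursion
  have hmain := hierarchy
    (fun K => Pr (vpot (Rs T₀) (48 * C) (cut cs T₀ K)))
    (Pr (vpot (Rs T₀) (48 * C) (cm cs T₀)))
    (cm cs T₀) (fun K => ∑' k, tailm cs T₀ K k) E τ (wseq τ) lo hi (1 / 4 * ε)
    (x - 1) (x + 1) (65 / 100 * ε) (16 / 10 * ε)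
    (fun K => Pr_convex (good_cut hcs0 hT₀2 K))
    (fun K => Pr_continuous (good_cut hcs0 hT₀2 K))
    (Pr_continuous (good_cm hcs0 hT₀2))
    hpc (cm_le_tail hcs0.le hT₀2) hτpos hτ1 hE0 hElim
    (fun K μ hμ => by
      have h := level_close hcs0 hT₀2 K (onem_nonneg (T₀ := T₀) hcs0.le K) (onem_le hcs0.le K)
        (fun k hk => onem_support hk) hD0 (hμrange μ hμ).1 (hμrange μ hμ).2
      have e : (fun k => cut cs T₀ K k + onem cs T₀ K k) = cut cs T₀ (K + 1) := by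
        funext k
        exact cut_add_onem K k
      rw [e, tsum_onem] at h
      exact h)
    (fun K μ hμ => by
      have h := level_close hcs0 hT₀2 K (tailm_nonneg (T₀ := T₀) hcs0.le K) (tailm_le hcs0.le K)
        (fun k hk => tailm_support hk) hD0 (hμrange μ hμ).1 (hμrange μ hμ).2
      have e : (fun k => cut cs T₀ K k + tailm cs T₀ K k) = cm cs T₀ := by
        funext k
        exact cut_add_tailm K k
      rw [e] at h
      exact h)
    (base_nearJump (good_cut hcs0 hT₀2 0) (vpot_cut_zero_nonpos hcs0))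
    (by linarith) (by positivity) (by rw [hε]; norm_num) (by positivity)
    (by simp only [wseq]; linarith) (fun K => rfl)
    (fun K => by
      have h1 := sum_add_tail hcs0.le hT₀2 K
      have h2 := tsum_cm_le hcs0.le hT₀2
      have h3 := hτsum K
      rw [Finset.sum_add_distrib, ← Finset.mul_sum]
      rw [hlo]
      have h4 : 30 * ∑ j ∈ Finset.range K, cm cs T₀ j + 30 * ∑' k, tailm cs T₀ K k ≤ 30 * C := by
        rw [← mul_add, h1, hC]
        linarith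
      linarith)
    (fun K => by
      have h3 := hτsum K
      rw [hhi]
      linarith)
    hbud
  obtain ⟨μ, _, hdef⟩ := hmain
  exact ⟨μ, 1 / 4 * ε, by positivity, hdef⟩

end Vale.Agent.Lib.P171H
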