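import Vale.Agent.Lib.P171H.Scales

/-!
The base of the recursion: the pressure of the purely repulsive core has a near-jump of its slope
across an interval of length two at very low density.
-/

open MeasureTheory Set Metric Filter Topology
open scoped ENNReal

namespace Vale.Agent.Lib.P171H

section base

variable {v : ℝ → ℝ} {a b : ℝ}

/-- A nonpositive profile has pressure at most the activity. -/
lemma Pr_le_exp_of_nonpos (hv : ∀ r, v r ≤ 0) (y : ℝ) : Pr v y ≤ Real.exp y := by
  classical
  apply Pr_le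
  intro ℓ hℓ
  have hℓ0 : (0:ℝ) < ℓ := by exact_mod_cast hℓ
  set D : ℝ := (ℓ : ℝ) ^ 3 with hD
  have hD0 : 0 < D := by rw [hD]; positivity
  have hpair : ∀ (N : ℕ) (X : Fin N → E3), pairE (rad v) X ≤ 0 := by
    intro N X
    unfold pairE
    apply mul_nonpos_of_nonneg_of_nonpos (by norm_num)
    apply Finset.sum_nonpos
    intro i _
    apply Finset.sum_nonpos
    intro j _
    split_ifs
    · exact le_rfl
    · exact hv _
  have hterm : ∀ N : ℕ, xt (Cb ℓ) (rad v) y N
      ≤ ENNReal.ofReal ((Real.exp y * D) ^ N / (N.factorial : ℝ)) := by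
    intro N
    have h1 := Zc_le_of_bound (measurableSet_Cb ℓ) (V := rad v) hD0.le (volume_Cb_nat ℓ).le
      (N := N) (g := 0) (fun X _ => hpair N X)
    unfold xt
    calc _ ≤ ENNReal.ofReal (Real.exp (y * N)) * (ENNReal.ofReal (Real.exp 0)
          * ENNReal.ofReal (D ^ N / (N.factorial : ℝ))) := by gcongr
      _ = _ := by
        rw [Real.exp_zero, ENNReal.ofReal_one, one_mul, ← ENNReal.ofReal_mul (Real.exp_pos _).le]
        congr 1
        rw [mul_pow, ← Real.exp_nat_mul]
        rw [mul_comm (N : ℝ) y]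
        ring
  have hXi : Xi (Cb ℓ) (rad v) y ≤ ENNReal.ofReal (Real.exp (Real.exp y * D)) := by
    unfold Xi
    refine (ENNReal.tsum_le_tsum hterm).trans (le_of_eq ?_)
    exact tsum_exp_series (by positivity)
  have hLg := Lg_le_of_le (one_le_Xi_Cb ℓ _ _) hXi
  unfold term
  have hpos : (0:ℝ) < ((ℓ : ℝ) + 1) ^ 3 := by positivity
  rw [inv_mul_le_iff₀ hpos]
  refine hLg.trans ?_
  have h3 : D ≤ ((ℓ : ℝ) + 1) ^ 3 := pow_le_pow_left₀ hℓ0.le (by linarith) 3
  have := mul_le_mul_of_nonneg_left h3 (Real.exp_pos y).le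
  linarith

/-- One-particle lower bound for the pressure. -/
lemma Pr_ge_one_particle (hG : Good v a b) {s : ℕ} (hs : 1 ≤ s) (y : ℝ) :
    (((s : ℝ) + 1) ^ 3)⁻¹ * Real.log (1 + Real.exp y * (s : ℝ) ^ 3) ≤ Pr v y := by
  refine le_trans ?_ (term_le_Pr hG hs y)
  unfold term
  apply mul_le_mul_of_nonneg_left _ (by positivity)
  have h1 := one_add_le_Xi (measurableSet_Cb (s : ℝ)) (rad v) y
  rw [volume_Cb_nat, ← ENNReal.ofReal_mul (Real.exp_pos _).le] at h1
  have h2 : (1 : ℝ≥0∞) + ENNReal.ofReal (Real.exp y * (s : ℝ) ^ 3)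
      = ENNReal.ofReal (1 + Real.exp y * (s : ℝ) ^ 3) := by
    rw [ENNReal.ofReal_add (by norm_num) (by positivity), ENNReal.ofReal_one]
  rw [h2] at h1
  have h3 := Lg_mono (by
    rw [← ENNReal.ofReal_one]
    apply ENNReal.ofReal_le_ofReal
    have : 0 ≤ Real.exp y * (s : ℝ) ^ 3 := by positivity
    linarith) h1 (Xi_Cb_ne_top hG hs y)
  refine le_trans (le_of_eq ?_) h3
  unfold Lg
  rw [ENNReal.toReal_ofReal (by positivity)]

/-- The numerical near-jump at activity `10^(-9)`. -/
theorem base_nearJump (hG : Good v a b) (hv : ∀ r, v r ≤ 0) :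
    NearJump (Pr v) (Real.log (1 / 10 ^ 9) - 1) (Real.log (1 / 10 ^ 9) + 1)
      (65 / 100 * (1 / 10 ^ 9)) (16 / 10 * (1 / 10 ^ 9)) := by
  set ε : ℝ := 1 / 10 ^ 9 with hε
  have hε0 : 0 < ε := by rw [hε]; positivity
  set x := Real.log ε with hx
  have hexp : Real.exp x = ε := Real.exp_log hε0
  have hconv := Pr_convex hG
  have he1 := Real.exp_one_gt_d9
  have he2 := Real.exp_one_lt_d9
  have hPx : Pr v x ≤ ε := by
    have := Pr_le_exp_of_nonpos hv x
    rwa [hexp] at this
  -- the lower bounds at x - 1 and x + 1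
  have hlow : ∀ u : ℝ, 0 < u → u / (1 + u) ≤ Real.log (1 + u) := by
    intro u hu
    have h := Real.one_sub_inv_le_log_of_pos (by linarith : 0 < 1 + u)
    have e : 1 - (1 + u)⁻¹ = u / (1 + u) := by
      field_simp
      ring
    rwa [e] at h
  have hPm : 35 / 100 * ε ≤ Pr v (x - 1) := by
    have h := Pr_ge_one_particle hG (s := 100) (by norm_num) (x - 1)
    refine le_trans ?_ h
    have e : Real.exp (x - 1) = ε * (Real.exp 1)⁻¹ := by
      rw [sub_eq_add_neg, Real.exp_add, hexp, Real.exp_neg]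
    rw [e]
    set u : ℝ := ε * (Real.exp 1)⁻¹ * ((100:ℕ):ℝ) ^ 3 with hu
    have hinv1 : (0.3678:ℝ) ≤ (Real.exp 1)⁻¹ := by
      rw [le_inv_comm₀ (by norm_num) (by positivity)]
      refine le_trans (le_of_lt he2) ?_
      norm_num
    have hinv2 : (Real.exp 1)⁻¹ ≤ 1 := by
      apply inv_le_one_of_one_le₀
      linarith
    have hu0 : 0 < u := by rw [hu]; positivity
    have hu1 : u ≤ 1 / 1000 := by
      rw [hu, hε]
      push_cast
      nlinarith
    have hu2 : 0.3678 / 1000 ≤ u := by
      rw [hu, hε]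
      push_cast
      nlinarith
    have h1 := hlow u hu0
    have h2 : u * (999 / 1000) ≤ u / (1 + u) := by
      rw [le_div_iff₀ (by linarith)]
      nlinarith
    have h3 : 35 / 100 * ε * ((((100:ℕ):ℝ) + 1) ^ 3) ≤ Real.log (1 + u) := by
      rw [hε]
      push_cast
      norm_num
      nlinarith
    rw [le_inv_mul_iff₀ (by positivity)]
    linarith
  have hPp : 26 / 10 * ε ≤ Pr v (x + 1) := by
    have h := Pr_ge_one_particle hG (s := 100) (by norm_num) (x + 1)
    refine le_trans ?_ h
    have e : Real.exp (x + 1) = ε * Real.exp 1 := by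
      rw [Real.exp_add, hexp]
    rw [e]
    set u : ℝ := ε * Real.exp 1 * ((100:ℕ):ℝ) ^ 3 with hu
    have hu0 : 0 < u := by rw [hu]; positivity
    have hu1 : u ≤ 3 / 1000 := by
      rw [hu, hε]
      push_cast
      nlinarith
    have hu2 : 2.718 / 1000 ≤ u := by
      rw [hu, hε]
      push_cast
      nlinarith
    have h1 := hlow u hu0
    have h2 : u * (997 / 1000) ≤ u / (1 + u) := by
      rw [le_div_iff₀ (by linarith)]
      nlinarith
    have h3 : 26 / 10 * ε * ((((100:ℕ):ℝ) + 1) ^ 3) ≤ Real.log (1 + u) := by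
      rw [hε]
      push_cast
      norm_num
      nlinarith
    rw [le_inv_mul_iff₀ (by positivity)]
    linarith
  clear_value x
  clear hx hexp hlow he1 he2
  clear_value ε
  clear hε
  constructor
  · intro y z hyz hz
    rcases eq_or_lt_of_le hyz with rfl | hlt
    · simp
    have hc := chord_mul_le hconv hlt (by linarith : x - 1 < x) (by linarith) (by linarith)
    have e : x - (x - 1) = 1 := by ring
    rw [e, mul_one] at hc
    have hzy : 0 ≤ z - y := by linarith
    have h4 : Pr v x - Pr v (x - 1) ≤ 65 / 100 * ε := by linarith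
    have := mul_le_mul_of_nonneg_right h4 hzy
    linarith
  · intro y z hy hyz
    rcases eq_or_lt_of_le hyz with rfl | hlt
    · simp
    have hc := chord_mul_le hconv (by linarith : x < x + 1) hlt (by linarith) (by linarith)
    have e : x + 1 - x = 1 := by ring
    rw [e, mul_one] at hc
    have hzy : 0 ≤ z - y := by linarith
    have h4 : 16 / 10 * ε ≤ Pr v (x + 1) - Pr v x := by linarith
    have := mul_le_mul_of_nonneg_right h4 hzy
    linarith

end base

end Vale.Agent.Lib.P171H
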