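import Mathlib

/-!
Configuration integrals for a pair function on a measure space: labelled integrals, reindexing,
and the sector decomposition over two disjoint sets.
-/

open MeasureTheory Set
open scoped ENNReal

set_option linter.unusedSectionVars false

namespace Vale.Agent.Lib.P171H

variable {E : Type*} [MeasureSpace E]

section pair

variable {ι κ : Type*} [Fintype ι] [Fintype κ]

open Classical in
/-- The Boltzmann exponent of a configuration: half the sum over ordered pairs of distinct
labels. -/
noncomputable def pairE (V : E → E → ℝ) (X : ι → E) : ℝ :=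
  (1 / 2 : ℝ) * ∑ i, ∑ j, if i = j then 0 else V (X i) (X j)

/-- The Boltzmann weight of a configuration. -/
noncomputable def wgt (V : E → E → ℝ) (X : ι → E) : ℝ≥0∞ :=
  ENNReal.ofReal (Real.exp (pairE V X))

lemma pairE_comp (V : E → E → ℝ) (e : κ ≃ ι) (X : ι → E) : pairE V (X ∘ e) = pairE V X := by
  classical
  unfold pairE
  congr 1
  rw [← Equiv.sum_comp e]
  apply Finset.sum_congr rfl
  intro i _
  rw [← Equiv.sum_comp e]
  apply Finset.sum_congr rfl
  intro j _
  simp [e.apply_eq_iff_eq]

lemma wgt_comp (V : E → E → ℝ) (e : κ ≃ ι) (X : ι → E) : wgt V (X ∘ e) = wgt V X := by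
  unfold wgt
  rw [pairE_comp]

lemma measurable_pairE {V : E → E → ℝ} (hV : Measurable (Function.uncurry V)) :
    Measurable (pairE V : (ι → E) → ℝ) := by
  classical
  unfold pairE
  refine Measurable.const_mul ?_ _
  refine Finset.measurable_sum _ fun i _ => Finset.measurable_sum _ fun j _ => ?_
  by_cases h : i = j
  · simp [h]
  · simp only [h, if_false]
    have hp : Measurable (fun a : ι → E => (a i, a j)) :=
      (measurable_pi_apply i).prodMk (measurable_pi_apply j)
    exact hV.comp hp

lemma measurable_wgt {V : E → E → ℝ} (hV : Measurable (Function.uncurry V)) :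
    Measurable (wgt V : (ι → E) → ℝ≥0∞) :=
  ENNReal.measurable_ofReal.comp (Real.measurable_exp.comp (measurable_pairE hV))

/-- The labelled partition integral over the power of `A` with label set `ι`. -/
noncomputable def Zi (A : Set E) (V : E → E → ℝ) (ι : Type*) [Fintype ι] : ℝ≥0∞ :=
  ∫⁻ X : ι → E, (Set.pi univ fun _ : ι => A).indicator (wgt V) X

lemma pi_mem_iff {A : Set E} {X : ι → E} : X ∈ Set.pi univ (fun _ : ι => A) ↔ ∀ i, X i ∈ A := by
  simp [Set.mem_pi]

lemma measurableSet_piA {A : Set E} (hA : MeasurableSet A) :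
    MeasurableSet (Set.pi univ fun _ : ι => A) :=
  MeasurableSet.univ_pi fun _ => hA

lemma measurable_piInd {A : Set E} (hA : MeasurableSet A) {V : E → E → ℝ}
    (hV : Measurable (Function.uncurry V)) :
    Measurable ((Set.pi univ fun _ : ι => A).indicator (wgt V)) :=
  (measurable_wgt hV).indicator (measurableSet_piA hA)

variable [SigmaFinite (volume : Measure E)]

/-- Labelled integrals depend only on the number of labels. -/
lemma Zi_congr {A : Set E} (hA : MeasurableSet A) {V : E → E → ℝ}
    (hV : Measurable (Function.uncurry V)) (e : κ ≃ ι) : Zi A V κ = Zi A V ι := by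
  have mp := volume_measurePreserving_piCongrLeft (fun _ : ι => E) e
  have h := mp.lintegral_comp (measurable_piInd (ι := ι) hA hV)
  unfold Zi
  rw [← h]
  apply lintegral_congr
  intro X
  set Y := (MeasurableEquiv.piCongrLeft (fun _ : ι => E) e) X with hY
  have hYe : ∀ b, Y (e b) = X b := fun b => by
    rw [hY, MeasurableEquiv.coe_piCongrLeft]
    exact Equiv.piCongrLeft_apply_apply (fun _ : ι => E) e X b
  have hXY : X = Y ∘ e := by
    funext b
    exact (hYe b).symm
  by_cases hX : ∀ i, Y i ∈ A
  · have h1 : Y ∈ Set.pi univ (fun _ : ι => A) := pi_mem_iff.2 hX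
    have h2 : X ∈ Set.pi univ (fun _ : κ => A) := pi_mem_iff.2 fun b => by
      rw [← hYe b]; exact hX _
    rw [indicator_of_mem h1, indicator_of_mem h2, hXY, wgt_comp]
  · have h1 : Y ∉ Set.pi univ (fun _ : ι => A) := fun h => hX (pi_mem_iff.1 h)
    have h2 : X ∉ Set.pi univ (fun _ : κ => A) := fun h => hX fun i => by
      have := pi_mem_iff.1 h (e.symm i)
      rw [← hYe (e.symm i)] at this
      simpa using this
    rw [indicator_of_notMem h1, indicator_of_notMem h2]

lemma Zi_eq_of_card {A : Set E} (hA : MeasurableSet A) {V : E → E → ℝ}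
    (hV : Measurable (Function.uncurry V)) {n : ℕ} (h : Fintype.card κ = n) :
    Zi A V κ = Zi A V (Fin n) :=
  Zi_congr hA hV (Fintype.equivFinOfCardEq h)

end pair

section split

variable {ι : Type*} [Fintype ι] (p : ι → Prop) [DecidablePred p]

/-- Splitting the Boltzmann exponent along a subset of the labels. -/
lemma pairE_split {V : E → E → ℝ} (hS : ∀ x y, V x y = V y x) (X : ι → E) :
    pairE V X = pairE V (fun i : {i // p i} => X i) + pairE V (fun i : {i // ¬ p i} => X i)
      + ∑ i : {i // p i}, ∑ j : {j // ¬ p j}, V (X i) (X j) := by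
  classical
  unfold pairE
  have hrow : ∀ i : ι, (∑ j, if i = j then (0:ℝ) else V (X i) (X j))
      = (∑ j : {j // p j}, if i = j then (0:ℝ) else V (X i) (X j))
        + ∑ j : {j // ¬ p j}, if i = j then (0:ℝ) else V (X i) (X j) := fun i =>
    (Fintype.sum_subtype_add_sum_subtype p _).symm
  have hall := (Fintype.sum_subtype_add_sum_subtype p
    (fun i => ∑ j, if i = j then (0:ℝ) else V (X i) (X j))).symm
  rw [hall]
  simp only [hrow, Finset.sum_add_distrib]
  have h1 : (∑ i : {i // p i}, ∑ j : {j // p j},
        if (i : ι) = j then (0:ℝ) else V (X i) (X j))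
      = ∑ i : {i // p i}, ∑ j : {j // p j}, if i = j then (0:ℝ) else V (X i) (X j) := by
    apply Finset.sum_congr rfl; intro i _; apply Finset.sum_congr rfl; intro j _
    simp only [Subtype.ext_iff]
  have h2 : (∑ i : {i // ¬ p i}, ∑ j : {j // ¬ p j},
        if (i : ι) = j then (0:ℝ) else V (X i) (X j))
      = ∑ i : {i // ¬ p i}, ∑ j : {j // ¬ p j}, if i = j then (0:ℝ) else V (X i) (X j) := by
    apply Finset.sum_congr rfl; intro i _; apply Finset.sum_congr rfl; intro j _
    simp only [Subtype.ext_iff]
  have h3 : (∑ i : {i // p i}, ∑ j : {j // ¬ p j},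
        if (i : ι) = j then (0:ℝ) else V (X i) (X j))
      = ∑ i : {i // p i}, ∑ j : {j // ¬ p j}, V (X i) (X j) := by
    apply Finset.sum_congr rfl; intro i _; apply Finset.sum_congr rfl; intro j _
    have : (i : ι) ≠ j := fun h => j.2 (h ▸ i.2)
    simp [this]
  have h4 : (∑ i : {i // ¬ p i}, ∑ j : {j // p j},
        if (i : ι) = j then (0:ℝ) else V (X i) (X j))
      = ∑ i : {i // p i}, ∑ j : {j // ¬ p j}, V (X i) (X j) := by
    rw [Finset.sum_comm]
    apply Finset.sum_congr rfl; intro i _; apply Finset.sum_congr rfl; intro j _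
    have : (j : ι) ≠ i := fun h => j.2 (h ▸ i.2)
    simp [this, hS]
  rw [h1, h2, h3, h4]
  ring

variable [SigmaFinite (volume : Measure E)]

/-- Integrals of products over the two label blocks factorise. -/
lemma lintegral_split {F : ({i // p i} → E) → ℝ≥0∞} {G : ({i // ¬ p i} → E) → ℝ≥0∞}
    (hF : Measurable F) (hG : Measurable G) :
    ∫⁻ X : ι → E, F (fun i => X i) * G (fun i => X i) = (∫⁻ Y, F Y) * ∫⁻ Z, G Z := by
  have mp := volume_preserving_piEquivPiSubtypeProd (fun _ : ι => E) p
  have hm : Measurable (fun q : ({i // p i} → E) × ({i // ¬ p i} → E) => F q.1 * G q.2) :=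
    (hF.comp measurable_fst).mul (hG.comp measurable_snd)
  have h := mp.lintegral_comp hm
  have h2 : ∫⁻ q : ({i // p i} → E) × ({i // ¬ p i} → E), F q.1 * G q.2
      = (∫⁻ Y, F Y) * ∫⁻ Z, G Z := by
    rw [Measure.volume_eq_prod]
    exact lintegral_prod_mul hF.aemeasurable hG.aemeasurable
  rw [← h2, ← h]
  rfl

end split

section sector

variable {ι : Type*} [Fintype ι]

/-- Membership in a finset, as an opaque predicate (this pins the finite-type instance on the
subtype of labels). -/
def inS (S : Finset ι) (i : ι) : Prop := i ∈ S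

open Classical in
noncomputable instance (S : Finset ι) : DecidablePred (inS S) := fun _ => Classical.propDecidable _

/-- The configurations with labels in `S` in `A` and the others in `B`. -/
def Sect (A B : Set E) (S : Finset ι) : Set (ι → E) :=
  {X | ∀ i, (i ∈ S → X i ∈ A) ∧ (i ∉ S → X i ∈ B)}

lemma indicator_union_eq_sum {A B : Set E} (hd : Disjoint A B)
    (f : (ι → E) → ℝ≥0∞) (X : ι → E) :
    (Set.pi univ fun _ : ι => A ∪ B).indicator f X
      = ∑ S : Finset ι, (Sect A B S).indicator f X := by
  classical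
  by_cases hX : ∀ i, X i ∈ A ∪ B
  · have h1 : X ∈ Set.pi univ (fun _ : ι => A ∪ B) := pi_mem_iff.2 hX
    rw [indicator_of_mem h1]
    set S₀ : Finset ι := Finset.univ.filter fun i => X i ∈ A with hS₀
    have hS₀mem : X ∈ Sect A B S₀ := by
      intro i
      constructor
      · intro hi
        simpa [hS₀] using hi
      · intro hi
        have : X i ∉ A := by simpa [hS₀] using hi
        exact (hX i).resolve_left this
    rw [Finset.sum_eq_single S₀]
    · rw [indicator_of_mem hS₀mem]
    · intro S _ hS
      apply indicator_of_notMem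
      intro hXS
      apply hS
      ext i
      simp only [hS₀, Finset.mem_filter, Finset.mem_univ, true_and]
      constructor
      · intro hi
        exact (hXS i).1 hi
      · intro hi
        by_contra hn
        exact (Set.disjoint_left.1 hd hi) ((hXS i).2 hn)
    · intro h
      exact absurd (Finset.mem_univ _) h
  · have h1 : X ∉ Set.pi univ (fun _ : ι => A ∪ B) := fun h => hX (pi_mem_iff.1 h)
    rw [indicator_of_notMem h1]
    symm
    apply Finset.sum_eq_zero
    intro S _
    apply indicator_of_notMem
    intro hXS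
    apply hX
    intro i
    by_cases hi : i ∈ S
    · exact Or.inl ((hXS i).1 hi)
    · exact Or.inr ((hXS i).2 hi)

lemma measurableSet_Sect {A B : Set E} (hA : MeasurableSet A) (hB : MeasurableSet B)
    (S : Finset ι) : MeasurableSet (Sect A B S) := by
  classical
  have : Sect A B S = ⋂ i, (fun X : ι → E => X i) ⁻¹' (if i ∈ S then A else B) := by
    ext X
    simp only [Sect, mem_ofPred_eq, mem_iInter, mem_preimage]
    constructor
    · intro h i
      by_cases hi : i ∈ S
      · simpa [hi] using (h i).1 hi
      · simpa [hi] using (h i).2 hi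
    · intro h i
      constructor
      · intro hi
        simpa [hi] using h i
      · intro hi
        simpa [hi] using h i
  rw [this]
  refine MeasurableSet.iInter fun i => measurable_pi_apply i ?_
  split_ifs
  · exact hA
  · exact hB

variable [SigmaFinite (volume : Measure E)]

/-- Expansion over sectors. -/
lemma Zi_union_eq {A B : Set E} (hA : MeasurableSet A) (hB : MeasurableSet B) (hd : Disjoint A B)
    {V : E → E → ℝ} (hV : Measurable (Function.uncurry V)) :
    Zi (A ∪ B) V ι = ∑ S : Finset ι, ∫⁻ X, (Sect A B S).indicator (wgt V) X := by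
  unfold Zi
  simp_rw [indicator_union_eq_sum hd]
  rw [lintegral_finsetSum]
  intro S _
  exact (measurable_wgt hV).indicator (measurableSet_Sect hA hB S)

/-- The product of the two block integrals, written on the full configuration space. -/
lemma sector_product {A B : Set E} (hA : MeasurableSet A) (hB : MeasurableSet B)
    {V : E → E → ℝ} (hV : Measurable (Function.uncurry V)) (S : Finset ι) :
    ∫⁻ X : ι → E, ((Set.pi univ fun _ : {i // inS S i} => A).indicator (wgt V)
        (fun i : {i // inS S i} => X i))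
      * ((Set.pi univ fun _ : {i // ¬ inS S i} => B).indicator (wgt V)
        (fun i : {i // ¬ inS S i} => X i))
      = Zi A V {i // inS S i} * Zi B V {i // ¬ inS S i} := by
  exact lintegral_split (inS S) (measurable_piInd (A := A) hA hV)
    (measurable_piInd (A := B) hB hV)

/-- Pointwise comparison on a sector in terms of the cross energy. -/
lemma sector_pointwise_le {A B : Set E} {V : E → E → ℝ} (hS : ∀ x y, V x y = V y x)
    (hc : ∀ x ∈ A, ∀ y ∈ B, V x y ≤ 0) (S : Finset ι) (X : ι → E) :
    (Sect A B S).indicator (wgt V) X ≤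
      ((Set.pi univ fun _ : {i // inS S i} => A).indicator (wgt V) (fun i : {i // inS S i} => X i))
      * ((Set.pi univ fun _ : {i // ¬ inS S i} => B).indicator (wgt V)
        (fun i : {i // ¬ inS S i} => X i)) := by
  by_cases hX : X ∈ Sect A B S
  · rw [indicator_of_mem hX, indicator_of_mem (pi_mem_iff.2 fun (i : {i // inS S i}) => (hX i.1).1 i.2),
      indicator_of_mem (pi_mem_iff.2 fun (i : {i // ¬ inS S i}) => (hX i.1).2 i.2)]
    unfold wgt
    rw [← ENNReal.ofReal_mul (Real.exp_pos _).le, ← Real.exp_add]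
    apply ENNReal.ofReal_le_ofReal
    apply Real.exp_le_exp.2
    rw [pairE_split (inS S) hS X]
    have : ∑ i : {i // inS S i}, ∑ j : {j // ¬ inS S j}, V (X i) (X j) ≤ 0 :=
      Finset.sum_nonpos fun i _ => Finset.sum_nonpos fun j _ =>
        hc _ ((hX i.1).1 i.2) _ ((hX j.1).2 j.2)
    linarith
  · rw [indicator_of_notMem hX]
    exact zero_le

lemma sector_pointwise_ge {A B : Set E} {V : E → E → ℝ} (hS : ∀ x y, V x y = V y x)
    (hc : ∀ x ∈ A, ∀ y ∈ B, 0 ≤ V x y) (S : Finset ι) (X : ι → E) :
      ((Set.pi univ fun _ : {i // inS S i} => A).indicator (wgt V) (fun i : {i // inS S i} => X i))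
      * ((Set.pi univ fun _ : {i // ¬ inS S i} => B).indicator (wgt V)
        (fun i : {i // ¬ inS S i} => X i)) ≤ (Sect A B S).indicator (wgt V) X := by
  by_cases hX : X ∈ Sect A B S
  · rw [indicator_of_mem hX, indicator_of_mem (pi_mem_iff.2 fun (i : {i // inS S i}) => (hX i.1).1 i.2),
      indicator_of_mem (pi_mem_iff.2 fun (i : {i // ¬ inS S i}) => (hX i.1).2 i.2)]
    unfold wgt
    rw [← ENNReal.ofReal_mul (Real.exp_pos _).le, ← Real.exp_add]
    apply ENNReal.ofReal_le_ofReal
    apply Real.exp_le_exp.2
    rw [pairE_split (inS S) hS X]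
    have : 0 ≤ ∑ i : {i // inS S i}, ∑ j : {j // ¬ inS S j}, V (X i) (X j) :=
      Finset.sum_nonneg fun i _ => Finset.sum_nonneg fun j _ =>
        hc _ ((hX i.1).1 i.2) _ ((hX j.1).2 j.2)
    linarith
  · rw [indicator_of_notMem hX]
    have hnot : ¬ ((∀ i : {i // inS S i}, X i ∈ A) ∧ (∀ i : {i // ¬ inS S i}, X i ∈ B)) := by
      rintro ⟨h1, h2⟩
      apply hX
      intro i
      exact ⟨fun hi => h1 ⟨i, hi⟩, fun hi => h2 ⟨i, hi⟩⟩
    by_cases h1 : ∀ i : {i // inS S i}, X i ∈ A
    · have h2 : ¬ ∀ i : {i // ¬ inS S i}, X i ∈ B := fun h => hnot ⟨h1, h⟩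
      rw [indicator_of_notMem (a := (fun i : {i // ¬ inS S i} => X i))
        (fun h => h2 (pi_mem_iff.1 h))]
      simp
    · rw [indicator_of_notMem (a := (fun i : {i // inS S i} => X i)) (fun h => h1 (pi_mem_iff.1 h))]
      simp

theorem Zi_union_le {A B : Set E} (hA : MeasurableSet A) (hB : MeasurableSet B)
    (hd : Disjoint A B) {V : E → E → ℝ} (hV : Measurable (Function.uncurry V))
    (hS : ∀ x y, V x y = V y x) (hc : ∀ x ∈ A, ∀ y ∈ B, V x y ≤ 0) :
    Zi (A ∪ B) V ι ≤ ∑ S : Finset ι, Zi A V {i // inS S i} * Zi B V {i // ¬ inS S i} := by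
  rw [Zi_union_eq hA hB hd hV]
  apply Finset.sum_le_sum
  intro S _
  rw [← sector_product hA hB hV S]
  exact lintegral_mono (sector_pointwise_le hS hc S)

theorem Zi_union_ge {A B : Set E} (hA : MeasurableSet A) (hB : MeasurableSet B)
    (hd : Disjoint A B) {V : E → E → ℝ} (hV : Measurable (Function.uncurry V))
    (hS : ∀ x y, V x y = V y x) (hc : ∀ x ∈ A, ∀ y ∈ B, 0 ≤ V x y) :
    ∑ S : Finset ι, Zi A V {i // inS S i} * Zi B V {i // ¬ inS S i} ≤ Zi (A ∪ B) V ι := by
  rw [Zi_union_eq hA hB hd hV]
  apply Finset.sum_le_sum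
  intro S _
  rw [← sector_product hA hB hV S]
  exact lintegral_mono (sector_pointwise_ge hS hc S)

end sector

end Vale.Agent.Lib.P171H
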