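import Vale.Agent.Lib.P171H.Mean

/-!
The upper bound, part two: one grid cube with a constant mean field.
-/

open MeasureTheory Set Metric Filter Topology
open scoped ENNReal

namespace Vale.Agent.Lib.P171H

lemma pairE_add_const {ι : Type*} [Fintype ι] (v : ℝ → ℝ) (κ : ℝ) (X : ι → E3) :
    pairE (rad fun r => v r + κ) X
      = pairE (rad v) X + κ * (((Fintype.card ι : ℝ)) ^ 2 - (Fintype.card ι : ℝ)) / 2 := by
  classical
  have h : (∑ i : ι, ∑ j : ι, @ite ℝ (i = j) (Classical.propDecidable _) 0 κ)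
      = κ * (((Fintype.card ι : ℝ)) ^ 2 - (Fintype.card ι : ℝ)) := by
    rw [offdiag_sum (fun _ _ => κ)]
    simp
    ring
  rw [← h]
  unfold pairE
  have e : ∀ y : ℝ, y / 2 = (1 / 2) * y := fun y => by ring
  rw [e (∑ i : ι, ∑ j : ι, @ite ℝ (i = j) (Classical.propDecidable _) 0 κ), ← mul_add,
    ← Finset.sum_add_distrib]
  congr 1
  apply Finset.sum_congr rfl
  intro i _
  rw [← Finset.sum_add_distrib]
  apply Finset.sum_congr rfl
  intro j _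
  by_cases hij : i = j
  · simp [hij]
  · rw [if_neg hij, if_neg hij, if_neg hij]
    rfl

/-- Factorial bound for large particle numbers. -/
lemma pow_div_factorial_le_half {D : ℝ} (hD : 0 ≤ D) {N : ℕ} (hN : 30 * D ≤ N) :
    D ^ N / (N.factorial : ℝ) ≤ (1 / 2) ^ N := by
  rcases Nat.eq_zero_or_pos N with rfl | hpos
  · simp
  have hN0 : (0:ℝ) < N := by exact_mod_cast hpos
  have h1 := Real.pow_div_factorial_le_exp (N : ℝ) hN0.le N
  have e : D ^ N / (N.factorial : ℝ) = (D / N) ^ N * ((N : ℝ) ^ N / (N.factorial : ℝ)) := by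
    rw [div_pow]
    field_simp
  rw [e]
  have h2 : D / N ≤ 1 / 30 := by
    rw [div_le_div_iff₀ hN0 (by norm_num)]
    linarith
  have h3 : (D / N) ^ N ≤ (1 / 30) ^ N := pow_le_pow_left₀ (by positivity) h2 N
  have h4 : Real.exp N = (Real.exp 1) ^ N := by
    rw [← Real.exp_nat_mul]
    simp
  calc (D / N) ^ N * ((N : ℝ) ^ N / (N.factorial : ℝ))
      ≤ (1 / 30) ^ N * Real.exp N := mul_le_mul h3 h1 (by positivity) (by positivity)
    _ = ((1 / 30) * Real.exp 1) ^ N := by rw [h4, mul_pow]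
    _ ≤ (1 / 2) ^ N := by
        apply pow_le_pow_left₀ (by positivity)
        have := Real.exp_one_lt_d9
        linarith

lemma Xi_le_of_Lg {x : ℝ≥0∞} {y : ℝ} (h1 : 1 ≤ x) (h2 : x ≠ ⊤) (h : Lg x ≤ y) :
    x ≤ ENNReal.ofReal (Real.exp y) := by
  have hx := one_le_toReal h1 h2
  have hpos : 0 < x.toReal := by linarith
  have : x.toReal ≤ Real.exp y := by
    rw [← Real.log_le_iff_le_exp hpos]
    exact h
  calc x = ENNReal.ofReal x.toReal := (ENNReal.ofReal_toReal h2).symm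
    _ ≤ _ := ENNReal.ofReal_le_ofReal this

section cube

variable {Vd : ℝ → ℝ} {a b : ℝ}

/-- The effect of the constant mean field on the `N`-particle term. -/
lemma xt_vb_le (hG : Good Vd a b) (ℓ : ℕ) (κ μ : ℝ) (N : ℕ) :
    xt (Cb ℓ) (rad fun r => Vd r + κ) (μ + κ / 2) N
      ≤ ENNReal.ofReal (Real.exp (μ * N + κ / 2 * (N : ℝ) ^ 2)) * Zc (Cb ℓ) (rad Vd) N := by
  have h1 : Zi (Cb ℓ) (rad fun r => Vd r + κ) (Fin N)
      ≤ ENNReal.ofReal (Real.exp (κ * ((N : ℝ) ^ 2 - N) / 2)) * Zi (Cb ℓ) (rad Vd) (Fin N) := by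
    apply Zi_le_of_forall (measurableSet_Cb _) (measurable_rad hG.meas)
    intro X _
    rw [pairE_add_const, Fintype.card_fin]
    linarith
  unfold xt Zc
  calc _ ≤ ENNReal.ofReal (Real.exp ((μ + κ / 2) * N)) * (((N.factorial : ℝ≥0∞))⁻¹ *
        (ENNReal.ofReal (Real.exp (κ * ((N : ℝ) ^ 2 - N) / 2)) * Zi (Cb ℓ) (rad Vd) (Fin N))) := by
        gcongr
    _ = (ENNReal.ofReal (Real.exp ((μ + κ / 2) * N))
          * ENNReal.ofReal (Real.exp (κ * ((N : ℝ) ^ 2 - N) / 2)))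
          * (((N.factorial : ℝ≥0∞))⁻¹ * Zi (Cb ℓ) (rad Vd) (Fin N)) := by ring
    _ = _ := by
        rw [← ENNReal.ofReal_mul (Real.exp_pos _).le, ← Real.exp_add]
        congr 3
        ring

/-- Small particle numbers: the term is controlled by the pressure at the shifted potential. -/
lemma term_small (hG : Good Vd a b) {ℓ : ℕ} (hℓ : 1 ≤ ℓ) (κ μ : ℝ) (N : ℕ) :
    ENNReal.ofReal (Real.exp (μ * N + κ / 2 * (N : ℝ) ^ 2)) * Zc (Cb ℓ) (rad Vd) N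
      ≤ ENNReal.ofReal (Real.exp (((ℓ : ℝ) + 1) ^ 3 * Pr Vd (μ + κ * N) - κ / 2 * (N : ℝ) ^ 2)) := by
  have h1 : xt (Cb ℓ) (rad Vd) (μ + κ * N) N ≤ Xi (Cb ℓ) (rad Vd) (μ + κ * N) := xt_le_Xi _ _ _ _
  have h2 := Xi_le_of_Lg (one_le_Xi_Cb ℓ _ _) (Xi_Cb_ne_top hG hℓ (μ + κ * N))
    (Lg_Xi_le_Pr hG hℓ (μ + κ * N))
  have h3 := h1.trans h2
  unfold xt at h3
  have e1 : ENNReal.ofReal (Real.exp (μ * N + κ / 2 * (N : ℝ) ^ 2))
      = ENNReal.ofReal (Real.exp (-(κ / 2 * (N : ℝ) ^ 2)))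
        * ENNReal.ofReal (Real.exp ((μ + κ * N) * N)) := by
    rw [← ENNReal.ofReal_mul (Real.exp_pos _).le, ← Real.exp_add]
    congr 2
    ring
  have e2 : ENNReal.ofReal (Real.exp (((ℓ : ℝ) + 1) ^ 3 * Pr Vd (μ + κ * N) - κ / 2 * (N : ℝ) ^ 2))
      = ENNReal.ofReal (Real.exp (-(κ / 2 * (N : ℝ) ^ 2)))
        * ENNReal.ofReal (Real.exp (((ℓ : ℝ) + 1) ^ 3 * Pr Vd (μ + κ * N))) := by
    rw [← ENNReal.ofReal_mul (Real.exp_pos _).le, ← Real.exp_add]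
    congr 2
    ring
  rw [e1, e2, mul_assoc]
  gcongr

/-- Large particle numbers: the quadratic gain of the core beats the mean field. -/
lemma term_large (hG : Good Vd a b) {ℓ : ℕ} (hℓ : 1 ≤ ℓ) {κ μ : ℝ} (hμ : μ ≤ 0)
    (hb : κ * (ℓ : ℝ) ^ 3 / 2 ≤ b) (hmf : a ≤ 30 * (b - κ * (ℓ : ℝ) ^ 3 / 2)) {N : ℕ}
    (hN : 30 * (ℓ : ℝ) ^ 3 ≤ N) :
    ENNReal.ofReal (Real.exp (μ * N + κ / 2 * (N : ℝ) ^ 2)) * Zc (Cb ℓ) (rad Vd) N
      ≤ ENNReal.ofReal ((1 / 2) ^ N) := by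
  have hℓ0 : (0:ℝ) < ℓ := by exact_mod_cast hℓ
  set D := (ℓ : ℝ) ^ 3 with hD
  have hD0 : 0 < D := by rw [hD]; positivity
  have h1 := Zc_le_of_bound (measurableSet_Cb ℓ) (V := rad Vd) hD0.le (volume_Cb_nat ℓ).le
    (N := N) (g := a * N - b * ((N : ℝ) ^ 2 / D)) (fun X hX => hG.stab ℓ hℓ N X hX)
  have hN0 : (0:ℝ) ≤ N := Nat.cast_nonneg N
  have hexp : μ * N + κ / 2 * (N : ℝ) ^ 2 + (a * N - b * ((N : ℝ) ^ 2 / D)) ≤ 0 := by
    have e : κ / 2 * (N : ℝ) ^ 2 - b * ((N : ℝ) ^ 2 / D)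
        = -(b - κ * D / 2) * ((N : ℝ) / D) * N := by
      field_simp
      ring
    have h30 : 30 ≤ (N : ℝ) / D := by
      rw [le_div_iff₀ hD0]
      exact hN
    have h2 : 0 ≤ b - κ * D / 2 := by linarith
    have h3 : 30 * (b - κ * D / 2) * N ≤ (b - κ * D / 2) * ((N : ℝ) / D) * N := by
      apply mul_le_mul_of_nonneg_right _ hN0
      nlinarith
    have h4 : a * N ≤ 30 * (b - κ * D / 2) * N := mul_le_mul_of_nonneg_right hmf hN0
    have h5 : μ * N ≤ 0 := mul_nonpos_of_nonpos_of_nonneg hμ hN0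
    nlinarith
  calc _ ≤ ENNReal.ofReal (Real.exp (μ * N + κ / 2 * (N : ℝ) ^ 2)) *
        (ENNReal.ofReal (Real.exp (a * N - b * ((N : ℝ) ^ 2 / D)))
          * ENNReal.ofReal (D ^ N / (N.factorial : ℝ))) := by gcongr
    _ = ENNReal.ofReal (Real.exp (μ * N + κ / 2 * (N : ℝ) ^ 2 + (a * N - b * ((N : ℝ) ^ 2 / D))))
          * ENNReal.ofReal (D ^ N / (N.factorial : ℝ)) := by
        rw [← mul_assoc, ← ENNReal.ofReal_mul (Real.exp_pos _).le, ← Real.exp_add]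
    _ ≤ 1 * ENNReal.ofReal ((1 / 2) ^ N) := by
        gcongr
        · rw [← ENNReal.ofReal_one]
          apply ENNReal.ofReal_le_ofReal
          exact Real.exp_le_one_iff.2 hexp
        · exact pow_div_factorial_le_half hD0.le hN
    _ = _ := one_mul _

/-- The grand-canonical sum on one cube with mean field. -/
theorem Xi_vb_le (hG : Good Vd a b) {ℓ : ℕ} (hℓ : 1 ≤ ℓ) {κ μ Θ : ℝ} (hμ : μ ≤ 0)
    (hb : κ * (ℓ : ℝ) ^ 3 / 2 ≤ b) (hmf : a ≤ 30 * (b - κ * (ℓ : ℝ) ^ 3 / 2)) (hΘ0 : 0 ≤ Θ)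
    (hΘ : ∀ N : ℕ, (N : ℝ) ≤ 30 * (ℓ : ℝ) ^ 3 →
      ((ℓ : ℝ) + 1) ^ 3 * Pr Vd (μ + κ * N) - κ / 2 * (N : ℝ) ^ 2 ≤ (ℓ : ℝ) ^ 3 * Θ) :
    Xi (Cb ℓ) (rad fun r => Vd r + κ) (μ + κ / 2)
      ≤ ENNReal.ofReal ((30 * (ℓ : ℝ) ^ 3 + 3) * Real.exp ((ℓ : ℝ) ^ 3 * Θ)) := by
  set E := Real.exp ((ℓ : ℝ) ^ 3 * Θ) with hE
  have hE1 : 1 ≤ E := Real.one_le_exp (by positivity)
  set M₀ : ℕ := 30 * ℓ ^ 3 with hM₀
  have hM₀r : (M₀ : ℝ) = 30 * (ℓ : ℝ) ^ 3 := by rw [hM₀]; push_cast; ring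
  have hterm : ∀ N : ℕ, xt (Cb ℓ) (rad fun r => Vd r + κ) (μ + κ / 2) N
      ≤ (if N ∈ Finset.range (M₀ + 1) then ENNReal.ofReal E else 0) + ENNReal.ofReal ((1 / 2) ^ N) := by
    intro N
    refine (xt_vb_le hG ℓ κ μ N).trans ?_
    by_cases hN : N ∈ Finset.range (M₀ + 1)
    · rw [if_pos hN]
      have hNle : (N : ℝ) ≤ 30 * (ℓ : ℝ) ^ 3 := by
        rw [← hM₀r]
        exact_mod_cast Nat.lt_succ_iff.1 (Finset.mem_range.1 hN)
      refine le_trans ((term_small hG hℓ κ μ N).trans ?_) le_self_add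
      exact ENNReal.ofReal_le_ofReal (Real.exp_le_exp.2 (hΘ N hNle))
    · rw [if_neg hN, zero_add]
      apply term_large hG hℓ hμ hb hmf
      rw [← hM₀r]
      have : M₀ ≤ N := by
        simp only [Finset.mem_range, not_lt] at hN
        omega
      exact_mod_cast this
  unfold Xi
  calc _ ≤ ∑' N : ℕ, ((if N ∈ Finset.range (M₀ + 1) then ENNReal.ofReal E else 0)
          + ENNReal.ofReal ((1 / 2) ^ N)) := ENNReal.tsum_le_tsum hterm
    _ = (∑' N : ℕ, (if N ∈ Finset.range (M₀ + 1) then ENNReal.ofReal E else 0))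
          + ∑' N : ℕ, ENNReal.ofReal ((1 / 2) ^ N) := ENNReal.tsum_add
    _ = ((M₀ + 1 : ℕ) : ℝ≥0∞) * ENNReal.ofReal E + ENNReal.ofReal 2 := by
        congr 1
        · rw [tsum_eq_sum (s := Finset.range (M₀ + 1))]
          · rw [Finset.sum_congr rfl (fun N hN => if_pos hN), Finset.sum_const, Finset.card_range,
              nsmul_eq_mul]
          · intro N hN
            rw [if_neg hN]
        · rw [← ENNReal.ofReal_tsum_of_nonneg (fun N => by positivity) summable_geometric_two,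
            tsum_geometric_two]
    _ = ENNReal.ofReal ((M₀ + 1) * E + 2) := by
        rw [ENNReal.ofReal_add (by positivity) (by norm_num), ENNReal.ofReal_mul (by positivity)]
        congr 2
        rw [← ENNReal.ofReal_natCast]
        push_cast
        rfl
    _ ≤ _ := by
        apply ENNReal.ofReal_le_ofReal
        rw [hM₀r]
        nlinarith

end cube

end Vale.Agent.Lib.P171H
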