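import Vale.Agent.Lib.P171H.Shift

/-!
Decoupling of the grid cubes: grid-restricted pair functions, product bounds, and the Jensen step that
averages over the grid shifts.
-/

open MeasureTheory Set Metric Filter Topology
open scoped ENNReal

namespace Vale.Agent.Lib.P171H

open Classical in
/-- The pair function `vb` restricted to pairs in a common cube of the grid with shift `t`. -/
noncomputable def Vt (ℓ : ℕ) (t : Fin 3 → Fin ℓ) (vb : ℝ → ℝ) (x y : E3) : ℝ :=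
  if qSh ℓ t x = qSh ℓ t y then rad vb x y else 0

lemma Vt_symm (ℓ : ℕ) (t : Fin 3 → Fin ℓ) (vb : ℝ → ℝ) (x y : E3) :
    Vt ℓ t vb x y = Vt ℓ t vb y x := by
  unfold Vt
  by_cases h : qSh ℓ t x = qSh ℓ t y
  · rw [if_pos h, if_pos h.symm, rad_symm]
  · rw [if_neg h, if_neg (fun e => h e.symm)]

lemma measurable_qSh (ℓ : ℕ) (t : Fin 3 → Fin ℓ) : Measurable (qSh ℓ t) := measurable_qIdx

lemma measurable_Vt (ℓ : ℕ) (t : Fin 3 → Fin ℓ) {vb : ℝ → ℝ} (hvb : Measurable vb) :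
    Measurable (Function.uncurry (Vt ℓ t vb)) := by
  have hS : MeasurableSet {p : E3 × E3 | qSh ℓ t p.1 = qSh ℓ t p.2} :=
    measurableSet_eq_fun ((measurable_qSh ℓ t).comp measurable_fst)
      ((measurable_qSh ℓ t).comp measurable_snd)
  have : Function.uncurry (Vt ℓ t vb)
      = fun p : E3 × E3 => if qSh ℓ t p.1 = qSh ℓ t p.2 then Function.uncurry (rad vb) p else 0 := by
    funext p
    rfl
  rw [this]
  exact Measurable.ite hS (measurable_rad hvb) measurable_const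

lemma Xi_empty_le (V : E3 → E3 → ℝ) (μ : ℝ) : Xi (∅ : Set E3) V μ ≤ 1 := by
  unfold Xi
  rw [tsum_eq_single 0]
  · rw [xt_zero MeasurableSet.empty]
  · intro N hN
    obtain ⟨n, rfl⟩ : ∃ n, N = n + 1 := ⟨N - 1, by omega⟩
    unfold xt Zc Zi
    have : (Set.pi univ fun _ : Fin (n + 1) => (∅ : Set E3)) = ∅ :=
      Set.eq_empty_of_forall_notMem fun X hX => hX 0 (mem_univ _)
    rw [this]
    simp

lemma Xi_Qc_eq (ℓ : ℕ) (hℓ : 1 ≤ ℓ) (t : Fin 3 → Fin ℓ) {vb : ℝ → ℝ} (hvb : Measurable vb)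
    (q : Fin 3 → ℤ) (μ : ℝ) :
    Xi (Qc (ℓ : ℝ) (fun d => (((t d : ℕ)) : ℝ)) q) (Vt ℓ t vb) μ = Xi (Cb ℓ) (rad vb) μ := by
  have hℓ0 : (0:ℝ) < ℓ := by exact_mod_cast hℓ
  set s : Fin 3 → ℝ := fun d => (((t d : ℕ)) : ℝ) with hs
  have hm := measurableSet_Qc (ℓ : ℝ) s q
  have h1 : Xi (Qc (ℓ : ℝ) s q) (Vt ℓ t vb) μ = Xi (Qc (ℓ : ℝ) s q) (rad vb) μ := by
    apply Xi_congr_on hm (measurable_Vt ℓ t hvb) (measurable_rad hvb)
    intro x hx y hy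
    have hx' : qSh ℓ t x = q := hx
    have hy' : qSh ℓ t y = q := hy
    unfold Vt
    rw [if_pos (hx'.trans hy'.symm)]
  rw [h1, Qc_eq_preimage hℓ0]
  exact Xi_transl (measurePreserving_sub_right volume _) (measurableSet_Cb _) (measurable_rad hvb)
    (fun x y => rad_transl vb _ x y) μ

/-- Product bound over finitely many grid cubes. -/
lemma Xi_cubes_le (ℓ : ℕ) (hℓ : 1 ≤ ℓ) (t : Fin 3 → Fin ℓ) {vb : ℝ → ℝ} (hvb : Measurable vb)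
    {C : Set E3} (hC : MeasurableSet C) (F : Finset (Fin 3 → ℤ)) (μ : ℝ) :
    Xi (⋃ q ∈ F, (Qc (ℓ : ℝ) (fun d => (((t d : ℕ)) : ℝ)) q ∩ C)) (Vt ℓ t vb) μ
      ≤ (Xi (Cb ℓ) (rad vb) μ) ^ F.card := by
  classical
  set s : Fin 3 → ℝ := fun d => (((t d : ℕ)) : ℝ) with hs
  induction F using Finset.induction_on with
  | empty =>
    simp only [Finset.notMem_empty, iUnion_of_empty, iUnion_empty, Finset.card_empty, pow_zero]
    exact Xi_empty_le _ _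
  | insert m F hm ih =>
    rw [Finset.card_insert_of_notMem hm, pow_succ, Finset.set_biUnion_insert, union_comm]
    have hmF : MeasurableSet (⋃ q ∈ F, (Qc (ℓ : ℝ) s q ∩ C)) :=
      Finset.measurableSet_biUnion _ fun q _ => (measurableSet_Qc _ _ _).inter hC
    have hmm : MeasurableSet (Qc (ℓ : ℝ) s m ∩ C) := (measurableSet_Qc _ _ _).inter hC
    have hne : ∀ x ∈ ⋃ q ∈ F, (Qc (ℓ : ℝ) s q ∩ C), ∀ y ∈ Qc (ℓ : ℝ) s m ∩ C,
        qSh ℓ t x ≠ qSh ℓ t y := by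
      intro x hx y hy he
      simp only [mem_iUnion, exists_prop] at hx
      obtain ⟨q, hq, hxq⟩ := hx
      have h1 : qSh ℓ t x = q := hxq.1
      have h2 : qSh ℓ t y = m := hy.1
      exact hm (by rw [← h2, ← he, h1]; exact hq)
    have hd : Disjoint (⋃ q ∈ F, (Qc (ℓ : ℝ) s q ∩ C)) (Qc (ℓ : ℝ) s m ∩ C) := by
      rw [Set.disjoint_left]
      intro x hx hx'
      exact hne x hx x hx' rfl
    have hc : ∀ x ∈ ⋃ q ∈ F, (Qc (ℓ : ℝ) s q ∩ C), ∀ y ∈ Qc (ℓ : ℝ) s m ∩ C,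
        Vt ℓ t vb x y ≤ 0 := by
      intro x hx y hy
      unfold Vt
      rw [if_neg (hne x hx y hy)]
    have h := Xi_union_le hmF hmm hd (measurable_Vt ℓ t hvb) (Vt_symm ℓ t vb) hc μ
    refine h.trans ?_
    have h2 : Xi (Qc (ℓ : ℝ) s m ∩ C) (Vt ℓ t vb) μ ≤ Xi (Cb ℓ) (rad vb) μ := by
      rw [← Xi_Qc_eq ℓ hℓ t hvb m μ]
      exact Xi_mono_set inter_subset_left _ _
    exact mul_le_mul' ih h2

/-- The large cube is covered by `(M+1)^3` cubes of each shifted grid. -/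
lemma Xi_bigcube_Vt_le {ℓ : ℕ} (hℓ : 1 ≤ ℓ) (t : Fin 3 → Fin ℓ) {vb : ℝ → ℝ} (hvb : Measurable vb)
    (M : ℕ) (hM : 1 ≤ M) (μ : ℝ) :
    Xi (Cb ((M * ℓ : ℕ) : ℝ)) (Vt ℓ t vb) μ ≤ (Xi (Cb ℓ) (rad vb) μ) ^ ((M + 1) ^ 3) := by
  classical
  have hℓ0 : (0:ℝ) < ℓ := by exact_mod_cast hℓ
  set s : Fin 3 → ℝ := fun d => (((t d : ℕ)) : ℝ) with hs
  set C := Cb ((M * ℓ : ℕ) : ℝ) with hC
  set F : Finset (Fin 3 → ℤ) := Fintype.piFinset fun _ => Finset.Icc (-1 : ℤ) ((M : ℤ) - 1) with hF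
  have hcard : F.card = (M + 1) ^ 3 := by
    rw [hF, Fintype.card_piFinset]
    simp only [Int.card_Icc, Finset.prod_const, Finset.card_univ, Fintype.card_fin]
    congr 1
    omega
  have hcover : C ⊆ ⋃ q ∈ F, (Qc (ℓ : ℝ) s q ∩ C) := by
    intro x hx
    simp only [mem_iUnion, exists_prop]
    refine ⟨qSh ℓ t x, ?_, ⟨rfl, hx⟩⟩
    rw [hF, Fintype.mem_piFinset]
    intro d
    have h1 := hx d
    have ht1 : (0:ℝ) ≤ ((t d : ℕ) : ℝ) := Nat.cast_nonneg _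
    have ht2 : (((t d : ℕ)) : ℝ) < ℓ := by exact_mod_cast (t d).2
    rw [Finset.mem_Icc]
    unfold qSh qIdx
    constructor
    · apply Int.le_floor.2
      push_cast
      rw [le_div_iff₀ hℓ0]
      nlinarith [h1.1]
    · have hlt : ⌊(x d - ((t d : ℕ) : ℝ)) / (ℓ : ℝ)⌋ < (M : ℤ) := by
        rw [Int.floor_lt, div_lt_iff₀ hℓ0]
        have h2 := h1.2
        push_cast at h2 ⊢
        nlinarith
      exact Int.le_sub_one_of_lt hlt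
  have h := Xi_cubes_le ℓ hℓ t hvb (measurableSet_Cb ((M * ℓ : ℕ) : ℝ)) F μ
  rw [hcard] at h
  exact (Xi_mono_set hcover _ _).trans h

/-- Jensen's inequality for the uniform average over shifts. -/
lemma wgt_le_avg {ι S : Type*} [Fintype ι] [Fintype S] {V : E3 → E3 → ℝ} {W : S → E3 → E3 → ℝ}
    {w β : ℝ} (hw : 0 ≤ w) (hcard : (Fintype.card S : ℝ) * w = 1) (X : ι → E3)
    (h : pairE V X ≤ w * ∑ s, (β + pairE (W s) X)) :
    wgt V X ≤ ENNReal.ofReal w * ∑ s, ENNReal.ofReal (Real.exp β) * wgt (W s) X := by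
  have hj := convexOn_exp.map_sum_le (t := Finset.univ) (w := fun _ : S => w)
    (p := fun s => β + pairE (W s) X) (fun _ _ => hw)
    (by simpa [Finset.sum_const, nsmul_eq_mul] using hcard) (fun _ _ => mem_univ _)
  simp only [smul_eq_mul] at hj
  have e1 : ∑ s : S, w * (β + pairE (W s) X) = w * ∑ s, (β + pairE (W s) X) :=
    (Finset.mul_sum _ _ _).symm
  rw [e1] at hj
  have h2 : Real.exp (pairE V X) ≤ ∑ s : S, w * Real.exp (β + pairE (W s) X) :=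
    (Real.exp_le_exp.2 h).trans hj
  unfold wgt
  refine (ENNReal.ofReal_le_ofReal h2).trans (le_of_eq ?_)
  rw [ENNReal.ofReal_sum_of_nonneg (fun s _ => by positivity), Finset.mul_sum]
  apply Finset.sum_congr rfl
  intro s _
  rw [ENNReal.ofReal_mul hw, Real.exp_add, ENNReal.ofReal_mul (Real.exp_pos _).le]

/-- Reduction of the large-volume grand-canonical sum to one grid cube. -/
theorem Xi_grid_le {ℓ : ℕ} (hℓ : 1 ≤ ℓ) {V : E3 → E3 → ℝ} {vb : ℝ → ℝ} (hvb : Measurable vb) {β : ℝ}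
    (h : ∀ (N : ℕ) (X : Fin N → E3), pairE V X
      ≤ ((ℓ : ℝ) ^ 3)⁻¹ * ∑ t : Fin 3 → Fin ℓ, (β * N + pairE (Vt ℓ t vb) X))
    (M : ℕ) (hM : 1 ≤ M) (μ : ℝ) :
    Xi (Cb ((M * ℓ : ℕ) : ℝ)) V μ ≤ (Xi (Cb ℓ) (rad vb) (μ + β)) ^ ((M + 1) ^ 3) := by
  have hℓ0 : (0:ℝ) < ℓ := by exact_mod_cast hℓ
  have hcard : (Fintype.card (Fin 3 → Fin ℓ) : ℝ) * ((ℓ : ℝ) ^ 3)⁻¹ = 1 := by
    simp only [Fintype.card_pi, Fintype.card_fin, Finset.prod_const, Finset.card_univ]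
    push_cast
    field_simp
  have hw : (0:ℝ) ≤ ((ℓ : ℝ) ^ 3)⁻¹ := by positivity
  have h1 := Xi_le_avg (A := Cb ((M * ℓ : ℕ) : ℝ)) (V := V) (S := Fin 3 → Fin ℓ)
    (W := fun t => Vt ℓ t vb) (β := β) (a := ENNReal.ofReal ((ℓ : ℝ) ^ 3)⁻¹) (measurableSet_Cb _)
    (fun t => measurable_Vt ℓ t hvb)
    (fun N X _ => wgt_le_avg hw hcard X (h N X)) μ
  refine h1.trans ?_
  have h2 : ∑ t : Fin 3 → Fin ℓ, Xi (Cb ((M * ℓ : ℕ) : ℝ)) (Vt ℓ t vb) (μ + β)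
      ≤ ∑ _t : Fin 3 → Fin ℓ, (Xi (Cb ℓ) (rad vb) (μ + β)) ^ ((M + 1) ^ 3) :=
    Finset.sum_le_sum fun t _ => Xi_bigcube_Vt_le hℓ t hvb M hM (μ + β)
  refine (mul_le_mul_right h2 _).trans (le_of_eq ?_)
  rw [Finset.sum_const, nsmul_eq_mul, ← mul_assoc]
  have : ENNReal.ofReal ((ℓ : ℝ) ^ 3)⁻¹ * ((Finset.univ : Finset (Fin 3 → Fin ℓ)).card : ℝ≥0∞) = 1 := by
    rw [Finset.card_univ, ← ENNReal.ofReal_natCast, ← ENNReal.ofReal_mul hw, mul_comm, hcard]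
    simp
  rw [this, one_mul]

/-- The pressure is controlled by the growth along multiples of the grid side. -/
theorem Pr_le_of_grid {v : ℝ → ℝ} {a b : ℝ} (hG : Good v a b) {ℓ₀ : ℕ} (hℓ₀ : 1 ≤ ℓ₀) {μ Y : ℝ}
    (hgrid : ∀ M : ℕ, 1 ≤ M → Lg (Xi (Cb ((M * ℓ₀ : ℕ) : ℝ)) (rad v) μ) ≤ ((M : ℝ) + 1) ^ 3 * Y) :
    Pr v μ ≤ Y / (ℓ₀ : ℝ) ^ 3 := by
  apply Pr_le
  intro ℓ hℓ
  have hl0 : (0:ℝ) < ℓ₀ := by exact_mod_cast hℓ₀
  have hl1 : (0:ℝ) < (ℓ : ℝ) + 1 := by positivity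
  have key : ∀ n : ℕ, 1 ≤ n → term v μ ℓ
      ≤ (1 + 1 / ((n : ℝ) * ((ℓ : ℝ) + 1))) ^ 3 * (Y / (ℓ₀ : ℝ) ^ 3) := by
    intro n hn
    have hn0 : (0:ℝ) < n := by exact_mod_cast hn
    set M' : ℕ := ℓ₀ * n with hM'
    set M : ℕ := n * (ℓ + 1) with hM
    have hM'1 : 1 ≤ M' := Nat.mul_pos hℓ₀ hn
    have hM1 : 1 ≤ M := Nat.mul_pos hn (by omega)
    have h1 := Lg_big_ge hG hℓ hM'1 μ
    have e : M' * (ℓ + 1) = M * ℓ₀ := by rw [hM', hM]; ring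
    rw [e] at h1
    have h2 := h1.trans (hgrid M hM1)
    have hMr : (M : ℝ) = (n : ℝ) * ((ℓ : ℝ) + 1) := by rw [hM]; push_cast; ring
    have hM'r : (M' : ℝ) = (ℓ₀ : ℝ) * n := by rw [hM']; push_cast; ring
    unfold term
    rw [← hMr]
    have hMpos : (0:ℝ) < M := by exact_mod_cast hM1
    have hM'pos : (0:ℝ) < M' := by exact_mod_cast hM'1
    rw [hM'r] at h2
    have e2 : (1 + 1 / (M : ℝ)) ^ 3 * (Y / (ℓ₀ : ℝ) ^ 3)
        = (((M : ℝ) + 1) ^ 3 * Y) / ((ℓ₀ : ℝ) * M) ^ 3 := by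
      field_simp
    rw [e2, le_div_iff₀ (by positivity)]
    have e3 : (((ℓ : ℝ) + 1) ^ 3)⁻¹ * Lg (Xi (Cb ℓ) (rad v) μ) * ((ℓ₀ : ℝ) * M) ^ 3
        = ((ℓ₀ : ℝ) * n) ^ 3 * Lg (Xi (Cb ℓ) (rad v) μ) := by
      rw [hMr]
      field_simp
    rw [e3]
    exact h2
  have hinv : Tendsto (fun n : ℕ => 1 / ((n : ℝ) * ((ℓ : ℝ) + 1))) atTop (𝓝 0) := by
    have h1 : Tendsto (fun n : ℕ => (n : ℝ) * ((ℓ : ℝ) + 1)) atTop atTop :=
      tendsto_natCast_atTop_atTop.atTop_mul_const hl1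
    exact tendsto_const_nhds.div_atTop h1
  have hlim : Tendsto (fun n : ℕ => (1 + 1 / ((n : ℝ) * ((ℓ : ℝ) + 1))) ^ 3 * (Y / (ℓ₀ : ℝ) ^ 3)) atTop
      (𝓝 ((1 + 0) ^ 3 * (Y / (ℓ₀ : ℝ) ^ 3))) :=
    (Tendsto.pow (Tendsto.const_add _ hinv) 3).mul_const _
  have := ge_of_tendsto hlim (Filter.eventually_atTop.2 ⟨1, key⟩)
  simpa using this

end Vale.Agent.Lib.P171H
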