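import Mathlib

/-!
The objects of the continuum phase-transition question: a radial pair potential on three-dimensional
Euclidean space, its energy, the canonical and grand-canonical partition functions on the closed cube
`[0,L]^3`, stability, temperedness, and a kink of the pressure.
-/

open MeasureTheory Filter Topology

namespace Vale.Agent.Lib.P171H

/-- Three-dimensional Euclidean space. -/
abbrev E3 : Type := EuclideanSpace ℝ (Fin 3)

/-- The interaction energy `U_N = ∑_{i<j} φ(|x_i - x_j|)`. -/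
noncomputable def energy (φ : ℝ → ℝ) {N : ℕ} (x : Fin N → E3) : ℝ :=
  ∑ i, ∑ j ∈ Finset.Ioi i, φ ‖x i - x j‖

/-- The closed cube `Λ_L = [0,L]^3`. -/
def box (L : ℝ) : Set E3 := {x | ∀ d, 0 ≤ x d ∧ x d ≤ L}

/-- The canonical partition function
`Z_{L,N}(β) = (1/N!) ∫_{Λ_L^N} exp(-β U_N) dx_1 ... dx_N`. -/
noncomputable def Zpart (φ : ℝ → ℝ) (β L : ℝ) (N : ℕ) : ℝ :=
  ((N.factorial : ℝ))⁻¹ *
    ∫ x in Set.pi Set.univ (fun _ : Fin N => box L), Real.exp (-β * energy φ x)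

/-- The grand-canonical partition function `∑_{N ≥ 0} z^N Z_{L,N}(β)`. -/
noncomputable def gpf (φ : ℝ → ℝ) (β L z : ℝ) : ℝ :=
  ∑' N : ℕ, z ^ N * Zpart φ β L N

/-- Stability: `U_N ≥ -B N` on configurations of distinct points. -/
def IsStable (φ : ℝ → ℝ) : Prop :=
  ∃ B : ℝ, ∀ (N : ℕ) (x : Fin N → E3), Function.Injective x → -B * N ≤ energy φ x

/-- Temperedness: `φ(r) ≤ C r^(-3-ε)` for `r ≥ R₀`. -/
def IsTempered (φ : ℝ → ℝ) : Prop :=
  ∃ C ε R₀ : ℝ, 0 < C ∧ 0 < ε ∧ 0 < R₀ ∧ ∀ r : ℝ, R₀ ≤ r → φ r ≤ C * r ^ (-3 - ε)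

/-- Local boundedness on `(0,∞)`. -/
def IsLocBdd (φ : ℝ → ℝ) : Prop :=
  ∀ a b : ℝ, 0 < a → ∃ M : ℝ, ∀ r ∈ Set.Icc a b, |φ r| ≤ M

/-- Phase transition of type (a): for some `β > 0` the partition sums converge, the limit
`Π(β,z) = lim_{L→∞} L^(-3) log ∑_N z^N Z_{L,N}(β)` exists for every `z > 0`, and `z ↦ Π(β,z)` is not
differentiable at some `z₀ > 0`. -/
def HasPressureKink (φ : ℝ → ℝ) : Prop :=
  ∃ β : ℝ, 0 < β ∧ ∃ press : ℝ → ℝ,
    (∀ z L : ℝ, 0 < z → 0 < L →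
      (∀ N : ℕ, MeasureTheory.IntegrableOn (fun x : Fin N → E3 => Real.exp (-β * energy φ x))
        (Set.pi Set.univ (fun _ : Fin N => box L))) ∧
      Summable (fun N : ℕ => z ^ N * Zpart φ β L N)) ∧
    (∀ z : ℝ, 0 < z →
      Tendsto (fun L : ℝ => (L ^ 3)⁻¹ * Real.log (gpf φ β L z)) atTop (𝓝 (press z))) ∧
    ∃ z₀ : ℝ, 0 < z₀ ∧ ¬ DifferentiableAt ℝ press z₀

end Vale.Agent.Lib.P171H
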