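import Vale.Agent.Lib.P171H.Assemble

/-!
From the pressure of a good profile to the statement about the partition sums on the closed cubes.
-/

open MeasureTheory Set Filter Topology
open scoped ENNReal

namespace Vale.Agent.Lib.P171H

/-- Unordered and ordered pairs. -/
lemma pair_sum_half {m : ℕ} (t : Fin m → Fin m → ℝ) (hs : ∀ k l, t k l = t l k)
    (hd : ∀ k, t k k = 0) :
    ∑ k, ∑ l ∈ Finset.Ioi k, t k l = (1 / 2) * ∑ k, ∑ l, t k l := by
  have h1 : ∀ k, ∑ l, t k l = ∑ l ∈ Finset.Iio k, t k l + ∑ l ∈ Finset.Ioi k, t k l := by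
    intro k
    have hu : (Finset.univ : Finset (Fin m)) = insert k (Finset.Iio k ∪ Finset.Ioi k) := by
      ext l
      simp only [Finset.mem_univ, Finset.mem_insert, Finset.mem_union, Finset.mem_Iio,
        Finset.mem_Ioi, true_iff]
      rcases lt_trichotomy l k with h | h | h <;> simp [h]
    have hk : k ∉ Finset.Iio k ∪ Finset.Ioi k := by simp
    have hdj : Disjoint (Finset.Iio k) (Finset.Ioi k) := by
      rw [Finset.disjoint_left]
      intro a ha hb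
      simp only [Finset.mem_Iio, Finset.mem_Ioi] at ha hb
      exact absurd ha (not_lt.2 hb.le)
    rw [hu, Finset.sum_insert hk, Finset.sum_union hdj, hd, zero_add]
  have h2 : ∑ k, ∑ l ∈ Finset.Iio k, t k l = ∑ k, ∑ l ∈ Finset.Ioi k, t k l := by
    rw [Finset.sum_comm' (t' := Finset.univ) (s' := fun l => Finset.Ioi l)]
    · apply Finset.sum_congr rfl
      intro l _
      apply Finset.sum_congr rfl
      intro k _
      exact hs k l
    · intro k l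
      simp
  simp only [h1, Finset.sum_add_distrib, h2]
  ring

lemma energy_neg (v : ℝ → ℝ) {N : ℕ} (x : Fin N → E3) :
    energy (fun r => -v r) x = -pairE (rad v) x := by
  classical
  unfold energy pairE
  have h := pair_sum_half
    (fun i j : Fin N => @ite ℝ (i = j) (Classical.propDecidable _) 0 (rad v (x i) (x j)))
    (fun k l => by
      by_cases hkl : k = l
      · subst hkl
        rfl
      · have hlk : ¬ l = k := fun h => hkl h.symm
        simp only [if_neg hkl, if_neg hlk]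
        exact rad_symm _ _ _)
    (fun k => by simp)
  rw [← h, ← Finset.sum_neg_distrib]
  apply Finset.sum_congr rfl
  intro i _
  rw [← Finset.sum_neg_distrib]
  apply Finset.sum_congr rfl
  intro j hj
  have hij : ¬ i = j := (Finset.mem_Ioi.1 hj).ne
  simp only [if_neg hij]
  rfl

lemma measurableSet_box (L : ℝ) : MeasurableSet (box L) := by
  have : box L = ⋂ d : Fin 3, (fun x : E3 => x d) ⁻¹' Icc 0 L := by
    ext x
    simp [box]
  rw [this]
  exact MeasurableSet.iInter fun d => measurable_coord d measurableSet_Icc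

lemma box_subset_Cb {L ℓ : ℝ} (h : L < ℓ) : box L ⊆ Cb ℓ :=
  fun _ hx d => ⟨(hx d).1, (hx d).2.trans_lt h⟩

lemma Cb_subset_box {L ℓ : ℝ} (h : ℓ ≤ L) : Cb ℓ ⊆ box L :=
  fun _ hx d => ⟨(hx d).1, (hx d).2.le.trans h⟩

lemma lt_ceil_add (L : ℝ) : L < ((⌈L⌉₊ + 1 : ℕ) : ℝ) := by
  push_cast
  linarith [Nat.le_ceil L]

lemma volume_box_ne_top (L : ℝ) : volume (box L) ≠ ⊤ := by
  have h := measure_mono (μ := (volume : Measure E3)) (box_subset_Cb (lt_ceil_add L))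
  rw [volume_Cb_nat] at h
  exact ne_top_of_le_ne_top ENNReal.ofReal_ne_top h

section good

variable {v : ℝ → ℝ} {a b : ℝ}

lemma Xi_box_ne_top (hG : Good v a b) (L μ : ℝ) : Xi (box L) (rad v) μ ≠ ⊤ :=
  ne_top_of_le_ne_top (Xi_Cb_ne_top hG (by omega) μ) (Xi_mono_set (box_subset_Cb (lt_ceil_add L)) _ _)

lemma exp_pairE_le (hG : Good v a b) {L : ℝ} {N : ℕ} {X : Fin N → E3} (hX : ∀ i, X i ∈ box L) :
    pairE (rad v) X ≤ a * N := by
  have h := hG.stab (⌈L⌉₊ + 1) (by omega) N X (fun i => box_subset_Cb (lt_ceil_add L) (hX i))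
  have hb := hG.bpos
  have h0 : 0 ≤ b * ((N : ℝ) ^ 2 / (((⌈L⌉₊ + 1 : ℕ) : ℝ)) ^ 3) := by positivity
  linarith

lemma integrableOn_exp (hG : Good v a b) (L : ℝ) (N : ℕ) :
    IntegrableOn (fun x : Fin N → E3 => Real.exp (pairE (rad v) x))
      (Set.pi univ fun _ => box L) := by
  have hm : Measurable (fun x : Fin N → E3 => Real.exp (pairE (rad v) x)) :=
    Real.measurable_exp.comp (measurable_pairE (measurable_rad hG.meas))
  refine Measure.integrableOn_of_bounded (M := Real.exp (a * N)) ?_ hm.aestronglyMeasurable ?_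
  · rw [volume_piA]
    exact ENNReal.pow_ne_top (volume_box_ne_top L)
  · rw [ae_restrict_iff' (measurableSet_piA (measurableSet_box L))]
    refine Filter.Eventually.of_forall fun x hx => ?_
    rw [Real.norm_eq_abs, abs_of_pos (Real.exp_pos _)]
    exact Real.exp_le_exp.2 (exp_pairE_le hG (pi_mem_iff.1 hx))

lemma Zpart_eq (hG : Good v a b) (L : ℝ) (N : ℕ) :
    Zpart (fun r => -v r) 1 L N = (Zc (box L) (rad v) N).toReal := by
  have e : ∀ x : Fin N → E3,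
      Real.exp (-1 * energy (fun r => -v r) x) = Real.exp (pairE (rad v) x) := by
    intro x
    rw [energy_neg]
    congr 1
    ring
  unfold Zpart Zc Zi
  simp only [e]
  have h := ofReal_integral_eq_lintegral_ofReal (integrableOn_exp hG L N)
    (ae_of_all _ fun x => (Real.exp_pos _).le)
  rw [ENNReal.toReal_mul, lintegral_indicator (measurableSet_piA (measurableSet_box L))]
  have h2 : ∫⁻ a : Fin N → E3 in Set.pi univ (fun _ => box L), wgt (rad v) a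
      = ENNReal.ofReal (∫ x in Set.pi univ (fun _ : Fin N => box L), Real.exp (pairE (rad v) x)) :=
    h.symm
  rw [h2, ENNReal.toReal_ofReal (integral_nonneg fun x => (Real.exp_pos _).le), ENNReal.toReal_inv,
    ENNReal.toReal_natCast]

lemma gpf_term (hG : Good v a b) {z : ℝ} (hz : 0 < z) (L : ℝ) (N : ℕ) :
    z ^ N * Zpart (fun r => -v r) 1 L N = (xt (box L) (rad v) (Real.log z) N).toReal := by
  unfold xt
  rw [ENNReal.toReal_mul, ENNReal.toReal_ofReal (Real.exp_pos _).le, Zpart_eq hG,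
    mul_comm (Real.log z), Real.exp_nat_mul, Real.exp_log hz]

lemma summable_gpf (hG : Good v a b) {z : ℝ} (hz : 0 < z) (L : ℝ) :
    Summable (fun N : ℕ => z ^ N * Zpart (fun r => -v r) 1 L N) := by
  simp only [gpf_term hG hz]
  exact ENNReal.summable_toReal (Xi_box_ne_top hG L _)

lemma log_gpf (hG : Good v a b) {z : ℝ} (hz : 0 < z) (L : ℝ) :
    Real.log (gpf (fun r => -v r) 1 L z) = Lg (Xi (box L) (rad v) (Real.log z)) := by
  unfold gpf Lg Xi
  simp only [gpf_term hG hz]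
  rw [ENNReal.tsum_toReal_eq]
  exact fun N => ne_top_of_le_ne_top (Xi_box_ne_top hG L _) (xt_le_Xi _ _ _ N)

lemma Lg_box_le (hG : Good v a b) {L : ℝ} (hL : 0 ≤ L) (μ : ℝ) :
    Lg (Xi (box L) (rad v) μ) ≤ (L + 3) ^ 3 * Pr v μ := by
  have h1 := Lg_mono (one_le_Xi (measurableSet_box L) (rad v) μ)
    (Xi_mono_set (box_subset_Cb (lt_ceil_add L)) _ _) (Xi_Cb_ne_top hG (by omega) μ)
  have h2 := Lg_Xi_le_Pr hG (ℓ := ⌈L⌉₊ + 1) (by omega) μ
  have h3 : ((⌈L⌉₊ + 1 : ℕ) : ℝ) + 1 ≤ L + 3 := by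
    push_cast
    linarith [(Nat.ceil_lt_add_one hL).le]
  have h4 := Pr_nonneg hG μ
  have h5 : (((⌈L⌉₊ + 1 : ℕ) : ℝ) + 1) ^ 3 ≤ (L + 3) ^ 3 :=
    pow_le_pow_left₀ (by positivity) h3 3
  exact h1.trans (h2.trans (mul_le_mul_of_nonneg_right h5 h4))

lemma Lg_box_ge (hG : Good v a b) {ℓ : ℕ} (hℓ : 1 ≤ ℓ) {L : ℝ} (hL : (ℓ : ℝ) + 1 ≤ L) (μ : ℝ) :
    (L - ((ℓ : ℝ) + 1)) ^ 3 * term v μ ℓ ≤ Lg (Xi (box L) (rad v) μ) := by
  have hd : (0:ℝ) < (ℓ : ℝ) + 1 := by positivity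
  set M : ℕ := ⌊L / ((ℓ : ℝ) + 1)⌋₊ with hM
  have hq : 1 ≤ L / ((ℓ : ℝ) + 1) := by rwa [one_le_div hd]
  have hM1 : 1 ≤ M := Nat.le_floor (by simpa using hq)
  have hL0 : 0 ≤ L := by linarith
  have hM2 : (M : ℝ) ≤ L / ((ℓ : ℝ) + 1) := Nat.floor_le (by positivity)
  have hM3 : L / ((ℓ : ℝ) + 1) < M + 1 := Nat.lt_floor_add_one _
  have hM4 : (M : ℝ) * ((ℓ : ℝ) + 1) ≤ L := by rwa [le_div_iff₀ hd] at hM2
  have hM5 : L - ((ℓ : ℝ) + 1) ≤ (M : ℝ) * ((ℓ : ℝ) + 1) := by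
    rw [div_lt_iff₀ hd] at hM3
    nlinarith
  have hsub : Cb ((M * (ℓ + 1) : ℕ) : ℝ) ⊆ box L := Cb_subset_box (by push_cast; exact hM4)
  have h1 := Lg_big_ge hG hℓ hM1 μ
  have h2 := Lg_mono (one_le_Xi (measurableSet_Cb _) (rad v) μ)
    (Xi_mono_set hsub (rad v) μ) (Xi_box_ne_top hG L μ)
  have ht := term_nonneg hG hℓ μ
  have e : Lg (Xi (Cb ℓ) (rad v) μ) = ((ℓ : ℝ) + 1) ^ 3 * term v μ ℓ := by
    unfold term
    have : (((ℓ : ℝ) + 1) ^ 3) ≠ 0 := by positivity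
    field_simp
  rw [e] at h1
  have h3 : (L - ((ℓ : ℝ) + 1)) ^ 3 ≤ ((M : ℝ) * ((ℓ : ℝ) + 1)) ^ 3 :=
    pow_le_pow_left₀ (by linarith) hM5 3
  calc (L - ((ℓ : ℝ) + 1)) ^ 3 * term v μ ℓ
      ≤ ((M : ℝ) * ((ℓ : ℝ) + 1)) ^ 3 * term v μ ℓ := mul_le_mul_of_nonneg_right h3 ht
    _ = (M : ℝ) ^ 3 * (((ℓ : ℝ) + 1) ^ 3 * term v μ ℓ) := by ring
    _ ≤ _ := h1.trans h2

/-- The pressure is the limit along the closed cubes. -/
theorem tendsto_Pr (hG : Good v a b) (μ : ℝ) :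
    Tendsto (fun L : ℝ => (L ^ 3)⁻¹ * Lg (Xi (box L) (rad v) μ)) atTop (𝓝 (Pr v μ)) := by
  refine tendsto_order.2 ⟨fun c hc => ?_, fun c hc => ?_⟩
  · obtain ⟨n, hn⟩ := exists_lt_of_lt_ciSup hc
    set ℓ := n + 1 with hℓdef
    have hℓ : 1 ≤ ℓ := by omega
    have hlim : Tendsto (fun L : ℝ => (1 - ((ℓ : ℝ) + 1) / L) ^ 3 * term v μ ℓ) atTop
        (𝓝 ((1 - 0) ^ 3 * term v μ ℓ)) :=
      ((tendsto_const_nhds.sub (tendsto_const_nhds.div_atTop tendsto_id)).pow 3).mul_const _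
    have hlim' : (1 - 0 : ℝ) ^ 3 * term v μ ℓ = term v μ ℓ := by ring
    rw [hlim'] at hlim
    have hev := hlim.eventually (lt_mem_nhds hn)
    filter_upwards [hev, eventually_ge_atTop ((ℓ : ℝ) + 1)] with L h1 h2
    refine h1.trans_le ?_
    have hd : (0:ℝ) < (ℓ : ℝ) + 1 := by positivity
    have hL : 0 < L := by linarith
    have h3 := Lg_box_ge hG hℓ h2 μ
    have e : (1 - ((ℓ : ℝ) + 1) / L) ^ 3 = (L ^ 3)⁻¹ * (L - ((ℓ : ℝ) + 1)) ^ 3 := by
      field_simp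
    rw [e, mul_assoc]
    exact mul_le_mul_of_nonneg_left h3 (by positivity)
  · have hlim : Tendsto (fun L : ℝ => (1 + 3 / L) ^ 3 * Pr v μ) atTop
        (𝓝 ((1 + 0) ^ 3 * Pr v μ)) :=
      ((tendsto_const_nhds.add (tendsto_const_nhds.div_atTop tendsto_id)).pow 3).mul_const _
    have hlim' : (1 + 0 : ℝ) ^ 3 * Pr v μ = Pr v μ := by ring
    rw [hlim'] at hlim
    have hev := hlim.eventually (gt_mem_nhds hc)
    filter_upwards [hev, eventually_gt_atTop (0:ℝ)] with L h1 hL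
    refine lt_of_le_of_lt ?_ h1
    have h3 := Lg_box_le hG hL.le μ
    have e : (1 + 3 / L) ^ 3 = (L ^ 3)⁻¹ * (L + 3) ^ 3 := by
      field_simp
    rw [e, mul_assoc]
    exact mul_le_mul_of_nonneg_left h3 (by positivity)

/-- The grand-canonical limit for a good profile. -/
theorem tendsto_log_gpf (hG : Good v a b) {z : ℝ} (hz : 0 < z) :
    Tendsto (fun L : ℝ => (L ^ 3)⁻¹ * Real.log (gpf (fun r => -v r) 1 L z)) atTop
      (𝓝 (Pr v (Real.log z))) := by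
  simp only [log_gpf hG hz]
  exact tendsto_Pr hG _

/-- A kink in the chemical potential is a kink in the activity. -/
theorem kink_activity {μ : ℝ} (h : ¬ DifferentiableAt ℝ (Pr v) μ) :
    ¬ DifferentiableAt ℝ (fun z => Pr v (Real.log z)) (Real.exp μ) := by
  intro hd
  apply h
  have hd2 : DifferentiableAt ℝ (fun z => Pr v (Real.log z)) (Real.exp μ) := hd
  have h3 := hd2.comp μ Real.differentiableAt_exp
  have e : ((fun z => Pr v (Real.log z)) ∘ Real.exp) = Pr v := by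
    funext y
    simp
  rwa [e] at h3

end good

section concrete

variable {T₀ : ℕ} {cs : ℝ}

/-- One term of the attractive tail at distance `r`. -/
lemma term_decay (hcs : 0 ≤ cs) (h : 2 ≤ T₀) {r : ℝ} (hr : 1 ≤ r) (k : ℕ) :
    cm cs T₀ k * ker (Rs T₀ k) r
      ≤ (16 * cs * (T₀ : ℝ) ^ 2 / b1) * r ^ (-3 - 1 / 64 : ℝ) * (1 / ((Tk T₀ k : ℕ) : ℝ)) := by
  have hb := b1_pos
  have hr0 : 0 < r := by linarith
  have hT := Tk_real_pos h k
  have hT2 := Tk_real_ge_two h k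
  set T : ℝ := ((Tk T₀ k : ℕ) : ℝ) with hTdef
  have hrp : 0 < r ^ (-3 - 1 / 64 : ℝ) := Real.rpow_pos_of_pos hr0 _
  have hT₀ : (0:ℝ) ≤ T₀ := Nat.cast_nonneg _
  by_cases hk : 2 * Rs T₀ k ≤ r
  · rw [ker_eq_zero hk, mul_zero]
    positivity
  · have hk' : r < 2 * T ^ 64 := by
      have := not_le.1 hk
      simpa [Rs, hTdef] using this
    have hRpos : 0 < Rs T₀ k := by
      unfold Rs
      positivity
    have h1 : ker (Rs T₀ k) r ≤ (b1 * (T ^ 64) ^ 3)⁻¹ := ker_le hRpos r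
    have hp : r ^ ((3:ℝ) + 1 / 64) ≤ 16 * T ^ 193 := by
      have e1 : r ^ ((3:ℝ) + 1 / 64) ≤ (2 * T ^ 64) ^ ((3:ℝ) + 1 / 64) :=
        Real.rpow_le_rpow hr0.le hk'.le (by norm_num)
      have e2 : (2 * T ^ 64) ^ ((3:ℝ) + 1 / 64)
          = 2 ^ ((3:ℝ) + 1 / 64) * (T ^ 64) ^ ((3:ℝ) + 1 / 64) :=
        Real.mul_rpow (by norm_num) (by positivity)
      have e3 : (T ^ 64) ^ ((3:ℝ) + 1 / 64) = T ^ 193 := by
        rw [← Real.rpow_natCast T 64, ← Real.rpow_mul hT.le, ← Real.rpow_natCast T 193]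
        norm_num
      have e4 : (2:ℝ) ^ ((3:ℝ) + 1 / 64) ≤ 16 := by
        calc (2:ℝ) ^ ((3:ℝ) + 1 / 64) ≤ 2 ^ (4:ℝ) :=
              Real.rpow_le_rpow_of_exponent_le (by norm_num) (by norm_num)
          _ = 16 := by norm_num
      rw [e2, e3] at e1
      exact e1.trans (mul_le_mul_of_nonneg_right e4 (by positivity))
    have hp2 : (16 * T ^ 193)⁻¹ ≤ r ^ (-3 - 1 / 64 : ℝ) := by
      have e5 : (-3 - 1 / 64 : ℝ) = -((3:ℝ) + 1 / 64) := by ring
      rw [e5, Real.rpow_neg hr0.le]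
      exact inv_anti₀ (Real.rpow_pos_of_pos hr0 _) hp
    have hc : cm cs T₀ k = cs * (T₀ : ℝ) ^ 2 / T ^ 2 := rfl
    rw [hc]
    calc cs * (T₀ : ℝ) ^ 2 / T ^ 2 * ker (Rs T₀ k) r
        ≤ cs * (T₀ : ℝ) ^ 2 / T ^ 2 * (b1 * (T ^ 64) ^ 3)⁻¹ :=
          mul_le_mul_of_nonneg_left h1 (by positivity)
      _ = (16 * cs * (T₀ : ℝ) ^ 2 / b1) * (16 * T ^ 193)⁻¹ * (1 / T) := by
          field_simp
      _ ≤ _ := by
          apply mul_le_mul_of_nonneg_right _ (by positivity)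
          exact mul_le_mul_of_nonneg_left hp2 (by positivity)

/-- The decay of the attractive tail. -/
lemma attr_decay (hcs : 0 ≤ cs) (h : 2 ≤ T₀) {r : ℝ} (hr : 1 ≤ r) :
    attr (Rs T₀) (cm cs T₀) r
      ≤ (16 * cs * (T₀ : ℝ) ^ 2 / b1) * r ^ (-3 - 1 / 64 : ℝ) * (2 / (T₀ : ℝ)) := by
  have hb := b1_pos
  have hr0 : 0 < r := by linarith
  have hrp : 0 < r ^ (-3 - 1 / 64 : ℝ) := Real.rpow_pos_of_pos hr0 _
  unfold attr
  refine Real.tsum_le_of_sum_range_le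
    (fun k => mul_nonneg (cm_nonneg hcs k) (ker_nonneg _ _)) fun K => ?_
  calc ∑ k ∈ Finset.range K, cm cs T₀ k * ker (Rs T₀ k) r
      ≤ ∑ k ∈ Finset.range K,
          (16 * cs * (T₀ : ℝ) ^ 2 / b1) * r ^ (-3 - 1 / 64 : ℝ) * (1 / ((Tk T₀ k : ℕ) : ℝ)) :=
        Finset.sum_le_sum fun k _ => term_decay hcs h hr k
    _ = (16 * cs * (T₀ : ℝ) ^ 2 / b1) * r ^ (-3 - 1 / 64 : ℝ)
          * ∑ k ∈ Finset.range K, (1 / ((Tk T₀ k : ℕ) : ℝ)) := by
        rw [Finset.mul_sum]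
    _ ≤ _ := mul_le_mul_of_nonneg_left (sum_inv_Tk_le h K) (by positivity)

end concrete

lemma abs_vpot_le {Rk c : ℕ → ℝ} (hRk : ∀ k, 1 ≤ Rk k) (hc : ∀ k, 0 ≤ c k) (hcs : Summable c)
    {W : ℝ} (hW : 0 ≤ W) (r : ℝ) : |vpot Rk W c r| ≤ W + (∑' k, c k) * b1⁻¹ := by
  have h1 := attr_nonneg hRk hc hcs r
  have h2 := attr_le hRk hc hcs r
  unfold vpot
  rw [abs_le]
  split_ifs <;> constructor <;> linarith

/-- The properties of the concrete potential, given the convexity defect. -/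
theorem potential_props {T₀ : ℕ} {cs : ℝ} (hcs : 0 < cs) (hT₀ : 2 ≤ T₀) {μ J : ℝ} (hJ : 0 < J)
    (hdef : ∀ t : ℝ, 0 < t → t ≤ 1 →
      J * t ≤ Pr (vpot (Rs T₀) (48 * (2 * cs)) (cm cs T₀)) (μ + t)
        + Pr (vpot (Rs T₀) (48 * (2 * cs)) (cm cs T₀)) (μ - t)
        - 2 * Pr (vpot (Rs T₀) (48 * (2 * cs)) (cm cs T₀)) μ) :
    ∃ φ : ℝ → ℝ, Measurable φ ∧ (∃ M : ℝ, ∀ r, |φ r| ≤ M) ∧
      (∃ C ε : ℝ, 0 < C ∧ 0 < ε ∧ ∀ r : ℝ, 1 ≤ r → |φ r| ≤ C * r ^ (-3 - ε)) ∧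
      IsLocBdd φ ∧ IsStable φ ∧ IsTempered φ ∧ HasPressureKink φ := by
  have hb := b1_pos
  set V := vpot (Rs T₀) (48 * (2 * cs)) (cm cs T₀) with hV
  have hG : Good V (24 * (2 * cs)) (9 / 5 * (2 * cs)) := good_cm hcs hT₀
  have hRk : ∀ k, 20 ≤ Rs T₀ k := Rs_ge_20 hT₀
  have hRk1 : ∀ k, 1 ≤ Rs T₀ k := fun k => by linarith [hRk k]
  have hc : ∀ k, 0 ≤ cm cs T₀ k := cm_nonneg hcs.le
  have hcsum : Summable (cm cs T₀) := summable_cm hcs.le hT₀
  have hsum : ∑' k, cm cs T₀ k ≤ 2 * cs := tsum_cm_le hcs.le hT₀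
  have hW : 0 ≤ 48 * (2 * cs) := by positivity
  have hbd : ∀ r, |(fun r => -V r) r| ≤ 48 * (2 * cs) + (∑' k, cm cs T₀ k) * b1⁻¹ := by
    intro r
    simp only [abs_neg]
    exact abs_vpot_le hRk1 hc hcsum hW r
  have hfar : ∀ r, 1 ≤ r → V r = attr (Rs T₀) (cm cs T₀) r := by
    intro r hr
    simp only [hV, vpot, if_neg (not_lt.2 hr)]
    ring
  refine ⟨fun r => -V r, hG.meas.neg, ⟨_, hbd⟩, ?_, ?_, ?_, ?_, ?_⟩
  · -- two-sided decay
    refine ⟨(16 * cs * (T₀ : ℝ) ^ 2 / b1) * (2 / (T₀ : ℝ)) + 1, 1 / 64, ?_, by norm_num, ?_⟩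
    · have hT₀0 : (0:ℝ) ≤ T₀ := Nat.cast_nonneg _
      positivity
    · intro r hr
      have hr0 : 0 < r := by linarith
      have hrp : 0 < r ^ (-3 - 1 / 64 : ℝ) := Real.rpow_pos_of_pos hr0 _
      have h1 := attr_decay hcs.le hT₀ hr
      have h0 := attr_nonneg hRk1 hc hcsum r
      simp only [abs_neg, hfar r hr]
      rw [abs_of_nonneg h0]
      nlinarith
  · -- locally bounded
    exact fun _ _ _ => ⟨_, fun r _ => hbd r⟩
  · -- stable
    refine ⟨48 * cs, fun N x _ => ?_⟩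
    rw [energy_neg]
    have h1 := pairE_vpot_le hRk hc hcsum hW x
    rw [Fintype.card_fin] at h1
    have h2 := Sp_nonneg (1 / 2) s0 x
    have h3 : 0 ≤ (48 * (2 * cs) / 2 - 8 * ∑' k, cm cs T₀ k) * Sp (1 / 2) s0 x :=
      mul_nonneg (by linarith) h2
    have e : 48 * (2 * cs) / 2 * (N : ℝ) = 48 * cs * N := by ring
    have h4 : pairE (rad V) x ≤ 48 * cs * N := by
      rw [← e]
      linarith
    have e2 : -(48 * cs) * (N : ℝ) = -(48 * cs * N) := by ring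
    rw [e2]
    linarith
  · -- tempered
    refine ⟨1, 1, 1, one_pos, one_pos, one_pos, fun r hr => ?_⟩
    have h0 := attr_nonneg hRk1 hc hcsum r
    have hr0 : 0 < r := by linarith
    have hrp : 0 < r ^ (-3 - 1 : ℝ) := Real.rpow_pos_of_pos hr0 _
    simp only [hfar r hr]
    linarith
  · -- the kink
    refine ⟨1, one_pos, fun z => Pr V (Real.log z), ?_, ?_, Real.exp μ, Real.exp_pos μ, ?_⟩
    · intro z L hz _
      refine ⟨fun N => ?_, summable_gpf hG hz L⟩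
      have e : (fun x : Fin N → E3 => Real.exp (-1 * energy (fun r => -V r) x))
          = fun x => Real.exp (pairE (rad V) x) := by
        funext x
        rw [energy_neg]
        congr 1
        ring
      rw [e]
      exact integrableOn_exp hG L N
    · intro z hz
      exact tendsto_log_gpf hG hz
    · exact kink_activity (not_differentiableAt_of_defect hJ hdef)

/-- A stable tempered radial pair potential with a pressure kink. -/
theorem exists_potential_with_kink :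
    ∃ φ : ℝ → ℝ, Measurable φ ∧ (∃ M : ℝ, ∀ r, |φ r| ≤ M) ∧
      (∃ C ε : ℝ, 0 < C ∧ 0 < ε ∧ ∀ r : ℝ, 1 ≤ r → |φ r| ≤ C * r ^ (-3 - ε)) ∧
      IsLocBdd φ ∧ IsStable φ ∧ IsTempered φ ∧ HasPressureKink φ := by
  obtain ⟨T₀, hT₀, μ, J, hJ, hdef⟩ := kink_main
  exact potential_props (by norm_num) hT₀ hJ hdef

end Vale.Agent.Lib.P171H
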