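import Vale.Agent.Lib.P171H.Grand

/-!
Hölder's inequality for grand-canonical sums and translation invariance.
-/

open MeasureTheory Set
open scoped ENNReal

set_option linter.unusedSectionVars false

namespace Vale.Agent.Lib.P171H

variable {E : Type*} [MeasureSpace E]

lemma pairE_comb {ι : Type*} [Fintype ι] (V₀ V₁ : E → E → ℝ) (p q : ℝ) (X : ι → E) :
    pairE (fun x y => p * V₀ x y + q * V₁ x y) X = p * pairE V₀ X + q * pairE V₁ X := by
  classical
  unfold pairE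
  rw [mul_left_comm p, mul_left_comm q, ← mul_add]
  congr 1
  rw [Finset.mul_sum, Finset.mul_sum, ← Finset.sum_add_distrib]
  apply Finset.sum_congr rfl
  intro i _
  rw [Finset.mul_sum, Finset.mul_sum, ← Finset.sum_add_distrib]
  apply Finset.sum_congr rfl
  intro j _
  split_ifs <;> ring

lemma wgt_comb {ι : Type*} [Fintype ι] (V₀ V₁ : E → E → ℝ) (p q : ℝ) (X : ι → E) :
    wgt (fun x y => p * V₀ x y + q * V₁ x y) X = wgt V₀ X ^ p * wgt V₁ X ^ q := by
  unfold wgt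
  rw [pairE_comb, ENNReal.ofReal_rpow_of_pos (Real.exp_pos _),
    ENNReal.ofReal_rpow_of_pos (Real.exp_pos _), ← ENNReal.ofReal_mul (by positivity),
    ← Real.exp_mul, ← Real.exp_mul, ← Real.exp_add]
  congr 2
  ring

variable [SigmaFinite (volume : Measure E)]

lemma Zi_holder {ι : Type*} [Fintype ι] {A : Set E} (hA : MeasurableSet A) {V₀ V₁ : E → E → ℝ}
    (hV₀ : Measurable (Function.uncurry V₀)) (hV₁ : Measurable (Function.uncurry V₁))
    {p q : ℝ} (hp : 0 ≤ p) (hq : 0 ≤ q) (hpq : p + q = 1) :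
    Zi A (fun x y => p * V₀ x y + q * V₁ x y) ι ≤ Zi A V₀ ι ^ p * Zi A V₁ ι ^ q := by
  unfold Zi
  refine le_trans ?_ (ENNReal.lintegral_mul_norm_pow_le
    (measurable_piInd (ι := ι) hA hV₀).aemeasurable (measurable_piInd (ι := ι) hA hV₁).aemeasurable
    hp hq hpq)
  apply lintegral_mono
  intro X
  by_cases hX : ∀ i, X i ∈ A
  · have h1 : X ∈ Set.pi univ (fun _ : ι => A) := pi_mem_iff.2 hX
    simp only [indicator_of_mem h1]
    rw [wgt_comb]
  · have h1 : X ∉ Set.pi univ (fun _ : ι => A) := fun h => hX (pi_mem_iff.1 h)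
    simp only [indicator_of_notMem h1]
    exact zero_le

lemma xt_holder {A : Set E} (hA : MeasurableSet A) {V₀ V₁ : E → E → ℝ}
    (hV₀ : Measurable (Function.uncurry V₀)) (hV₁ : Measurable (Function.uncurry V₁))
    {p q : ℝ} (hp : 0 ≤ p) (hq : 0 ≤ q) (hpq : p + q = 1) (μ₀ μ₁ : ℝ) (N : ℕ) :
    xt A (fun x y => p * V₀ x y + q * V₁ x y) (p * μ₀ + q * μ₁) N
      ≤ xt A V₀ μ₀ N ^ p * xt A V₁ μ₁ N ^ q := by
  unfold xt Zc
  rw [ENNReal.mul_rpow_of_nonneg _ _ hp, ENNReal.mul_rpow_of_nonneg _ _ hq,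
    ENNReal.mul_rpow_of_nonneg _ _ hp, ENNReal.mul_rpow_of_nonneg _ _ hq]
  have e1 : ENNReal.ofReal (Real.exp ((p * μ₀ + q * μ₁) * N))
      = ENNReal.ofReal (Real.exp (μ₀ * N)) ^ p * ENNReal.ofReal (Real.exp (μ₁ * N)) ^ q := by
    rw [ENNReal.ofReal_rpow_of_pos (Real.exp_pos _),
      ENNReal.ofReal_rpow_of_pos (Real.exp_pos _), ← ENNReal.ofReal_mul (by positivity),
      ← Real.exp_mul, ← Real.exp_mul, ← Real.exp_add]
    congr 2
    ring
  have e2 : ((N.factorial : ℝ≥0∞))⁻¹ = ((N.factorial : ℝ≥0∞))⁻¹ ^ p * ((N.factorial : ℝ≥0∞))⁻¹ ^ q := by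
    rw [← ENNReal.rpow_add_of_nonneg _ _ hp hq, hpq, ENNReal.rpow_one]
  have h3 := Zi_holder (ι := Fin N) hA hV₀ hV₁ hp hq hpq
  calc _ ≤ ENNReal.ofReal (Real.exp ((p * μ₀ + q * μ₁) * N)) * (((N.factorial : ℝ≥0∞))⁻¹
        * (Zi A V₀ (Fin N) ^ p * Zi A V₁ (Fin N) ^ q)) := by gcongr
    _ = _ := by
      rw [e1]
      nth_rewrite 1 [e2]
      ring

/-- Hölder's inequality for grand-canonical sums, jointly in the pair function and the chemical
potential. -/
theorem Xi_holder {A : Set E} (hA : MeasurableSet A) {V₀ V₁ : E → E → ℝ}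
    (hV₀ : Measurable (Function.uncurry V₀)) (hV₁ : Measurable (Function.uncurry V₁))
    {p q : ℝ} (hp : 0 ≤ p) (hq : 0 ≤ q) (hpq : p + q = 1) (μ₀ μ₁ : ℝ) :
    Xi A (fun x y => p * V₀ x y + q * V₁ x y) (p * μ₀ + q * μ₁)
      ≤ Xi A V₀ μ₀ ^ p * Xi A V₁ μ₁ ^ q := by
  unfold Xi
  calc _ ≤ ∑' N, xt A V₀ μ₀ N ^ p * xt A V₁ μ₁ N ^ q :=
        ENNReal.tsum_le_tsum fun N => xt_holder hA hV₀ hV₁ hp hq hpq μ₀ μ₁ N
    _ = ∫⁻ N, xt A V₀ μ₀ N ^ p * xt A V₁ μ₁ N ^ q ∂Measure.count := (lintegral_count _).symm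
    _ ≤ (∫⁻ N, xt A V₀ μ₀ N ∂Measure.count) ^ p * (∫⁻ N, xt A V₁ μ₁ N ∂Measure.count) ^ q :=
        ENNReal.lintegral_mul_norm_pow_le (Measurable.of_discrete).aemeasurable
          (Measurable.of_discrete).aemeasurable hp hq hpq
    _ = _ := by rw [lintegral_count, lintegral_count]

/-- Translation (or any measure-preserving symmetry of the pair function). -/
lemma Zi_transl {ι : Type*} [Fintype ι] {τ : E → E} (hτ : MeasurePreserving τ volume volume)
    {A : Set E} (hA : MeasurableSet A) {V : E → E → ℝ} (hV : Measurable (Function.uncurry V))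
    (hT : ∀ x y, V (τ x) (τ y) = V x y) : Zi (τ ⁻¹' A) V ι = Zi A V ι := by
  classical
  have mp : MeasurePreserving (fun (X : ι → E) (i : ι) => τ (X i)) volume volume :=
    volume_preserving_pi fun _ => hτ
  have h := mp.lintegral_comp (measurable_piInd (ι := ι) hA hV)
  unfold Zi
  rw [← h]
  apply lintegral_congr
  intro X
  have hw : wgt V (fun i => τ (X i)) = wgt V X := by
    unfold wgt pairE
    simp only [hT]
  by_cases hX : ∀ i, τ (X i) ∈ A
  · have h1 : (fun i => τ (X i)) ∈ Set.pi univ (fun _ : ι => A) := pi_mem_iff.2 hX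
    have h2 : X ∈ Set.pi univ (fun _ : ι => τ ⁻¹' A) := pi_mem_iff.2 hX
    rw [indicator_of_mem h1, indicator_of_mem h2, hw]
  · have h1 : (fun i => τ (X i)) ∉ Set.pi univ (fun _ : ι => A) := fun h => hX (pi_mem_iff.1 h)
    have h2 : X ∉ Set.pi univ (fun _ : ι => τ ⁻¹' A) := fun h => hX (pi_mem_iff.1 h)
    rw [indicator_of_notMem h1, indicator_of_notMem h2]

lemma Xi_transl {τ : E → E} (hτ : MeasurePreserving τ volume volume)
    {A : Set E} (hA : MeasurableSet A) {V : E → E → ℝ} (hV : Measurable (Function.uncurry V))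
    (hT : ∀ x y, V (τ x) (τ y) = V x y) (μ : ℝ) : Xi (τ ⁻¹' A) V μ = Xi A V μ := by
  unfold Xi xt Zc
  simp only [Zi_transl hτ hA hV hT]

end Vale.Agent.Lib.P171H
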