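import Vale.Agent.Lib.P171H.Defs
import Vale.Agent.Lib.P171H.Holder

/-!
Cubes, grids and balls in three-dimensional Euclidean space.
-/

open MeasureTheory Set Metric
open scoped ENNReal

namespace Vale.Agent.Lib.P171H

lemma abs_coord_le_norm (x : E3) (d : Fin 3) : |x d| ≤ ‖x‖ := by
  have := PiLp.norm_apply_le x d
  simpa using this

lemma measurable_coord (d : Fin 3) : Measurable (fun x : E3 => x d) :=
  (EuclideanSpace.proj d : E3 →L[ℝ] ℝ).continuous.measurable

/-- Coordinates below `h` give norm below `2 h`. -/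
lemma norm_lt_of_coords {x : E3} {h : ℝ} (hh : 0 < h) (H : ∀ d, |x d| < h) : ‖x‖ < 2 * h := by
  rw [EuclideanSpace.norm_eq, Real.sqrt_lt' (by positivity)]
  have : ∀ d : Fin 3, ‖x d‖ ^ 2 ≤ h ^ 2 := fun d => by
    rw [Real.norm_eq_abs, sq_abs]
    have := H d
    rw [abs_lt] at this
    nlinarith [this.1, this.2]
  calc ∑ d, ‖x d‖ ^ 2 ≤ ∑ _d : Fin 3, h ^ 2 := Finset.sum_le_sum fun d _ => this d
    _ = 3 * h ^ 2 := by simp
    _ < (2 * h) ^ 2 := by nlinarith [pow_pos hh 2]

/-- The half-open cube `[0,ℓ)^3`. -/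
def Cb (ℓ : ℝ) : Set E3 := {x | ∀ d, 0 ≤ x d ∧ x d < ℓ}

lemma measurableSet_Cb (ℓ : ℝ) : MeasurableSet (Cb ℓ) := by
  have : Cb ℓ = ⋂ d : Fin 3, (fun x : E3 => x d) ⁻¹' Ico 0 ℓ := by
    ext x
    simp [Cb]
  rw [this]
  exact MeasurableSet.iInter fun d => measurable_coord d measurableSet_Ico

lemma volume_Cb {ℓ : ℝ} (hℓ : 0 ≤ ℓ) : volume (Cb ℓ) = ENNReal.ofReal (ℓ ^ 3) := by
  have mp := PiLp.volume_preserving_ofLp (Fin 3)
  have e : Cb ℓ = (@WithLp.ofLp 2 (Fin 3 → ℝ)) ⁻¹' (Set.pi univ fun _ : Fin 3 => Ico (0:ℝ) ℓ) := by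
    ext x
    simp [Cb, Set.mem_pi]
  rw [e, mp.measure_preimage (MeasurableSet.univ_pi fun _ => measurableSet_Ico).nullMeasurableSet,
    Real.volume_pi_Ico]
  simp only [sub_zero, Finset.prod_const, Finset.card_univ, Fintype.card_fin]
  rw [ENNReal.ofReal_pow hℓ]

/-- A vector from its coordinates. -/
noncomputable def vec (t : Fin 3 → ℝ) : E3 := WithLp.toLp 2 t

@[simp] lemma vec_apply (t : Fin 3 → ℝ) (d : Fin 3) : vec t d = t d := rfl

/-- Cube index of a point for the grid of side `h` with shift `s`. -/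
noncomputable def qIdx (h : ℝ) (s : Fin 3 → ℝ) (x : E3) : Fin 3 → ℤ :=
  fun d => ⌊(x d - s d) / h⌋

/-- The grid cube with index `q`. -/
def Qc (h : ℝ) (s : Fin 3 → ℝ) (q : Fin 3 → ℤ) : Set E3 := {x | qIdx h s x = q}

lemma same_cube_coord {h : ℝ} (hh : 0 < h) {s : Fin 3 → ℝ} {x y : E3}
    (he : qIdx h s x = qIdx h s y) (d : Fin 3) : |x d - y d| < h := by
  have h1 := congrFun he d
  have h2 := Int.abs_sub_lt_one_of_floor_eq_floor h1
  have e : (x d - s d) / h - (y d - s d) / h = (x d - y d) / h := by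
    field_simp
    ring
  rw [e, abs_div, abs_of_pos hh, div_lt_one hh] at h2
  exact h2

lemma same_cube_norm {h : ℝ} (hh : 0 < h) {s : Fin 3 → ℝ} {x y : E3}
    (he : qIdx h s x = qIdx h s y) : ‖x - y‖ < 2 * h :=
  norm_lt_of_coords hh fun d => by
    have := same_cube_coord hh he d
    simpa using this

lemma measurable_qIdx {h : ℝ} {s : Fin 3 → ℝ} : Measurable (qIdx h s) := by
  refine measurable_pi_iff.2 fun d => ?_
  exact Int.measurable_floor.comp (((measurable_coord d).sub_const _).div_const _)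

lemma measurableSet_Qc (h : ℝ) (s : Fin 3 → ℝ) (q : Fin 3 → ℤ) : MeasurableSet (Qc h s q) :=
  measurable_qIdx (measurableSet_singleton q)

/-- The corner of the grid cube. -/
noncomputable def corner (h : ℝ) (s : Fin 3 → ℝ) (q : Fin 3 → ℤ) : E3 :=
  vec fun d => s d + h * q d

lemma Qc_eq_preimage {h : ℝ} (hh : 0 < h) (s : Fin 3 → ℝ) (q : Fin 3 → ℤ) :
    Qc h s q = (fun x : E3 => x - corner h s q) ⁻¹' Cb h := by
  ext x
  simp only [Qc, mem_ofPred_eq, Cb, mem_preimage, corner]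
  constructor
  · intro hx d
    have h1 := congrFun hx d
    rw [qIdx, Int.floor_eq_iff] at h1
    have h2 := (le_div_iff₀ hh).1 h1.1
    have h3 := (div_lt_iff₀ hh).1 h1.2
    simp only [PiLp.sub_apply, vec_apply]
    constructor <;> nlinarith
  · intro hx
    funext d
    have h1 := hx d
    simp only [PiLp.sub_apply, vec_apply] at h1
    rw [qIdx, Int.floor_eq_iff]
    constructor
    · rw [le_div_iff₀ hh]; nlinarith [h1.1]
    · rw [div_lt_iff₀ hh]; nlinarith [h1.2]

lemma volume_Qc {h : ℝ} (hh : 0 < h) (s : Fin 3 → ℝ) (q : Fin 3 → ℤ) :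
    volume (Qc h s q) = ENNReal.ofReal (h ^ 3) := by
  rw [Qc_eq_preimage hh, (measurePreserving_sub_right volume (corner h s q)).measure_preimage
    (measurableSet_Cb h).nullMeasurableSet, volume_Cb hh.le]

/-- The volume of the unit ball. -/
noncomputable def b1 : ℝ := (volume (ball (0 : E3) 1)).toReal

lemma b1_pos : 0 < b1 := by
  unfold b1
  apply ENNReal.toReal_pos
  · exact (measure_ball_pos volume _ (by norm_num)).ne'
  · exact measure_ball_lt_top.ne

lemma volume_ball_eq (x : E3) {R : ℝ} (hR : 0 ≤ R) :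
    volume (ball x R) = ENNReal.ofReal (b1 * R ^ 3) := by
  rw [Measure.addHaar_ball volume x hR]
  have : Module.finrank ℝ E3 = 3 := by simp
  rw [this, mul_comm b1, ENNReal.ofReal_mul (by positivity), b1, ENNReal.ofReal_toReal]
  exact measure_ball_lt_top.ne

/-- Disjoint grid cubes inside a ball have total volume at most that of the ball. -/
lemma count_cubes {h r : ℝ} (hh : 0 < h) (hr : 0 ≤ r) (s : Fin 3 → ℝ) (u : E3)
    (Y : Finset (Fin 3 → ℤ)) (H : ∀ q ∈ Y, Qc h s q ⊆ ball u r) :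
    (Y.card : ℝ) * h ^ 3 ≤ b1 * r ^ 3 := by
  have hdisj : Set.PairwiseDisjoint (↑Y) (Qc h s) := by
    intro q _ q' _ hne
    apply Set.disjoint_left.2
    intro x hx hx'
    exact hne (hx.symm.trans hx')
  have h1 := measure_biUnion_finset (μ := volume) hdisj (fun q _ => measurableSet_Qc h s q)
  have h2 : volume (⋃ q ∈ Y, Qc h s q) ≤ volume (ball u r) :=
    measure_mono (iUnion₂_subset H)
  rw [h1, volume_ball_eq u hr] at h2
  simp only [volume_Qc hh, Finset.sum_const, nsmul_eq_mul] at h2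
  have e : (Y.card : ℝ≥0∞) * ENNReal.ofReal (h ^ 3) = ENNReal.ofReal ((Y.card : ℝ) * h ^ 3) := by
    rw [ENNReal.ofReal_mul (by positivity), ENNReal.ofReal_natCast]
  rw [e] at h2
  exact (ENNReal.ofReal_le_ofReal_iff (by have := b1_pos; positivity)).1 h2

end Vale.Agent.Lib.P171H
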