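import Vale.Agent.Lib.P171H.Config

/-!
Grand-canonical sums over configuration integrals: product bounds for disjoint sets,
monotonicity, comparison, translation, Hölder.
-/

open MeasureTheory Set
open scoped ENNReal

set_option linter.unusedSectionVars false

namespace Vale.Agent.Lib.P171H

variable {E : Type*} [MeasureSpace E]

/-- Canonical partition function. -/
noncomputable def Zc (A : Set E) (V : E → E → ℝ) (N : ℕ) : ℝ≥0∞ :=
  ((N.factorial : ℝ≥0∞))⁻¹ * Zi A V (Fin N)

/-- The `N`-particle term of the grand-canonical sum at chemical potential `μ`. -/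
noncomputable def xt (A : Set E) (V : E → E → ℝ) (μ : ℝ) (N : ℕ) : ℝ≥0∞ :=
  ENNReal.ofReal (Real.exp (μ * N)) * Zc A V N

/-- The grand-canonical sum. -/
noncomputable def Xi (A : Set E) (V : E → E → ℝ) (μ : ℝ) : ℝ≥0∞ := ∑' N, xt A V μ N

/-- Cauchy product in the extended non-negative reals. -/
lemma ennreal_cauchy (f g : ℕ → ℝ≥0∞) :
    ∑' N, ∑ k ∈ Finset.range (N + 1), f k * g (N - k) = (∑' k, f k) * ∑' l, g l := by
  have h1 : (∑' k, f k) * ∑' l, g l = ∑' p : ℕ × ℕ, f p.1 * g p.2 := by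
    rw [ENNReal.tsum_prod', ← ENNReal.tsum_mul_right]
    apply tsum_congr
    intro k
    show f k * ∑' l, g l = ∑' b, f k * g b
    rw [ENNReal.tsum_mul_left]
  rw [h1, ← (Finset.HasAntidiagonal.sigmaAntidiagonalEquivProd (A := ℕ)).tsum_eq
    (fun p : ℕ × ℕ => f p.1 * g p.2), ENNReal.tsum_sigma']
  apply tsum_congr
  intro N
  have h2 : ∑' b : ↥(Finset.HasAntidiagonal.antidiagonal N),
      f (Finset.HasAntidiagonal.sigmaAntidiagonalEquivProd ⟨N, b⟩).1 *
        g (Finset.HasAntidiagonal.sigmaAntidiagonalEquivProd ⟨N, b⟩).2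
      = ∑ p ∈ Finset.HasAntidiagonal.antidiagonal N, f p.1 * g p.2 := by
    rw [tsum_fintype]
    exact Finset.sum_coe_sort (Finset.HasAntidiagonal.antidiagonal N) (fun p => f p.1 * g p.2)
  rw [h2, Finset.Nat.sum_antidiagonal_eq_sum_range_succ_mk]

lemma inv_factorial_mul_choose {N m : ℕ} (hm : m ≤ N) :
    ((N.factorial : ℝ≥0∞))⁻¹ * (N.choose m : ℝ≥0∞)
      = ((m.factorial : ℝ≥0∞))⁻¹ * (((N - m).factorial : ℝ≥0∞))⁻¹ := by
  have h := Nat.choose_mul_factorial_mul_factorial hm
  have hc : (N.choose m : ℝ≥0∞) ≠ 0 := by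
    exact_mod_cast (Nat.choose_pos hm).ne'
  have hc' : (N.choose m : ℝ≥0∞) ≠ ⊤ := ENNReal.natCast_ne_top _
  have h1 : ((m.factorial : ℝ≥0∞)) ≠ 0 := by exact_mod_cast (Nat.factorial_pos m).ne'
  have h1' : ((m.factorial : ℝ≥0∞)) ≠ ⊤ := ENNReal.natCast_ne_top _
  have h2 : (((N - m).factorial : ℝ≥0∞)) ≠ 0 := by exact_mod_cast (Nat.factorial_pos _).ne'
  have h2' : (((N - m).factorial : ℝ≥0∞)) ≠ ⊤ := ENNReal.natCast_ne_top _
  have e : (N.factorial : ℝ≥0∞) = (N.choose m : ℝ≥0∞) * m.factorial * (N - m).factorial := by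
    rw [← h]; push_cast; rfl
  rw [e, ENNReal.mul_inv (Or.inl (mul_ne_zero hc h1)) (Or.inl (ENNReal.mul_ne_top hc' h1')),
    ENNReal.mul_inv (Or.inl hc) (Or.inl hc')]
  calc _ = ((N.choose m : ℝ≥0∞))⁻¹ * (N.choose m : ℝ≥0∞) * ((m.factorial : ℝ≥0∞))⁻¹
        * (((N - m).factorial : ℝ≥0∞))⁻¹ := by ring
    _ = _ := by rw [ENNReal.inv_mul_cancel hc hc', one_mul]

variable [SigmaFinite (volume : Measure E)]

/-- The sector sum, with the factorial, is the Cauchy convolution of the canonical functions. -/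
lemma sector_sum_eq {A B : Set E} (hA : MeasurableSet A) (hB : MeasurableSet B)
    {V : E → E → ℝ} (hV : Measurable (Function.uncurry V)) (N : ℕ) :
    ((N.factorial : ℝ≥0∞))⁻¹ * ∑ S : Finset (Fin N), Zi A V {i // inS S i} * Zi B V {i // ¬ inS S i}
      = ∑ k ∈ Finset.range (N + 1), Zc A V k * Zc B V (N - k) := by
  classical
  have hcard : ∀ S : Finset (Fin N), Zi A V {i // inS S i} * Zi B V {i // ¬ inS S i}
      = (fun m => Zi A V (Fin m) * Zi B V (Fin (N - m))) S.card := by
    intro S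
    have h1 : Fintype.card {i // inS S i} = S.card := Fintype.card_of_subtype (p := inS S) S (fun _ => Iff.rfl)
    have h2 : Fintype.card {i // ¬ inS S i} = N - S.card := by
      have := Fintype.card_of_subtype (p := fun i => ¬ inS S i) Sᶜ
        (fun x => by simp [inS])
      rw [this, Finset.card_compl, Fintype.card_fin]
    simp only
    rw [Zi_eq_of_card hA hV h1, Zi_eq_of_card hB hV h2]
  simp_rw [hcard]
  have hsum : ∑ S : Finset (Fin N), (fun m => Zi A V (Fin m) * Zi B V (Fin (N - m))) S.card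
      = ∑ m ∈ Finset.range (N + 1), (N.choose m) •
        (fun m => Zi A V (Fin m) * Zi B V (Fin (N - m))) m := by
    have := Finset.sum_powerset_apply_card (fun m => Zi A V (Fin m) * Zi B V (Fin (N - m)))
      (x := (Finset.univ : Finset (Fin N)))
    rw [Finset.powerset_univ, Finset.card_univ, Fintype.card_fin] at this
    exact this
  rw [hsum, Finset.mul_sum]
  apply Finset.sum_congr rfl
  intro m hm
  have hm' : m ≤ N := Nat.lt_succ_iff.1 (Finset.mem_range.1 hm)
  simp only [nsmul_eq_mul]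
  unfold Zc
  rw [← mul_assoc, inv_factorial_mul_choose hm']
  ring

lemma Zc_union_le {A B : Set E} (hA : MeasurableSet A) (hB : MeasurableSet B) (hd : Disjoint A B)
    {V : E → E → ℝ} (hV : Measurable (Function.uncurry V)) (hS : ∀ x y, V x y = V y x)
    (hc : ∀ x ∈ A, ∀ y ∈ B, V x y ≤ 0) (N : ℕ) :
    Zc (A ∪ B) V N ≤ ∑ k ∈ Finset.range (N + 1), Zc A V k * Zc B V (N - k) := by
  rw [← sector_sum_eq hA hB hV N]
  unfold Zc
  gcongr
  exact Zi_union_le hA hB hd hV hS hc

lemma Zc_union_ge {A B : Set E} (hA : MeasurableSet A) (hB : MeasurableSet B) (hd : Disjoint A B)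
    {V : E → E → ℝ} (hV : Measurable (Function.uncurry V)) (hS : ∀ x y, V x y = V y x)
    (hc : ∀ x ∈ A, ∀ y ∈ B, 0 ≤ V x y) (N : ℕ) :
    ∑ k ∈ Finset.range (N + 1), Zc A V k * Zc B V (N - k) ≤ Zc (A ∪ B) V N := by
  rw [← sector_sum_eq hA hB hV N]
  unfold Zc
  gcongr
  exact Zi_union_ge hA hB hd hV hS hc

lemma xt_convolve (A B : Set E) (V : E → E → ℝ) (μ : ℝ) (N : ℕ) :
    ENNReal.ofReal (Real.exp (μ * N)) * ∑ k ∈ Finset.range (N + 1), Zc A V k * Zc B V (N - k)
      = ∑ k ∈ Finset.range (N + 1), xt A V μ k * xt B V μ (N - k) := by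
  rw [Finset.mul_sum]
  apply Finset.sum_congr rfl
  intro k hk
  have hk' : k ≤ N := Nat.lt_succ_iff.1 (Finset.mem_range.1 hk)
  unfold xt
  have e : ENNReal.ofReal (Real.exp (μ * N))
      = ENNReal.ofReal (Real.exp (μ * k)) * ENNReal.ofReal (Real.exp (μ * (N - k : ℕ))) := by
    rw [← ENNReal.ofReal_mul (Real.exp_pos _).le, ← Real.exp_add]
    congr 2
    rw [Nat.cast_sub hk']
    ring
  rw [e]
  ring

/-- Subadditivity for nonpositive cross terms. -/
theorem Xi_union_le {A B : Set E} (hA : MeasurableSet A) (hB : MeasurableSet B) (hd : Disjoint A B)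
    {V : E → E → ℝ} (hV : Measurable (Function.uncurry V)) (hS : ∀ x y, V x y = V y x)
    (hc : ∀ x ∈ A, ∀ y ∈ B, V x y ≤ 0) (μ : ℝ) : Xi (A ∪ B) V μ ≤ Xi A V μ * Xi B V μ := by
  unfold Xi
  rw [← ennreal_cauchy]
  apply ENNReal.tsum_le_tsum
  intro N
  rw [← xt_convolve]
  unfold xt
  gcongr
  exact Zc_union_le hA hB hd hV hS hc N

/-- Superadditivity for nonnegative cross terms. -/
theorem Xi_union_ge {A B : Set E} (hA : MeasurableSet A) (hB : MeasurableSet B) (hd : Disjoint A B)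
    {V : E → E → ℝ} (hV : Measurable (Function.uncurry V)) (hS : ∀ x y, V x y = V y x)
    (hc : ∀ x ∈ A, ∀ y ∈ B, 0 ≤ V x y) (μ : ℝ) : Xi A V μ * Xi B V μ ≤ Xi (A ∪ B) V μ := by
  unfold Xi
  rw [← ennreal_cauchy]
  apply ENNReal.tsum_le_tsum
  intro N
  rw [← xt_convolve]
  unfold xt
  gcongr
  exact Zc_union_ge hA hB hd hV hS hc N

/-! ### Monotonicity and comparison -/

lemma Zi_mono_set {A B : Set E} (h : A ⊆ B) (V : E → E → ℝ) (ι : Type*) [Fintype ι] :
    Zi A V ι ≤ Zi B V ι := by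
  unfold Zi
  apply lintegral_mono
  intro X
  apply indicator_le_indicator_of_subset
  · intro Y hY
    exact pi_mem_iff.2 fun i => h (pi_mem_iff.1 hY i)
  · intro _
    exact zero_le

lemma Zc_mono_set {A B : Set E} (h : A ⊆ B) (V : E → E → ℝ) (N : ℕ) : Zc A V N ≤ Zc B V N := by
  unfold Zc
  gcongr
  exact Zi_mono_set h V _

lemma Xi_mono_set {A B : Set E} (h : A ⊆ B) (V : E → E → ℝ) (μ : ℝ) : Xi A V μ ≤ Xi B V μ := by
  unfold Xi xt
  apply ENNReal.tsum_le_tsum
  intro N
  gcongr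
  exact Zc_mono_set h V N

lemma volume_piA {ι : Type*} [Fintype ι] (A : Set E) :
    volume (Set.pi univ fun _ : ι => A) = (volume A) ^ Fintype.card ι := by
  rw [volume_pi, Measure.pi_pi]
  simp

lemma pairE_subsingleton {ι : Type*} [Fintype ι] [Subsingleton ι] (V : E → E → ℝ) (X : ι → E) :
    pairE V X = 0 := by
  classical
  unfold pairE
  rw [Finset.sum_eq_zero, mul_zero]
  intro i _
  apply Finset.sum_eq_zero
  intro j _
  rw [if_pos (Subsingleton.elim i j)]

lemma Zi_subsingleton {ι : Type*} [Fintype ι] [Subsingleton ι] {A : Set E} (hA : MeasurableSet A)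
    (V : E → E → ℝ) : Zi A V ι = (volume A) ^ Fintype.card ι := by
  unfold Zi
  have : (wgt V : (ι → E) → ℝ≥0∞) = fun _ => 1 := by
    funext X
    simp [wgt, pairE_subsingleton]
  rw [this, lintegral_indicator (measurableSet_piA hA)]
  simp only [lintegral_const, Measure.restrict_apply_univ, one_mul]
  exact volume_piA A

lemma Zc_zero {A : Set E} (hA : MeasurableSet A) (V : E → E → ℝ) : Zc A V 0 = 1 := by
  unfold Zc
  rw [Zi_subsingleton hA]
  simp

lemma Zc_one {A : Set E} (hA : MeasurableSet A) (V : E → E → ℝ) : Zc A V 1 = volume A := by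
  unfold Zc
  rw [Zi_subsingleton hA]
  simp

lemma xt_zero {A : Set E} (hA : MeasurableSet A) (V : E → E → ℝ) (μ : ℝ) : xt A V μ 0 = 1 := by
  unfold xt
  rw [Zc_zero hA]
  simp

lemma xt_one {A : Set E} (hA : MeasurableSet A) (V : E → E → ℝ) (μ : ℝ) :
    xt A V μ 1 = ENNReal.ofReal (Real.exp μ) * volume A := by
  unfold xt
  rw [Zc_one hA]
  simp

lemma xt_le_Xi (A : Set E) (V : E → E → ℝ) (μ : ℝ) (N : ℕ) : xt A V μ N ≤ Xi A V μ :=
  ENNReal.le_tsum N

lemma one_le_Xi {A : Set E} (hA : MeasurableSet A) (V : E → E → ℝ) (μ : ℝ) : 1 ≤ Xi A V μ := by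
  rw [← xt_zero hA V μ]
  exact xt_le_Xi A V μ 0

lemma one_add_le_Xi {A : Set E} (hA : MeasurableSet A) (V : E → E → ℝ) (μ : ℝ) :
    1 + ENNReal.ofReal (Real.exp μ) * volume A ≤ Xi A V μ := by
  have h := ENNReal.sum_le_tsum (f := xt A V μ) (Finset.range 2)
  rw [Finset.sum_range_succ, Finset.sum_range_one, xt_zero hA, xt_one hA] at h
  exact h

lemma Xi_mono_mu {A : Set E} {V : E → E → ℝ} {μ μ' : ℝ} (h : μ ≤ μ') : Xi A V μ ≤ Xi A V μ' := by
  unfold Xi xt
  apply ENNReal.tsum_le_tsum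
  intro N
  gcongr

/-- Pointwise comparison of the exponents with a constant and a term linear in the particle
number. -/
lemma Zi_le_of_forall {ι : Type*} [Fintype ι] {A : Set E} (hA : MeasurableSet A)
    {V V' : E → E → ℝ} (hV' : Measurable (Function.uncurry V')) {b : ℝ}
    (h : ∀ X : ι → E, (∀ i, X i ∈ A) → pairE V X ≤ b + pairE V' X) :
    Zi A V ι ≤ ENNReal.ofReal (Real.exp b) * Zi A V' ι := by
  unfold Zi
  rw [← lintegral_const_mul _ (measurable_piInd hA hV')]
  apply lintegral_mono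
  intro X
  by_cases hX : ∀ i, X i ∈ A
  · have h1 : X ∈ Set.pi univ (fun _ : ι => A) := pi_mem_iff.2 hX
    simp only [indicator_of_mem h1]
    unfold wgt
    rw [← ENNReal.ofReal_mul (Real.exp_pos _).le, ← Real.exp_add]
    exact ENNReal.ofReal_le_ofReal (Real.exp_le_exp.2 (h X hX))
  · have h1 : X ∉ Set.pi univ (fun _ : ι => A) := fun h => hX (pi_mem_iff.1 h)
    simp only [indicator_of_notMem h1]
    simp

/-- Comparison of grand-canonical sums. -/
lemma Xi_le_const_shift {A : Set E} (hA : MeasurableSet A) {V V' : E → E → ℝ}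
    (hV' : Measurable (Function.uncurry V')) {β κ : ℝ}
    (h : ∀ (N : ℕ) (X : Fin N → E), (∀ i, X i ∈ A) → pairE V X + β * N ≤ κ + pairE V' X) (μ : ℝ) :
    Xi A V (μ + β) ≤ ENNReal.ofReal (Real.exp κ) * Xi A V' μ := by
  unfold Xi
  rw [← ENNReal.tsum_mul_left]
  apply ENNReal.tsum_le_tsum
  intro N
  have h1 : Zi A V (Fin N) ≤ ENNReal.ofReal (Real.exp (κ - β * N)) * Zi A V' (Fin N) :=
    Zi_le_of_forall hA hV' fun X hX => by linarith [h N X hX]
  unfold xt Zc
  calc ENNReal.ofReal (Real.exp ((μ + β) * N)) * (((N.factorial : ℝ≥0∞))⁻¹ * Zi A V (Fin N))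
      ≤ ENNReal.ofReal (Real.exp ((μ + β) * N)) * (((N.factorial : ℝ≥0∞))⁻¹ *
          (ENNReal.ofReal (Real.exp (κ - β * N)) * Zi A V' (Fin N))) := by gcongr
    _ = (ENNReal.ofReal (Real.exp ((μ + β) * N)) * ENNReal.ofReal (Real.exp (κ - β * N)))
          * (((N.factorial : ℝ≥0∞))⁻¹ * Zi A V' (Fin N)) := by ring
    _ = ENNReal.ofReal (Real.exp κ) * (ENNReal.ofReal (Real.exp (μ * N))
          * (((N.factorial : ℝ≥0∞))⁻¹ * Zi A V' (Fin N))) := by
        have e : ENNReal.ofReal (Real.exp ((μ + β) * N)) * ENNReal.ofReal (Real.exp (κ - β * N))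
            = ENNReal.ofReal (Real.exp κ) * ENNReal.ofReal (Real.exp (μ * N)) := by
          rw [← ENNReal.ofReal_mul (Real.exp_pos _).le, ← ENNReal.ofReal_mul (Real.exp_pos _).le,
            ← Real.exp_add, ← Real.exp_add]
          congr 2
          ring
        rw [e]
        ring

/-- Monotonicity in the pair function. -/
lemma Xi_mono_V {A : Set E} (hA : MeasurableSet A) {V V' : E → E → ℝ}
    (hV' : Measurable (Function.uncurry V'))
    (h : ∀ (N : ℕ) (X : Fin N → E), (∀ i, X i ∈ A) → pairE V X ≤ pairE V' X) (μ : ℝ) :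
    Xi A V μ ≤ Xi A V' μ := by
  have := Xi_le_const_shift (β := 0) (κ := 0) hA hV' (fun N X hX => by
    have := h N X hX
    simp only [zero_mul, add_zero, zero_add]
    exact this) μ
  simpa using this

/-- Agreement of the pair functions on `A` gives the same sums. -/
lemma Xi_congr_on {A : Set E} (hA : MeasurableSet A) {V V' : E → E → ℝ}
    (hV : Measurable (Function.uncurry V)) (hV' : Measurable (Function.uncurry V'))
    (h : ∀ x ∈ A, ∀ y ∈ A, V x y = V' x y) (μ : ℝ) : Xi A V μ = Xi A V' μ := by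
  classical
  have key : ∀ (N : ℕ) (X : Fin N → E), (∀ i, X i ∈ A) → pairE V X = pairE V' X := by
    intro N X hX
    unfold pairE
    congr 1
    apply Finset.sum_congr rfl
    intro i _
    apply Finset.sum_congr rfl
    intro j _
    split_ifs
    · rfl
    · exact h _ (hX i) _ (hX j)
  exact le_antisymm (Xi_mono_V hA hV' (fun N X hX => (key N X hX).le) μ)
    (Xi_mono_V hA hV (fun N X hX => (key N X hX).ge) μ)

/-- An average comparison of weights gives an average comparison of grand-canonical sums. -/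
lemma Xi_le_avg {A : Set E} (hA : MeasurableSet A) {V : E → E → ℝ} {S : Type*} [Fintype S]
    {W : S → E → E → ℝ} (hW : ∀ s, Measurable (Function.uncurry (W s))) {β : ℝ} {a : ℝ≥0∞}
    (h : ∀ (N : ℕ) (X : Fin N → E), (∀ i, X i ∈ A) →
      wgt V X ≤ a * ∑ s, ENNReal.ofReal (Real.exp (β * N)) * wgt (W s) X) (μ : ℝ) :
    Xi A V μ ≤ a * ∑ s, Xi A (W s) (μ + β) := by
  classical
  have hZ : ∀ N : ℕ, Zi A V (Fin N)
      ≤ a * ∑ s, ENNReal.ofReal (Real.exp (β * N)) * Zi A (W s) (Fin N) := by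
    intro N
    have hm : ∀ s, Measurable ((Set.pi univ fun _ : Fin N => A).indicator (wgt (W s))) :=
      fun s => measurable_piInd hA (hW s)
    have e : a * ∑ s, ENNReal.ofReal (Real.exp (β * N)) * Zi A (W s) (Fin N)
        = ∫⁻ X, a * ∑ s, ENNReal.ofReal (Real.exp (β * N))
            * (Set.pi univ fun _ : Fin N => A).indicator (wgt (W s)) X := by
      rw [lintegral_const_mul a (Finset.measurable_sum _ fun s _ => (hm s).const_mul _),
        lintegral_finsetSum _ fun s _ => (hm s).const_mul _]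
      congr 1
      apply Finset.sum_congr rfl
      intro s _
      rw [lintegral_const_mul _ (hm s)]
      rfl
    rw [e]
    unfold Zi
    apply lintegral_mono
    intro X
    by_cases hX : ∀ i, X i ∈ A
    · have h1 : X ∈ Set.pi univ (fun _ : Fin N => A) := pi_mem_iff.2 hX
      simp only [indicator_of_mem h1]
      exact h N X hX
    · have h1 : X ∉ Set.pi univ (fun _ : Fin N => A) := fun h => hX (pi_mem_iff.1 h)
      simp only [indicator_of_notMem h1]
      exact zero_le
  unfold Xi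
  rw [← Summable.tsum_finsetSum (fun _ _ => ENNReal.summable), ← ENNReal.tsum_mul_left]
  apply ENNReal.tsum_le_tsum
  intro N
  unfold xt Zc
  calc ENNReal.ofReal (Real.exp (μ * N)) * (((N.factorial : ℝ≥0∞))⁻¹ * Zi A V (Fin N))
      ≤ ENNReal.ofReal (Real.exp (μ * N)) * (((N.factorial : ℝ≥0∞))⁻¹ *
          (a * ∑ s, ENNReal.ofReal (Real.exp (β * N)) * Zi A (W s) (Fin N))) := by
        gcongr
        exact hZ N
    _ = a * ∑ s, ENNReal.ofReal (Real.exp ((μ + β) * N))
          * (((N.factorial : ℝ≥0∞))⁻¹ * Zi A (W s) (Fin N)) := by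
        rw [mul_left_comm _ a, mul_left_comm _ a, Finset.mul_sum, Finset.mul_sum]
        congr 1
        apply Finset.sum_congr rfl
        intro s _
        have e : ENNReal.ofReal (Real.exp ((μ + β) * N))
            = ENNReal.ofReal (Real.exp (μ * N)) * ENNReal.ofReal (Real.exp (β * N)) := by
          rw [← ENNReal.ofReal_mul (Real.exp_pos _).le, ← Real.exp_add]
          congr 2
          ring
        rw [e]
        ring

end Vale.Agent.Lib.P171H
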