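import Vale.Agent.Lib.P171H.Kink

/-!
The abstract recursion: a sequence of convex functions, each close to the mean-field transform of
the previous one, whose limit is close to the transform of each member by the remaining mass,
inherits an exact kink.
-/

open Set Filter Topology Finset

namespace Vale.Agent.Lib.P171H

lemma NearJump.mono {P : ℝ → ℝ} {x₀ x₁ a b a' b' : ℝ} (h : NearJump P x₀ x₁ a b) (ha : a ≤ a')
    (hb : b' ≤ b) : NearJump P x₀ x₁ a' b' := by
  constructor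
  · intro y z hyz hz
    have h1 := h.1 y z hyz hz
    have h2 : 0 ≤ z - y := by linarith
    nlinarith
  · intro y z hy hyz
    have h1 := h.2 y z hy hyz
    have h2 : 0 ≤ z - y := by linarith
    nlinarith

/-- A function with a uniform convexity defect at a point is not differentiable there. -/
lemma not_differentiableAt_of_defect {f : ℝ → ℝ} {x J : ℝ} (hJ : 0 < J)
    (h : ∀ t : ℝ, 0 < t → t ≤ 1 → J * t ≤ f (x + t) + f (x - t) - 2 * f x) :
    ¬ DifferentiableAt ℝ f x := by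
  intro hd
  have hder := hd.hasDerivAt
  have hlim := hder.tendsto_slope_zero_right
  have hlim2 := hder.tendsto_slope_zero_left
  set D := deriv f x with hD
  have h1 : Tendsto (fun t : ℝ => t⁻¹ • (f (x + t) - f x)) (𝓝[>] 0) (𝓝 D) := hlim
  have h2 : Tendsto (fun t : ℝ => (-t)⁻¹ • (f (x + -t) - f x)) (𝓝[>] 0) (𝓝 D) := by
    have hneg : Tendsto (fun t : ℝ => -t) (𝓝[>] 0) (𝓝[<] 0) := by
      have := tendsto_neg_nhdsGT (a := (0:ℝ))
      simpa using this
    exact hlim2.comp hneg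
  have h3 : Tendsto (fun t : ℝ => t⁻¹ • (f (x + t) - f x) - (-t)⁻¹ • (f (x + -t) - f x)) (𝓝[>] 0)
      (𝓝 (D - D)) := h1.sub h2
  rw [sub_self] at h3
  have hev : ∀ᶠ t : ℝ in 𝓝[>] 0, J ≤ t⁻¹ • (f (x + t) - f x) - (-t)⁻¹ • (f (x + -t) - f x) := by
    have : Ioo (0:ℝ) 1 ∈ 𝓝[>] (0:ℝ) := Ioo_mem_nhdsGT (by norm_num)
    filter_upwards [this] with t ht
    have ht0 : 0 < t := ht.1
    have h4 := h t ht0 ht.2.le
    have e : t⁻¹ • (f (x + t) - f x) - (-t)⁻¹ • (f (x + -t) - f x)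
        = (f (x + t) + f (x - t) - 2 * f x) / t := by
      simp only [smul_eq_mul, sub_eq_add_neg x t]
      field_simp
      ring
    rw [e, le_div_iff₀ ht0]
    exact h4
  have := ge_of_tendsto h3 hev
  linarith

section hierarchy

variable (P : ℕ → ℝ → ℝ) (Pinf : ℝ → ℝ) (c Ct E τ w : ℕ → ℝ) (lo hi J x₀ x₁ a₀ b₀ : ℝ)

/-- The abstract recursion producing a kink of the limit function. -/
theorem hierarchy
    (hPconv : ∀ K, ConvexOn ℝ univ (P K)) (hPcont : ∀ K, Continuous (P K))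
    (hPinfc : Continuous Pinf)
    (hc : ∀ K, 0 < c K) (hcCt : ∀ K, c K ≤ Ct K) (hτ : ∀ K, 0 < τ K) (hτ1 : ∀ K, τ K ≤ 1)
    (hE : ∀ K, 0 ≤ E K) (hElim : Tendsto E atTop (𝓝 0))
    (hclose : ∀ K, ∀ μ ∈ Icc lo hi, |P (K + 1) μ - Top (c K) (P K) μ| ≤ E K)
    (hcloseinf : ∀ K, ∀ μ ∈ Icc lo hi, |Pinf μ - Top (Ct K) (P K) μ| ≤ E K)
    (hbase : NearJump (P 0) x₀ x₁ a₀ b₀) (hx : x₀ ≤ x₁) (ha₀ : 0 ≤ a₀) (hb₀ : b₀ ≤ 30) (hJ : 0 < J)
    (hw0 : x₁ - x₀ ≤ w 0) (hws : ∀ K, w (K + 1) = 2 * τ K)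
    (hlo : ∀ K, lo ≤ x₀ - (∑ j ∈ range K, (30 * c j + τ j)) - 30 * Ct K - 1)
    (hhi : ∀ K, x₁ + (∑ j ∈ range K, τ j) + 1 ≤ hi)
    (hbud : ∀ K, (∑ j ∈ range K, (2 * w j / c j + 4 * E j / τ j)) + 2 * w K / c K ≤ b₀ - a₀ - J) :
    ∃ μ ∈ Icc lo hi, ∀ t : ℝ, 0 < t → t ≤ 1 → J * t ≤ Pinf (μ + t) + Pinf (μ - t) - 2 * Pinf μ := by
  -- slopes along the recursion
  set A : ℕ → ℝ := fun K => a₀ + ∑ j ∈ range K, 2 * E j / τ j with hA
  set B : ℕ → ℝ := fun K => b₀ - ∑ j ∈ range K, (2 * w j / c j + 2 * E j / τ j) with hB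
  have hA0 : ∀ K, 0 ≤ A K := fun K => by
    have : 0 ≤ ∑ j ∈ range K, 2 * E j / τ j :=
      Finset.sum_nonneg fun j _ => div_nonneg (mul_nonneg (by norm_num) (hE j)) (hτ j).le
    simp only [hA]; linarith
  have hw_nonneg : ∀ K, 0 ≤ w K := fun K => by
    cases K with
    | zero => linarith
    | succ n => rw [hws]; have := hτ n; linarith
  have hB30 : ∀ K, B K ≤ 30 := fun K => by
    have : 0 ≤ ∑ j ∈ range K, (2 * w j / c j + 2 * E j / τ j) :=
      Finset.sum_nonneg fun j _ => add_nonneg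
        (div_nonneg (mul_nonneg (by norm_num) (hw_nonneg j)) (hc j).le)
        (div_nonneg (mul_nonneg (by norm_num) (hE j)) (hτ j).le)
    simp only [hB]; linarith
  have hgap : ∀ K, J ≤ B K - 2 * w K / c K - A K := fun K => by
    have h := hbud K
    have e : (∑ j ∈ range K, (2 * w j / c j + 4 * E j / τ j))
        = (∑ j ∈ range K, (2 * w j / c j + 2 * E j / τ j)) + ∑ j ∈ range K, 2 * E j / τ j := by
      rw [← Finset.sum_add_distrib]
      apply Finset.sum_congr rfl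
      intro j _
      ring
    rw [e] at h
    simp only [hA, hB]
    linarith
  -- the induction
  have hinv : ∀ K, ∃ u v, u ≤ v ∧ v - u ≤ w K ∧ NearJump (P K) u v (A K) (B K) ∧
      x₀ - (∑ j ∈ range K, (30 * c j + τ j)) ≤ u ∧ v ≤ x₁ + ∑ j ∈ range K, τ j := by
    intro K
    induction K with
    | zero =>
      refine ⟨x₀, x₁, hx, hw0, ?_, by simp, by simp⟩
      simpa [hA, hB] using hbase
    | succ K ih =>
      obtain ⟨u, v, huv, hvu, hNJ, hu, hv⟩ := ih
      have hvu' : 2 * (v - u) / c K ≤ 2 * w K / c K :=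
        div_le_div_of_nonneg_right (by linarith) (hc K).le
      have hab : A K < B K - 2 * (v - u) / c K := by
        have := hgap K
        linarith
      obtain ⟨μ, hμ, hkink⟩ := kink (hPconv K) (hPcont K) (hc K) hNJ huv (hA0 K) (hB30 K) hab
      have hloK := hlo K
      have hhiK := hhi K
      have hτK := hτ1 K
      have hτp := hτ K
      have hcK : 30 * c K ≤ 30 * Ct K := by linarith [hcCt K]
      have hμlo : lo ≤ μ - τ K := by linarith [hμ.1]
      have hμhi : μ + τ K ≤ hi := by linarith [hμ.2]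
      have hm0 : μ ∈ Icc lo hi := ⟨by linarith, by linarith⟩
      have hm1 : μ + τ K ∈ Icc lo hi := ⟨by linarith, hμhi⟩
      have hm2 : μ - τ K ∈ Icc lo hi := ⟨hμlo, by linarith⟩
      obtain ⟨hr, hl⟩ := hkink (τ K) hτp
      have hNJ' := nearJump_of_close (hPconv (K + 1)) hτp (hclose K μ hm0) (hclose K _ hm1)
        (hclose K _ hm2) hr hl
      refine ⟨μ - τ K, μ + τ K, by linarith, ?_, ?_, ?_, ?_⟩
      · rw [hws]; linarith
      · apply hNJ'.mono
        · simp only [hA, Finset.sum_range_succ]; linarith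
        · simp only [hB, Finset.sum_range_succ]; linarith
      · rw [Finset.sum_range_succ]; linarith [hμ.1]
      · rw [Finset.sum_range_succ]; linarith [hμ.2]
  -- the kink of the transform by the remaining mass
  have hfin : ∀ K, ∃ μ ∈ Icc lo hi, ∀ t : ℝ, 0 < t → t ≤ 1 →
      J * t - 4 * E K ≤ Pinf (μ + t) + Pinf (μ - t) - 2 * Pinf μ := by
    intro K
    obtain ⟨u, v, huv, hvu, hNJ, hu, hv⟩ := hinv K
    have hCt : 0 < Ct K := lt_of_lt_of_le (hc K) (hcCt K)
    have hvu' : 2 * (v - u) / Ct K ≤ 2 * w K / c K := by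
      have h1 : 2 * (v - u) / Ct K ≤ 2 * (v - u) / c K :=
        div_le_div_of_nonneg_left (by linarith) (hc K) (hcCt K)
      have h2 : 2 * (v - u) / c K ≤ 2 * w K / c K :=
        div_le_div_of_nonneg_right (by linarith) (hc K).le
      exact h1.trans h2
    have hab : A K < B K - 2 * (v - u) / Ct K := by
      have := hgap K
      linarith
    obtain ⟨μ, hμ, hkink⟩ := kink (hPconv K) (hPcont K) hCt hNJ huv (hA0 K) (hB30 K) hab
    have hloK := hlo K
    have hhiK := hhi K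
    have hμlo : lo ≤ μ - 1 := by linarith [hμ.1]
    have hμhi : μ + 1 ≤ hi := by linarith [hμ.2]
    refine ⟨μ, ⟨by linarith, by linarith⟩, ?_⟩
    intro t ht ht1
    obtain ⟨hr, hl⟩ := hkink t ht
    have h0 := abs_le.1 (hcloseinf K μ ⟨by linarith, by linarith⟩)
    have h1 := abs_le.1 (hcloseinf K (μ + t) ⟨by linarith, by linarith⟩)
    have h2 := abs_le.1 (hcloseinf K (μ - t) ⟨by linarith, by linarith⟩)
    have hg := hgap K
    have : J * t ≤ (B K - 2 * (v - u) / Ct K - A K) * t :=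
      mul_le_mul_of_nonneg_right (by linarith) ht.le
    nlinarith [h0.1, h0.2, h1.1, h1.2, h2.1, h2.2]
  choose m hm hmk using hfin
  obtain ⟨μ, hμ, φ, hφ, hlim⟩ := isCompact_Icc.tendsto_subseq hm
  refine ⟨μ, hμ, ?_⟩
  intro t ht ht1
  have hEφ : Tendsto (fun n => E (φ n)) atTop (𝓝 0) := hElim.comp hφ.tendsto_atTop
  have hm' : Tendsto (m ∘ φ) atTop (𝓝 μ) := hlim
  have hL : Tendsto (fun n => J * t - 4 * E (φ n)) atTop (𝓝 (J * t - 4 * 0)) :=
    tendsto_const_nhds.sub (hEφ.const_mul 4)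
  have hR : Tendsto (fun n => Pinf ((m ∘ φ) n + t) + Pinf ((m ∘ φ) n - t) - 2 * Pinf ((m ∘ φ) n))
      atTop (𝓝 (Pinf (μ + t) + Pinf (μ - t) - 2 * Pinf μ)) := by
    have h1 : Tendsto (fun n => Pinf ((m ∘ φ) n + t)) atTop (𝓝 (Pinf (μ + t))) :=
      hPinfc.continuousAt.tendsto.comp (hm'.add_const t)
    have h2 : Tendsto (fun n => Pinf ((m ∘ φ) n - t)) atTop (𝓝 (Pinf (μ - t))) :=
      hPinfc.continuousAt.tendsto.comp (hm'.sub_const t)
    have h3 : Tendsto (fun n => Pinf ((m ∘ φ) n)) atTop (𝓝 (Pinf μ)) :=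
      hPinfc.continuousAt.tendsto.comp hm'
    exact (h1.add h2).sub (h3.const_mul 2)
  have := le_of_tendsto_of_tendsto' hL hR (fun n => hmk (φ n) t ht ht1)
  simpa using this

end hierarchy

end Vale.Agent.Lib.P171H
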