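import Mathlib

/-!
Real analysis for the mean-field transform: the transform `Top`, near-jumps, and the kink lemma.
-/

open Set Filter Topology

namespace Vale.Agent.Lib.P171H

/-- The concave-quadratic perturbation maximised by the mean-field transform. -/
noncomputable def Phi (c : ℝ) (f : ℝ → ℝ) (μ ν : ℝ) : ℝ := f (μ + c * ν) - c / 2 * ν ^ 2

/-- The mean-field transform, `sup_{ν ∈ [0,30]} (f (μ + c ν) - c ν^2 / 2)`. -/
noncomputable def Top (c : ℝ) (f : ℝ → ℝ) (μ : ℝ) : ℝ :=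
  sSup (Phi c f μ '' Icc (0:ℝ) 30)

lemma Phi_continuous {f : ℝ → ℝ} (hf : Continuous f) (c : ℝ) :
    Continuous (fun p : ℝ × ℝ => Phi c f p.1 p.2) := by
  unfold Phi
  fun_prop

lemma Phi_continuous_right {f : ℝ → ℝ} (hf : Continuous f) (c μ : ℝ) :
    Continuous (Phi c f μ) := by
  unfold Phi
  fun_prop

lemma bddAbove_Phi {f : ℝ → ℝ} (hf : Continuous f) (c μ : ℝ) {s : Set ℝ} (hs : IsCompact s) :
    BddAbove (Phi c f μ '' s) :=
  (hs.image (Phi_continuous_right hf c μ)).bddAbove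

lemma le_Top {f : ℝ → ℝ} (hf : Continuous f) (c μ : ℝ) {ν : ℝ} (hν : ν ∈ Icc (0:ℝ) 30) :
    Phi c f μ ν ≤ Top c f μ :=
  le_csSup (bddAbove_Phi hf c μ isCompact_Icc) (mem_image_of_mem _ hν)

lemma Top_le {f : ℝ → ℝ} {c μ B : ℝ} (h : ∀ ν ∈ Icc (0:ℝ) 30, Phi c f μ ν ≤ B) :
    Top c f μ ≤ B := by
  apply csSup_le ((nonempty_Icc.2 (by norm_num)).image _)
  rintro _ ⟨ν, hν, rfl⟩
  exact h ν hν

lemma exists_Top_eq {f : ℝ → ℝ} (hf : Continuous f) (c μ : ℝ) :
    ∃ ν ∈ Icc (0:ℝ) 30, Phi c f μ ν = Top c f μ := by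
  have hne : (Phi c f μ '' Icc (0:ℝ) 30).Nonempty := (nonempty_Icc.2 (by norm_num)).image _
  have hcomp : IsCompact (Phi c f μ '' Icc (0:ℝ) 30) :=
    isCompact_Icc.image (Phi_continuous_right hf c μ)
  obtain ⟨ν, hν, h⟩ := hcomp.sSup_mem hne
  exact ⟨ν, hν, h⟩

/-- Chord-slope monotonicity for convex functions on the line. -/
lemma chord_le {f : ℝ → ℝ} (hf : ConvexOn ℝ univ f) {y z u v : ℝ} (hyz : y < z) (huv : u < v)
    (hyu : y ≤ u) (hzv : z ≤ v) : (f z - f y) / (z - y) ≤ (f v - f u) / (v - u) := by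
  have h1 : (f z - f y) / (z - y) ≤ (f v - f y) / (v - y) := by
    apply hf.secant_mono (mem_univ y) (mem_univ z) (mem_univ v) (ne_of_gt hyz)
      (ne_of_gt (lt_of_lt_of_le hyz hzv)) hzv
  have h2 : (f y - f v) / (y - v) ≤ (f u - f v) / (u - v) := by
    apply hf.secant_mono (mem_univ v) (mem_univ y) (mem_univ u) (ne_of_lt (lt_of_lt_of_le hyz hzv))
      (ne_of_lt huv) hyu
  have e1 : (f y - f v) / (y - v) = (f v - f y) / (v - y) := by
    rw [← neg_sub (f v) (f y), ← neg_sub v y, neg_div_neg_eq]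
  have e2 : (f u - f v) / (u - v) = (f v - f u) / (v - u) := by
    rw [← neg_sub (f v) (f u), ← neg_sub v u, neg_div_neg_eq]
  rw [e1, e2] at h2
  exact h1.trans h2

/-- Chord form of `chord_le`, without divisions. -/
lemma chord_mul_le {f : ℝ → ℝ} (hf : ConvexOn ℝ univ f) {y z u v : ℝ} (hyz : y < z) (huv : u < v)
    (hyu : y ≤ u) (hzv : z ≤ v) : (f z - f y) * (v - u) ≤ (f v - f u) * (z - y) := by
  have h := chord_le hf hyz huv hyu hzv
  have h1 : 0 < z - y := by linarith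
  have h2 : 0 < v - u := by linarith
  rwa [div_le_div_iff₀ h1 h2] at h

/-- A near-jump of the slope of `P` across `[x₀, x₁]`: slopes at most `a` to the left of `x₀`,
at least `b` to the right of `x₁`. -/
def NearJump (P : ℝ → ℝ) (x₀ x₁ a b : ℝ) : Prop :=
  (∀ y z, y ≤ z → z ≤ x₀ → P z - P y ≤ a * (z - y)) ∧
  (∀ y z, x₁ ≤ y → y ≤ z → b * (z - y) ≤ P z - P y)

section kink

variable {P : ℝ → ℝ} {c : ℝ}

/-- At a maximiser `ν > 0`, the number `ν` bounds chord slopes from below to the right. -/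
lemma sub_right (hP : ConvexOn ℝ univ P) (hc : 0 < c) {μ ν : ℝ} (hν0 : 0 < ν) (hν : ν ≤ 30)
    (hmax : ∀ ν' ∈ Icc (0:ℝ) 30, Phi c P μ ν' ≤ Phi c P μ ν) {y : ℝ} (hy : μ + c * ν ≤ y) :
    ν * (y - (μ + c * ν)) ≤ P y - P (μ + c * ν) := by
  rcases eq_or_lt_of_le hy with rfl | hlt
  · simp
  set x := μ + c * ν with hx
  have hyx : 0 < y - x := by linarith
  by_contra hcon
  push Not at hcon
  set ε := ν - (P y - P x) / (y - x) with hε
  have hεpos : 0 < ε := by
    rw [hε, sub_pos, div_lt_iff₀ hyx]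
    exact hcon
  set h := min ν ε with hh
  have hhpos : 0 < h := lt_min hν0 hεpos
  have hhν : h ≤ ν := min_le_left _ _
  have hhε : h ≤ ε := min_le_right _ _
  have hm := hmax (ν - h) ⟨by linarith, by linarith⟩
  unfold Phi at hm
  have e1 : μ + c * (ν - h) = x - c * h := by rw [hx]; ring
  rw [e1, ← hx] at hm
  have hchpos : 0 < c * h := mul_pos hc hhpos
  have hchord := hP.slope_mono_adjacent (mem_univ (x - c * h)) (mem_univ y)
    (by linarith : x - c * h < x) hlt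
  have e2 : x - (x - c * h) = c * h := by ring
  rw [e2] at hchord
  have hlow : c * h * (ν - h / 2) ≤ P x - P (x - c * h) := by nlinarith
  have hlow2 : ν - h / 2 ≤ (P x - P (x - c * h)) / (c * h) := by
    rw [le_div_iff₀ hchpos]; linarith
  have : ν - h / 2 ≤ (P y - P x) / (y - x) := hlow2.trans hchord
  have h3 : (P y - P x) / (y - x) = ν - ε := by rw [hε]; ring
  rw [h3] at this
  linarith

/-- At a maximiser `ν < 30`, the number `ν` bounds chord slopes from above to the left. -/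
lemma sub_left (hP : ConvexOn ℝ univ P) (hc : 0 < c) {μ ν : ℝ} (hν0 : 0 ≤ ν) (hν : ν < 30)
    (hmax : ∀ ν' ∈ Icc (0:ℝ) 30, Phi c P μ ν' ≤ Phi c P μ ν) {y : ℝ} (hy : y ≤ μ + c * ν) :
    P (μ + c * ν) - P y ≤ ν * ((μ + c * ν) - y) := by
  rcases eq_or_lt_of_le hy with rfl | hlt
  · simp
  set x := μ + c * ν with hx
  have hyx : 0 < x - y := by linarith
  by_contra hcon
  push Not at hcon
  set ε := (P x - P y) / (x - y) - ν with hε
  have hεpos : 0 < ε := by
    rw [hε, sub_pos, lt_div_iff₀ hyx]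
    exact hcon
  set h := min (30 - ν) ε with hh
  have hhpos : 0 < h := lt_min (by linarith) hεpos
  have hhν : h ≤ 30 - ν := min_le_left _ _
  have hhε : h ≤ ε := min_le_right _ _
  have hm := hmax (ν + h) ⟨by linarith, by linarith⟩
  unfold Phi at hm
  have e1 : μ + c * (ν + h) = x + c * h := by rw [hx]; ring
  rw [e1, ← hx] at hm
  have hchpos : 0 < c * h := mul_pos hc hhpos
  have hchord := hP.slope_mono_adjacent (mem_univ y) (mem_univ (x + c * h))
    hlt (by linarith : x < x + c * h)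
  have e2 : x + c * h - x = c * h := by ring
  rw [e2] at hchord
  have hup : P (x + c * h) - P x ≤ c * h * (ν + h / 2) := by nlinarith
  have hup2 : (P (x + c * h) - P x) / (c * h) ≤ ν + h / 2 := by
    rw [div_le_iff₀ hchpos]; linarith
  have : (P x - P y) / (x - y) ≤ ν + h / 2 := hchord.trans hup2
  have h3 : (P x - P y) / (x - y) = ν + ε := by rw [hε]; ring
  rw [h3] at this
  linarith

lemma phi_le_left (hc : 0 < c) {x₀ x₁ a b μ ν : ℝ} (hJ : NearJump P x₀ x₁ a b)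
    (hx : μ + c * ν ≤ x₀) (haν : a ≤ ν) : Phi c P μ ν ≤ Phi c P μ a := by
  have h := hJ.1 (μ + c * a) (μ + c * ν) (by nlinarith) hx
  unfold Phi
  have e : μ + c * ν - (μ + c * a) = c * (ν - a) := by ring
  rw [e] at h
  nlinarith [mul_nonneg hc.le (sq_nonneg (ν - a))]

lemma phi_le_right (hc : 0 < c) {x₀ x₁ a b μ ν : ℝ} (hJ : NearJump P x₀ x₁ a b)
    (hx : x₁ ≤ μ + c * ν) (hνb : ν ≤ b) : Phi c P μ ν ≤ Phi c P μ b := by
  have h := hJ.2 (μ + c * ν) (μ + c * b) hx (by nlinarith)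
  unfold Phi
  have e : μ + c * b - (μ + c * ν) = c * (b - ν) := by ring
  rw [e] at h
  nlinarith [mul_nonneg hc.le (sq_nonneg (b - ν))]

/-- The kink lemma: the mean-field transform of a convex function with a near-jump has an exact
kink of slopes `a` and `b - 2 w / c`, where `w` is the width of the near-jump. -/
theorem kink (hP : ConvexOn ℝ univ P) (hPc : Continuous P) (hc : 0 < c)
    {x₀ x₁ a b : ℝ} (hJ : NearJump P x₀ x₁ a b) (hx : x₀ ≤ x₁) (ha : 0 ≤ a) (hb : b ≤ 30)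
    (hab : a < b - 2 * (x₁ - x₀) / c) :
    ∃ μ ∈ Icc (x₀ - 30 * c) x₁, ∀ t : ℝ, 0 < t →
      Top c P μ + (b - 2 * (x₁ - x₀) / c) * t ≤ Top c P (μ + t) ∧
      Top c P μ - a * t ≤ Top c P (μ - t) := by
  set w := x₁ - x₀ with hw
  have hw0 : 0 ≤ w := by rw [hw]; linarith
  set b' := b - 2 * w / c with hb'
  have hb'b : b' ≤ b := by
    have : 0 ≤ 2 * w / c := by positivity
    rw [hb']; linarith
  have hb'30 : b' ≤ 30 := hb'b.trans hb
  have ha30 : a ≤ 30 := by linarith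
  have hb'0 : 0 < b' := lt_of_le_of_lt ha hab
  have hb0 : 0 < b := lt_of_lt_of_le hb'0 hb'b
  -- the two branch maxima
  set A : ℝ → ℝ := fun μ => sSup (Phi c P μ '' Icc (0:ℝ) a) with hA
  set B : ℝ → ℝ := fun μ => sSup (Phi c P μ '' Icc b' (30:ℝ)) with hB
  have hAc : Continuous A :=
    isCompact_Icc.continuous_sSup (f := fun μ ν => Phi c P μ ν) (by
      have := Phi_continuous hPc c
      exact this)
  have hBc : Continuous B :=
    isCompact_Icc.continuous_sSup (f := fun μ ν => Phi c P μ ν) (by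
      have := Phi_continuous hPc c
      exact this)
  have hAle : ∀ μ, ∀ ν ∈ Icc (0:ℝ) a, Phi c P μ ν ≤ A μ := fun μ ν hν =>
    le_csSup (bddAbove_Phi hPc c μ isCompact_Icc) (mem_image_of_mem _ hν)
  have hBle : ∀ μ, ∀ ν ∈ Icc b' (30:ℝ), Phi c P μ ν ≤ B μ := fun μ ν hν =>
    le_csSup (bddAbove_Phi hPc c μ isCompact_Icc) (mem_image_of_mem _ hν)
  have hAex : ∀ μ, ∃ ν ∈ Icc (0:ℝ) a, Phi c P μ ν = A μ := fun μ => by
    have hne : (Phi c P μ '' Icc (0:ℝ) a).Nonempty := (nonempty_Icc.2 ha).image _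
    obtain ⟨ν, hν, h⟩ := (isCompact_Icc.image (Phi_continuous_right hPc c μ)).sSup_mem hne
    exact ⟨ν, hν, h⟩
  have hBex : ∀ μ, ∃ ν ∈ Icc b' (30:ℝ), Phi c P μ ν = B μ := fun μ => by
    have hne : (Phi c P μ '' Icc b' (30:ℝ)).Nonempty := (nonempty_Icc.2 hb'30).image _
    obtain ⟨ν, hν, h⟩ := (isCompact_Icc.image (Phi_continuous_right hPc c μ)).sSup_mem hne
    exact ⟨ν, hν, h⟩
  -- endpoints of the intermediate value argument
  have hlow : B (x₀ - 30 * c) ≤ A (x₀ - 30 * c) := by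
    obtain ⟨ν, hν, h⟩ := hBex (x₀ - 30 * c)
    rw [← h]
    have h1 : x₀ - 30 * c + c * ν ≤ x₀ := by nlinarith [hν.2]
    exact (phi_le_left hc hJ h1 (hab.le.trans hν.1)).trans (hAle _ a ⟨ha, le_rfl⟩)
  have hhigh : A x₁ ≤ B x₁ := by
    obtain ⟨ν, hν, h⟩ := hAex x₁
    rw [← h]
    have h1 : x₁ ≤ x₁ + c * ν := by nlinarith [hν.1]
    have h2 : ν ≤ b := by linarith [hν.2]
    exact (phi_le_right hc hJ h1 h2).trans (hBle _ b ⟨hb'b, hb⟩)
  have hle : x₀ - 30 * c ≤ x₁ := by nlinarith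
  have hg : ContinuousOn (fun μ => A μ - B μ) (Icc (x₀ - 30 * c) x₁) :=
    (hAc.sub hBc).continuousOn
  have hzero : (0:ℝ) ∈ Icc ((fun μ => A μ - B μ) x₁) ((fun μ => A μ - B μ) (x₀ - 30 * c)) :=
    ⟨by simpa using hhigh, by simpa using hlow⟩
  obtain ⟨μ, hμ, hμ0⟩ := intermediate_value_Icc' hle hg hzero
  have hAB : A μ = B μ := by simpa [sub_eq_zero] using hμ0
  refine ⟨μ, hμ, ?_⟩
  -- the transform equals the common value of the two branches
  have hTB : Top c P μ ≤ B μ := by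
    obtain ⟨ν, hν, hνT⟩ := exists_Top_eq hPc c μ
    rw [← hνT]
    have hνmax : ∀ ν' ∈ Icc (0:ℝ) 30, Phi c P μ ν' ≤ Phi c P μ ν := fun ν' hν' => by
      rw [hνT]; exact le_Top hPc c μ hν'
    by_cases h1 : ν ≤ a
    · rw [← hAB]; exact hAle μ ν ⟨hν.1, h1⟩
    push Not at h1
    by_cases h2 : b' ≤ ν
    · exact hBle μ ν ⟨h2, hν.2⟩
    push Not at h2
    by_cases h3 : μ + c * ν ≤ x₀
    · rw [← hAB]
      exact (phi_le_left hc hJ h3 h1.le).trans (hAle _ a ⟨ha, le_rfl⟩)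
    push Not at h3
    by_cases h4 : x₁ ≤ μ + c * ν
    · exact (phi_le_right hc hJ h4 (h2.le.trans hb'b)).trans (hBle _ b ⟨hb'b, hb⟩)
    push Not at h4
    -- the remaining case uses the subgradient at the maximiser
    have hν0 : 0 < ν := lt_of_le_of_lt ha h1
    have hgap : 2 * w ≤ c * (b - ν) := by
      have : b - ν > 2 * w / c := by rw [hb'] at h2; linarith
      have := (div_lt_iff₀ hc).1 this
      nlinarith
    have hy : x₁ ≤ μ + c * b := by
      have : μ + c * b = (μ + c * ν) + c * (b - ν) := by ring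
      rw [this]
      have : x₁ - (μ + c * ν) ≤ w := by rw [hw]; linarith
      linarith
    have hs := sub_right hP hc hν0 hν.2 hνmax (le_of_lt h4)
    have hr := hJ.2 x₁ (μ + c * b) le_rfl hy
    have hfinal : Phi c P μ ν ≤ Phi c P μ b := by
      unfold Phi
      set x := μ + c * ν with hxdef
      set δ := x₁ - x with hδ
      have hδw : δ ≤ w := by rw [hδ, hw]; linarith
      have hδ0 : 0 ≤ δ := by rw [hδ]; linarith
      have ey : μ + c * b - x₁ = c * (b - ν) - δ := by rw [hδ, hxdef]; ring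
      rw [ey] at hr
      have hbν : 0 ≤ b - ν := by linarith [hb'b]
      have hprod : 0 ≤ (b - ν) * (c * (b - ν) / 2 - δ) :=
        mul_nonneg hbν (by linarith)
      nlinarith
    exact hfinal.trans (hBle _ b ⟨hb'b, hb⟩)
  have hTA : Top c P μ ≤ A μ := by rw [hAB]; exact hTB
  obtain ⟨νB, hνB, hνBeq⟩ := hBex μ
  obtain ⟨νA, hνA, hνAeq⟩ := hAex μ
  have hν30B : νB ∈ Icc (0:ℝ) 30 := ⟨hb'0.le.trans hνB.1, hνB.2⟩
  have hν30A : νA ∈ Icc (0:ℝ) 30 := ⟨hνA.1, hνA.2.trans ha30⟩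
  have hmaxB : ∀ ν' ∈ Icc (0:ℝ) 30, Phi c P μ ν' ≤ Phi c P μ νB := fun ν' hν' => by
    rw [hνBeq]; exact (le_Top hPc c μ hν').trans hTB
  have hmaxA : ∀ ν' ∈ Icc (0:ℝ) 30, Phi c P μ ν' ≤ Phi c P μ νA := fun ν' hν' => by
    rw [hνAeq]; exact (le_Top hPc c μ hν').trans hTA
  have hTBeq : Top c P μ = Phi c P μ νB := by
    rw [hνBeq]; exact le_antisymm hTB (by rw [← hνBeq]; exact le_Top hPc c μ hν30B)
  have hTAeq : Top c P μ = Phi c P μ νA := by
    rw [hνAeq]; exact le_antisymm hTA (by rw [← hνAeq]; exact le_Top hPc c μ hν30A)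
  intro t ht
  constructor
  · have h1 := le_Top hPc c (μ + t) hν30B
    have h2 := sub_right hP hc (lt_of_lt_of_le hb'0 hνB.1) hνB.2 hmaxB
      (by linarith : μ + c * νB ≤ (μ + c * νB) + t)
    rw [hTBeq]
    have e : μ + t + c * νB = μ + c * νB + t := by ring
    unfold Phi at h1 ⊢
    rw [e] at h1
    have : b' * t ≤ νB * t := mul_le_mul_of_nonneg_right hνB.1 ht.le
    have e2 : μ + c * νB + t - (μ + c * νB) = t := by ring
    rw [e2] at h2
    linarith
  · have h1 := le_Top hPc c (μ - t) hν30A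
    have hlt30 : νA < 30 := lt_of_le_of_lt hνA.2 (lt_of_lt_of_le hab hb'30)
    have h2 := sub_left hP hc hνA.1 hlt30 hmaxA
      (by linarith : (μ + c * νA) - t ≤ μ + c * νA)
    rw [hTAeq]
    have e : μ - t + c * νA = μ + c * νA - t := by ring
    unfold Phi at h1 ⊢
    rw [e] at h1
    have : νA * t ≤ a * t := mul_le_mul_of_nonneg_right hνA.2 ht.le
    have e2 : μ + c * νA - (μ + c * νA - t) = t := by ring
    rw [e2] at h2
    linarith

/-- Transfer of an exact kink of `T` to a near-jump of a nearby convex function `Q`. -/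
lemma nearJump_of_close {Q T : ℝ → ℝ} (hQ : ConvexOn ℝ univ Q) {μ τ ε a b' : ℝ} (hτ : 0 < τ)
    (h0 : |Q μ - T μ| ≤ ε) (h1 : |Q (μ + τ) - T (μ + τ)| ≤ ε) (h2 : |Q (μ - τ) - T (μ - τ)| ≤ ε)
    (hr : T μ + b' * τ ≤ T (μ + τ)) (hl : T μ - a * τ ≤ T (μ - τ)) :
    NearJump Q (μ - τ) (μ + τ) (a + 2 * ε / τ) (b' - 2 * ε / τ) := by
  have h0' := abs_le.1 h0
  have h1' := abs_le.1 h1
  have h2' := abs_le.1 h2
  constructor
  · intro y z hyz hz
    rcases eq_or_lt_of_le hyz with rfl | hlt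
    · simp
    have hc := chord_mul_le hQ hlt (by linarith : μ - τ < μ) (by linarith) (by linarith)
    have e2 : μ - (μ - τ) = τ := by ring
    rw [e2] at hc
    have hzy : 0 < z - y := by linarith
    have : (Q z - Q y) * τ ≤ ((a + 2 * ε / τ) * (z - y)) * τ := by
      calc (Q z - Q y) * τ ≤ (Q μ - Q (μ - τ)) * (z - y) := hc
        _ ≤ (a * τ + 2 * ε) * (z - y) := by
            apply mul_le_mul_of_nonneg_right _ hzy.le
            linarith [h0'.2, h2'.1]
        _ = ((a + 2 * ε / τ) * (z - y)) * τ := by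
            field_simp
    exact le_of_mul_le_mul_right this hτ
  · intro y z hy hyz
    rcases eq_or_lt_of_le hyz with rfl | hlt
    · simp
    have hc := chord_mul_le hQ (by linarith : μ < μ + τ) hlt (by linarith) (by linarith)
    have e2 : μ + τ - μ = τ := by ring
    rw [e2] at hc
    have hzy : 0 < z - y := by linarith
    have : ((b' - 2 * ε / τ) * (z - y)) * τ ≤ (Q z - Q y) * τ := by
      calc ((b' - 2 * ε / τ) * (z - y)) * τ = (b' * τ - 2 * ε) * (z - y) := by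
            field_simp
        _ ≤ (Q (μ + τ) - Q μ) * (z - y) := by
            apply mul_le_mul_of_nonneg_right _ hzy.le
            linarith [h0'.1, h1'.2, h0'.2, h1'.1]
        _ ≤ (Q z - Q y) * τ := hc
    exact le_of_mul_le_mul_right this hτ

end kink

end Vale.Agent.Lib.P171H
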