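import Vale.Agent.Lib.P171H.Cube

/-!
The two-sided comparison of the pressure with the mean-field transform (a quantitative
Lebowitz-Penrose estimate, uniform over the short-range part).
-/

open MeasureTheory Set Metric Filter Topology
open scoped ENNReal

namespace Vale.Agent.Lib.P171H

section good

variable {Rk c : ℕ → ℝ} {C : ℝ}

/-- All class potentials of mass at most `6 C / 5` are good with the same constants. -/
theorem good_vpot (hC : 0 < C) (hRk : ∀ k, 20 ≤ Rk k) (hc : ∀ k, 0 ≤ c k) (hcs : Summable c)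
    (hM : ∑' k, c k ≤ 6 / 5 * C) : Good (vpot Rk (48 * C) c) (24 * C) (9 / 5 * C) := by
  have hRk1 : ∀ k, 1 ≤ Rk k := fun k => by linarith [hRk k]
  refine ⟨measurable_vpot hRk1 hc hcs _, ?_, by positivity, ?_⟩
  · intro r hr
    unfold vpot
    rw [if_neg (not_lt.2 hr)]
    simpa using attr_nonneg hRk1 hc hcs r
  · intro ℓ hℓ N X hX
    have h := vpot_cube_stab hRk hc hcs (W := 48 * C) (by nlinarith) (by positivity) hℓ X hX
    refine h.trans ?_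
    have hq : 0 ≤ (N : ℝ) ^ 2 / (ℓ : ℝ) ^ 3 := by positivity
    have h2 : 9 / 5 * C ≤ (48 * C / 2 - 8 * ∑' k, c k) / 8 := by nlinarith
    have h3 := mul_le_mul_of_nonneg_right h2 hq
    have e : 48 * C / 2 * (N : ℝ) = 24 * C * N := by ring
    rw [e]
    linarith

end good

/-- The uniform bound for `Gf` on the relevant range of potentials. -/
noncomputable def Gm (C D : ℝ) : ℝ := 1 + (D + 84 * C + 1) ^ 2 / (4 * (9 / 5 * C))

lemma Gm_pos {C D : ℝ} (hC : 0 < C) : 0 < Gm C D := by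
  unfold Gm
  positivity

lemma Gf_le_Gm {C D y : ℝ} (hC : 0 < C) (hD : 0 ≤ D) (h1 : -D ≤ y) (h2 : y ≤ 60 * C + 1) :
    Gf (24 * C) (9 / 5 * C) y ≤ Gm C D := by
  unfold Gf Gm
  have h3 : (y + 24 * C) ^ 2 ≤ (D + 84 * C + 1) ^ 2 := by
    apply sq_le_sq'
    · linarith
    · linarith
  have : (y + 24 * C) ^ 2 / (4 * (9 / 5 * C)) ≤ (D + 84 * C + 1) ^ 2 / (4 * (9 / 5 * C)) :=
    div_le_div_of_nonneg_right h3 (by positivity)
  linarith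

lemma one_add_pow_six_le {t : ℝ} (h0 : 0 ≤ t) (h1 : t ≤ 1) : (1 + t) ^ 6 ≤ 1 + 63 * t := by
  have h2 : t ^ 2 ≤ t := by nlinarith
  have h3 : t ^ 3 ≤ t := by nlinarith [pow_nonneg h0 2]
  have h4 : t ^ 4 ≤ t := by nlinarith [pow_nonneg h0 3]
  have h5 : t ^ 5 ≤ t := by nlinarith [pow_nonneg h0 4]
  have h6 : t ^ 6 ≤ t := by nlinarith [pow_nonneg h0 5]
  nlinarith

section upper

variable {Rk cA cR : ℕ → ℝ} {C : ℝ}

/-- The upper bound in terms of a bound over particle numbers. -/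
theorem Pr_upper_raw (hC : 0 < C) (hRk : ∀ k, 20 ≤ Rk k) (hcA : ∀ k, 0 ≤ cA k) (hcAs : Summable cA)
    (hcR : ∀ k, 0 ≤ cR k) (hcRs : Summable cR) (hmass : ∑' k, cA k + ∑' k, cR k ≤ C) {ℓ : ℕ}
    (hℓ : 1 ≤ ℓ) {ρ Λ δ μ Θ : ℝ} (hΛ : 0 < Λ) (hρ : ∀ k, cA k ≠ 0 → 2 * Rk k ≤ ρ)
    (hΛs : ∀ k, cR k ≠ 0 → Λ ≤ Rk k) (hδ0 : 0 ≤ δ) (hδ1 : δ ≤ 1 / 10)
    (hδ : 1 ≤ (1 + δ) * (1 - 3 * (ρ + 1) / (ℓ : ℝ)))
    (hc' : (∑' k, cR k) * (1 + 4 * (ℓ : ℝ) / Λ) ^ 6 ≤ 2 * C) (hμ : μ ≤ 0) (hΘ0 : 0 ≤ Θ)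
    {κ : ℝ} (hκ : κ = (∑' k, cR k) * ((1 + 4 * (ℓ : ℝ) / Λ) ^ 6 / (ℓ : ℝ) ^ 3))
    (hΘ : ∀ N : ℕ, (N : ℝ) ≤ 30 * (ℓ : ℝ) ^ 3 →
      ((ℓ : ℝ) + 1) ^ 3 * Pr (vpot Rk (48 * C) fun k => (1 + δ) * cA k) (μ + κ * N)
        - κ / 2 * (N : ℝ) ^ 2 ≤ (ℓ : ℝ) ^ 3 * Θ) :
    Pr (vpot Rk (48 * C) fun k => cA k + cR k) μ
      ≤ Θ + Real.log (30 * (ℓ : ℝ) ^ 3 + 3) / (ℓ : ℝ) ^ 3 := by
  have hℓ0 : (0:ℝ) < ℓ := by exact_mod_cast hℓ
  have hRk1 : ∀ k, 1 ≤ Rk k := fun k => by linarith [hRk k]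
  have hA0 : 0 ≤ ∑' k, cA k := tsum_nonneg hcA
  have hR0 : 0 ≤ ∑' k, cR k := tsum_nonneg hcR
  have hsum : Summable fun k => cA k + cR k := hcAs.add hcRs
  have hG' : Good (vpot Rk (48 * C) fun k => cA k + cR k) (24 * C) (9 / 5 * C) := by
    apply good_vpot hC hRk (fun k => add_nonneg (hcA k) (hcR k)) hsum
    rw [hcAs.tsum_add hcRs]
    linarith
  have hsd : Summable fun k => (1 + δ) * cA k := hcAs.mul_left _
  have hGd : Good (vpot Rk (48 * C) fun k => (1 + δ) * cA k) (24 * C) (9 / 5 * C) := by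
    apply good_vpot hC hRk (fun k => mul_nonneg (by linarith) (hcA k)) hsd
    rw [tsum_mul_left]
    nlinarith
  set Vd := vpot Rk (48 * C) fun k => (1 + δ) * cA k with hVd
  set vb : ℝ → ℝ := fun r => Vd r + κ with hvb
  have hvbm : Measurable vb := hGd.meas.add_const κ
  have hκV : κ * (ℓ : ℝ) ^ 3 = (∑' k, cR k) * (1 + 4 * (ℓ : ℝ) / Λ) ^ 6 := by
    rw [hκ]
    field_simp
  have hb : κ * (ℓ : ℝ) ^ 3 / 2 ≤ 9 / 5 * C := by
    rw [hκV]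
    linarith
  have hmf : 24 * C ≤ 30 * (9 / 5 * C - κ * (ℓ : ℝ) ^ 3 / 2) := by
    rw [hκV]
    linarith
  have hS := Xi_vb_le hGd hℓ hμ hb hmf hΘ0 hΘ
  rw [← hvb] at hS
  set S := Xi (Cb ℓ) (rad vb) (μ + κ / 2) with hSdef
  have hS1 : 1 ≤ S := one_le_Xi_Cb _ _ _
  have hSne : S ≠ ⊤ := ne_top_of_le_ne_top ENNReal.ofReal_ne_top hS
  have hgrid : ∀ M : ℕ, 1 ≤ M →
      Lg (Xi (Cb ((M * ℓ : ℕ) : ℝ)) (rad (vpot Rk (48 * C) fun k => cA k + cR k)) μ)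
        ≤ ((M : ℝ) + 1) ^ 3 * Lg S := by
    intro M hM
    have h1 := Xi_grid_le hℓ (V := rad (vpot Rk (48 * C) fun k => cA k + cR k)) hvbm (β := κ / 2)
      (fun N X => by
        have := pairE_decouple hRk1 hcA hcAs hcR hcRs (W := 48 * C) (by positivity) hℓ hΛ hρ hΛs
          hδ0 hδ X hκ
        rw [Fintype.card_fin] at this
        exact this) M hM μ
    have h2 := Lg_mono (one_le_Xi_Cb _ _ _) h1 (ENNReal.pow_ne_top hSne)
    rw [Lg_pow, Nat.cast_pow, Nat.cast_add, Nat.cast_one] at h2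
    exact h2
  have h3 := Pr_le_of_grid hG' hℓ hgrid
  refine h3.trans ?_
  have h4 : Lg S ≤ Real.log (30 * (ℓ : ℝ) ^ 3 + 3) + (ℓ : ℝ) ^ 3 * Θ := by
    have hpos : 0 < (30 * (ℓ : ℝ) ^ 3 + 3) := by positivity
    have h5 := Lg_mono hS1 hS ENNReal.ofReal_ne_top
    refine h5.trans (le_of_eq ?_)
    unfold Lg
    rw [ENNReal.toReal_ofReal (by positivity), Real.log_mul hpos.ne' (Real.exp_pos _).ne',
      Real.log_exp]
  have hV0 : (0:ℝ) < (ℓ : ℝ) ^ 3 := by positivity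
  rw [div_le_iff₀ hV0, add_mul, div_mul_cancel₀ _ hV0.ne']
  linarith

/-- Interpolation in the strength of the attraction. -/
theorem Pr_interp (hC : 0 < C) (hRk : ∀ k, 20 ≤ Rk k) (hcA : ∀ k, 0 ≤ cA k) (hcAs : Summable cA)
    (hmass : ∑' k, cA k ≤ C) {δ : ℝ} (hδ0 : 0 ≤ δ) (hδ1 : δ ≤ 1 / 10) (x : ℝ) :
    Pr (vpot Rk (48 * C) fun k => (1 + δ) * cA k) x
      ≤ Pr (vpot Rk (48 * C) cA) x + 10 * δ * Gf (24 * C) (9 / 5 * C) x := by
  have hRk1 : ∀ k, 1 ≤ Rk k := fun k => by linarith [hRk k]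
  have hG : Good (vpot Rk (48 * C) cA) (24 * C) (9 / 5 * C) :=
    good_vpot hC hRk hcA hcAs (by linarith)
  have hG1 : Good (vpot Rk (48 * C) fun k => (1 + 1 / 10) * cA k) (24 * C) (9 / 5 * C) := by
    apply good_vpot hC hRk (fun k => mul_nonneg (by norm_num) (hcA k)) (hcAs.mul_left _)
    rw [tsum_mul_left]
    nlinarith
  have h := Pr_joint (vτ := vpot Rk (48 * C) fun k => (1 + δ) * cA k) hG hG1
    (p := 1 - 10 * δ) (q := 10 * δ) (by linarith) (by linarith) (by ring)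
    (fun r => by
      unfold vpot
      rw [attr_smul, attr_smul]
      ring) x x
  have e : (1 - 10 * δ) * x + 10 * δ * x = x := by ring
  rw [e] at h
  refine h.trans ?_
  have h0 := Pr_nonneg hG x
  have h1 := Pr_le_G hG1 x
  have h2 : 10 * δ * Pr (vpot Rk (48 * C) fun k => (1 + 1 / 10) * cA k) x
      ≤ 10 * δ * Gf (24 * C) (9 / 5 * C) x := mul_le_mul_of_nonneg_left h1 (by linarith)
  nlinarith

/-- The single-density estimate behind the upper bound. -/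
lemma upper_pointwise (hC : 0 < C) {D : ℝ} (hD : 0 ≤ D) (hRk : ∀ k, 20 ≤ Rk k) (hcA : ∀ k, 0 ≤ cA k)
    (hcAs : Summable cA) (hmass : ∑' k, cA k ≤ C) {ℓ : ℕ} (hℓ : 1 ≤ ℓ) {δ μ m c' ν E : ℝ}
    (hδ0 : 0 ≤ δ) (hδ1 : δ ≤ 1 / 10) (hm0 : 0 ≤ m) (hmc : m ≤ c') (hc' : c' ≤ 2 * C) (hμ : μ ≤ 0)
    (hμD : -D ≤ μ) (hν0 : 0 ≤ ν) (hν30 : ν ≤ 30) (hce : c' - m ≤ E) :
    ((ℓ : ℝ) + 1) ^ 3 * Pr (vpot Rk (48 * C) fun k => (1 + δ) * cA k) (μ + c' * ν)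
        - (ℓ : ℝ) ^ 3 * (c' / 2 * ν ^ 2)
      ≤ (ℓ : ℝ) ^ 3 * (Top m (Pr (vpot Rk (48 * C) cA)) μ
        + (30 * E + 10 * δ + 7 / (ℓ : ℝ)) * Gm C D) := by
  have hℓ0 : (0:ℝ) < ℓ := by exact_mod_cast hℓ
  have hℓ1 : (1:ℝ) ≤ ℓ := by exact_mod_cast hℓ
  set V := vpot Rk (48 * C) cA with hV
  have hG : Good V (24 * C) (9 / 5 * C) := good_vpot hC hRk hcA hcAs (by linarith)
  have hVc := Pr_continuous hG
  set V₀ := (ℓ : ℝ) ^ 3 with hV₀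
  have hV₀0 : 0 < V₀ := by rw [hV₀]; positivity
  set x := μ + c' * ν with hx
  have hc'0 : 0 ≤ c' := hm0.trans hmc
  have hcν : c' * ν ≤ 2 * C * 30 := mul_le_mul hc' hν30 hν0 (by positivity)
  have hxlo : μ ≤ x := by
    rw [hx]
    have := mul_nonneg hc'0 hν0
    linarith
  have hxhi : x ≤ 60 * C := by
    rw [hx]
    linarith
  have hGx := Gf_le_Gm (y := x) hC hD (by linarith) (by linarith)
  have hGx1 := Gf_le_Gm (y := x + 1) hC hD (by linarith) (by linarith)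
  have hGm := Gm_pos hC (D := D)
  have h1 := Pr_interp hC hRk hcA hcAs hmass hδ0 hδ1 x
  have hA0 : 0 ≤ ∑' k, cA k := tsum_nonneg hcA
  have hGd : Good (vpot Rk (48 * C) fun k => (1 + δ) * cA k) (24 * C) (9 / 5 * C) := by
    apply good_vpot hC hRk (fun k => mul_nonneg (by linarith) (hcA k)) (hcAs.mul_left _)
    rw [tsum_mul_left]
    have : (1 + δ) * ∑' k, cA k ≤ (1 + 1 / 10) * C :=
      mul_le_mul (by linarith) hmass hA0 (by norm_num)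
    linarith
  have hPd0 := Pr_nonneg hGd x
  have hPd1 := Pr_le_G hGd x
  set Pd := Pr (vpot Rk (48 * C) fun k => (1 + δ) * cA k) x with hPd
  -- the volume correction
  have hvol : ((ℓ : ℝ) + 1) ^ 3 ≤ V₀ * (1 + 7 / (ℓ : ℝ)) := by
    rw [hV₀]
    have e : (ℓ : ℝ) ^ 3 * (1 + 7 / (ℓ : ℝ)) = (ℓ : ℝ) ^ 3 + 7 * (ℓ : ℝ) ^ 2 := by
      field_simp
    rw [e]
    have h2 : (1:ℝ) ≤ (ℓ : ℝ) ^ 2 := one_le_pow₀ hℓ1
    have h3 : (ℓ : ℝ) ≤ (ℓ : ℝ) ^ 2 := by nlinarith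
    have e2 : ((ℓ : ℝ) + 1) ^ 3 = (ℓ : ℝ) ^ 3 + 3 * (ℓ : ℝ) ^ 2 + 3 * ℓ + 1 := by ring
    rw [e2]
    linarith
  have hvol2 : ((ℓ : ℝ) + 1) ^ 3 * Pd ≤ V₀ * (Pd + 7 / (ℓ : ℝ) * Gm C D) := by
    have h2 := mul_le_mul_of_nonneg_right hvol hPd0
    have h3 : 7 / (ℓ : ℝ) * Pd ≤ 7 / (ℓ : ℝ) * Gm C D :=
      mul_le_mul_of_nonneg_left (hPd1.trans hGx) (by positivity)
    have h4 := mul_le_mul_of_nonneg_left h3 hV₀0.le
    calc _ ≤ V₀ * (1 + 7 / (ℓ : ℝ)) * Pd := h2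
      _ = V₀ * Pd + V₀ * (7 / (ℓ : ℝ) * Pd) := by ring
      _ ≤ V₀ * Pd + V₀ * (7 / (ℓ : ℝ) * Gm C D) := by linarith
      _ = _ := by ring
  -- the Lipschitz step
  have hmν : m * ν ≤ c' * ν := mul_le_mul_of_nonneg_right hmc hν0
  have hE0 : 0 ≤ E := by linarith
  have hlip := Pr_lip hG (x := μ + m * ν) (y := x) (by rw [hx]; linarith)
  have hlip2 : Pr V x - Pr V (μ + m * ν) ≤ 30 * E * Gm C D := by
    refine hlip.trans ?_
    have e : x - (μ + m * ν) = (c' - m) * ν := by rw [hx]; ring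
    rw [e]
    have h1 : (c' - m) * ν ≤ 30 * E := by
      calc (c' - m) * ν ≤ E * 30 := mul_le_mul hce hν30 hν0 hE0
        _ = _ := by ring
    exact mul_le_mul h1 hGx1 (Gf_pos hG _).le (by positivity)
  -- the transform
  have hTop := le_Top hVc m μ (ν := ν) ⟨hν0, hν30⟩
  unfold Phi at hTop
  have hνsq : m / 2 * ν ^ 2 ≤ c' / 2 * ν ^ 2 :=
    mul_le_mul_of_nonneg_right (by linarith) (by positivity)
  have hdelta : 10 * δ * Gf (24 * C) (9 / 5 * C) x ≤ 10 * δ * Gm C D :=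
    mul_le_mul_of_nonneg_left hGx (by linarith)
  have hfinal : Pd + 7 / (ℓ : ℝ) * Gm C D - c' / 2 * ν ^ 2
      ≤ Top m (Pr V) μ + (30 * E + 10 * δ + 7 / (ℓ : ℝ)) * Gm C D := by
    have e : (30 * E + 10 * δ + 7 / (ℓ : ℝ)) * Gm C D
        = 30 * E * Gm C D + 10 * δ * Gm C D + 7 / (ℓ : ℝ) * Gm C D := by ring
    rw [e]
    linarith
  have h5 := mul_le_mul_of_nonneg_left hfinal hV₀0.le
  calc _ ≤ V₀ * (Pd + 7 / (ℓ : ℝ) * Gm C D) - V₀ * (c' / 2 * ν ^ 2) := by linarith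
    _ = V₀ * (Pd + 7 / (ℓ : ℝ) * Gm C D - c' / 2 * ν ^ 2) := by ring
    _ ≤ _ := h5

/-- The upper bound in terms of the mean-field transform. -/
theorem LP_upper (hC : 0 < C) {D : ℝ} (hD : 0 ≤ D) (hRk : ∀ k, 20 ≤ Rk k) (hcA : ∀ k, 0 ≤ cA k)
    (hcAs : Summable cA) (hcR : ∀ k, 0 ≤ cR k) (hcRs : Summable cR)
    (hmass : ∑' k, cA k + ∑' k, cR k ≤ C) {ℓ : ℕ} (hℓ : 1 ≤ ℓ) {ρ Λ μ : ℝ} (hρ1 : 0 ≤ ρ) (hΛ : 0 < Λ)
    (hρ : ∀ k, cA k ≠ 0 → 2 * Rk k ≤ ρ) (hΛs : ∀ k, cR k ≠ 0 → Λ ≤ Rk k)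
    (hℓρ : 60 * (ρ + 1) ≤ ℓ) (hℓΛ : 252 * (ℓ : ℝ) ≤ Λ) (hμ : μ ≤ 0) (hμD : -D ≤ μ) :
    Pr (vpot Rk (48 * C) fun k => cA k + cR k) μ
      ≤ Top (∑' k, cR k) (Pr (vpot Rk (48 * C) cA)) μ
        + (30 * (C * (252 * (ℓ : ℝ) / Λ)) + 60 * (ρ + 1) / (ℓ : ℝ) + 7 / (ℓ : ℝ)) * Gm C D
        + Real.log (30 * (ℓ : ℝ) ^ 3 + 3) / (ℓ : ℝ) ^ 3 := by
  have hℓ0 : (0:ℝ) < ℓ := by exact_mod_cast hℓ
  have hA0 : 0 ≤ ∑' k, cA k := tsum_nonneg hcA
  have hR0 : 0 ≤ ∑' k, cR k := tsum_nonneg hcR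
  set m := ∑' k, cR k with hm
  set V := vpot Rk (48 * C) cA with hV
  have hG : Good V (24 * C) (9 / 5 * C) := good_vpot hC hRk hcA hcAs (by linarith)
  have hVc := Pr_continuous hG
  set δ := 6 * (ρ + 1) / (ℓ : ℝ) with hδdef
  have hδ0 : 0 ≤ δ := by rw [hδdef]; positivity
  have hδ1 : δ ≤ 1 / 10 := by
    rw [hδdef, div_le_iff₀ hℓ0]
    linarith
  have hδ : 1 ≤ (1 + δ) * (1 - 3 * (ρ + 1) / (ℓ : ℝ)) := by
    have e : 3 * (ρ + 1) / (ℓ : ℝ) = δ / 2 := by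
      rw [hδdef]
      ring
    rw [e]
    nlinarith
  set t := 4 * (ℓ : ℝ) / Λ with ht
  have ht0 : 0 ≤ t := by rw [ht]; positivity
  have ht1 : t ≤ 1 / 63 := by
    rw [ht, div_le_iff₀ hΛ]
    linarith
  have ht6 := one_add_pow_six_le ht0 (by linarith)
  have ht7 : 1 ≤ (1 + t) ^ 6 := one_le_pow₀ (by linarith)
  set c' := m * (1 + t) ^ 6 with hc'def
  have hc'm : m ≤ c' := by rw [hc'def]; nlinarith
  have hm1 : m ≤ C := by linarith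
  have hc' : c' ≤ 2 * C := by
    rw [hc'def]
    have : (1 + t) ^ 6 ≤ 2 := by linarith
    nlinarith
  have hc'e : c' - m ≤ C * (252 * (ℓ : ℝ) / Λ) := by
    have e : 252 * (ℓ : ℝ) / Λ = 63 * t := by rw [ht]; ring
    rw [e, hc'def]
    have h1 : (1 + t) ^ 6 - 1 ≤ 63 * t := by linarith
    have h2 : m * ((1 + t) ^ 6 - 1) ≤ C * (63 * t) :=
      mul_le_mul hm1 h1 (by linarith) hC.le
    linarith
  set κ := m * ((1 + t) ^ 6 / (ℓ : ℝ) ^ 3) with hκ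
  have hκV : κ * (ℓ : ℝ) ^ 3 = c' := by
    rw [hκ, hc'def]
    field_simp
  -- the target
  set E := C * (252 * (ℓ : ℝ) / Λ) with hE
  have hE0 : 0 ≤ E := by rw [hE]; positivity
  set err := (30 * E + 60 * (ρ + 1) / (ℓ : ℝ) + 7 / (ℓ : ℝ)) * Gm C D with herr
  have herre : err = (30 * E + 10 * δ + 7 / (ℓ : ℝ)) * Gm C D := by
    rw [herr, hδdef]
    ring
  have hGm := Gm_pos hC (D := D)
  have herr0 : 0 ≤ err := by rw [herr]; positivity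
  have hTop0 : 0 ≤ Top m (Pr V) μ := by
    have := le_Top hVc m μ (ν := 0) ⟨le_rfl, by norm_num⟩
    unfold Phi at this
    simp only [mul_zero, add_zero, ne_eq, OfNat.ofNat_ne_zero, not_false_eq_true, zero_pow,
      sub_zero] at this
    exact (Pr_nonneg hG μ).trans this
  have hΘ0 : 0 ≤ Top m (Pr V) μ + err := add_nonneg hTop0 herr0
  have key := Pr_upper_raw (Θ := Top m (Pr V) μ + err) hC hRk hcA hcAs hcR hcRs hmass hℓ hΛ hρ hΛs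
    hδ0 hδ1 hδ hc' hμ hΘ0 hκ (by
      intro N hN
      have hV₀0 : (0:ℝ) < (ℓ : ℝ) ^ 3 := by positivity
      have hν0 : 0 ≤ (N : ℝ) / (ℓ : ℝ) ^ 3 := by positivity
      have hν30 : (N : ℝ) / (ℓ : ℝ) ^ 3 ≤ 30 := by
        rw [div_le_iff₀ hV₀0]
        exact hN
      have hκN : κ * N = c' * ((N : ℝ) / (ℓ : ℝ) ^ 3) := by
        rw [← hκV]
        field_simp
      have hquad : κ / 2 * (N : ℝ) ^ 2 = (ℓ : ℝ) ^ 3 * (c' / 2 * ((N : ℝ) / (ℓ : ℝ) ^ 3) ^ 2) := by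
        rw [← hκV]
        field_simp
      rw [hκN, hquad, herre]
      exact upper_pointwise hC hD hRk hcA hcAs (by linarith) hℓ hδ0 hδ1 hR0 hc'm hc' hμ hμD hν0 hν30
        hc'e)
  refine key.trans (le_of_eq ?_)
  ring

end upper

section lower

variable {Rk cA cR : ℕ → ℝ} {C : ℝ}

/-- The total inverse volume of the long-range scales. -/
noncomputable def etaS (Rk cR : ℕ → ℝ) : ℝ := ∑' k, cR k / (b1 * Rk k ^ 3)

lemma summable_eta (hRk : ∀ k, 20 ≤ Rk k) (hcR : ∀ k, 0 ≤ cR k) (hcRs : Summable cR) :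
    Summable fun k => cR k / (b1 * Rk k ^ 3) := by
  have hb := b1_pos
  refine Summable.of_nonneg_of_le (fun k => ?_) (fun k => ?_) (hcRs.mul_right b1⁻¹)
  · have : 0 < Rk k := by linarith [hRk k]
    have := hcR k
    positivity
  · rw [div_eq_mul_inv]
    apply mul_le_mul_of_nonneg_left _ (hcR k)
    apply inv_anti₀ hb
    have h1 : 1 ≤ Rk k := by linarith [hRk k]
    have : 1 ≤ Rk k ^ 3 := one_le_pow₀ h1
    nlinarith

/-- The lower bound for all scales. -/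
theorem Pr_lower_all (hC : 0 < C) (hRk : ∀ k, 20 ≤ Rk k) (hcA : ∀ k, 0 ≤ cA k) (hcAs : Summable cA)
    (hcR : ∀ k, 0 ≤ cR k) (hcRs : Summable cR) (hmass : ∑' k, cA k + ∑' k, cR k ≤ C) (μ ν : ℝ) :
    Pr (vpot Rk (48 * C) cA) (μ + ((∑' k, cR k) * ν - etaS Rk cR / 2))
      ≤ Pr (vpot Rk (48 * C) fun k => cA k + cR k) μ + ν ^ 2 / 2 * ∑' k, cR k := by
  have hRk1 : ∀ k, 1 ≤ Rk k := fun k => by linarith [hRk k]
  have hA0 : 0 ≤ ∑' k, cA k := tsum_nonneg hcA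
  have hR0 : 0 ≤ ∑' k, cR k := tsum_nonneg hcR
  have hG : Good (vpot Rk (48 * C) cA) (24 * C) (9 / 5 * C) :=
    good_vpot hC hRk hcA hcAs (by linarith)
  have hG' : Good (vpot Rk (48 * C) fun k => cA k + cR k) (24 * C) (9 / 5 * C) := by
    apply good_vpot hC hRk (fun k => add_nonneg (hcA k) (hcR k)) (hcAs.add hcRs)
    rw [hcAs.tsum_add hcRs]
    linarith
  have hVc := Pr_continuous hG
  have key : ∀ K : ℕ, Pr (vpot Rk (48 * C) cA)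
        (μ + ((∑ k ∈ Finset.range K, cR k) * ν
          - (∑ k ∈ Finset.range K, cR k / (b1 * Rk k ^ 3)) / 2))
      ≤ Pr (vpot Rk (48 * C) fun k => cA k + cR k) μ
        + ν ^ 2 / 2 * ∑ k ∈ Finset.range K, cR k := by
    intro K
    apply Pr_lower_finset hG hG' (Finset.range K) (fun k _ => hcR k)
      (fun k _ => by linarith [hRk k])
    intro r _
    rw [vpot_add hRk1 hcA hcR hcAs hcRs]
    have := (summable_term hRk1 hcR hcRs r).sum_le_tsum (Finset.range K)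
      (fun k _ => mul_nonneg (hcR k) (ker_nonneg _ _))
    unfold attr
    linarith
  have hm := hcRs.hasSum.tendsto_sum_nat
  have he := (summable_eta hRk hcR hcRs).hasSum.tendsto_sum_nat
  have hL : Tendsto (fun K : ℕ => Pr (vpot Rk (48 * C) cA)
        (μ + ((∑ k ∈ Finset.range K, cR k) * ν
          - (∑ k ∈ Finset.range K, cR k / (b1 * Rk k ^ 3)) / 2))) atTop
      (𝓝 (Pr (vpot Rk (48 * C) cA) (μ + ((∑' k, cR k) * ν - etaS Rk cR / 2)))) := by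
    apply hVc.continuousAt.tendsto.comp
    exact ((hm.mul_const ν).sub (he.div_const 2)).const_add μ
  have hR : Tendsto (fun K : ℕ => Pr (vpot Rk (48 * C) fun k => cA k + cR k) μ
        + ν ^ 2 / 2 * ∑ k ∈ Finset.range K, cR k) atTop
      (𝓝 (Pr (vpot Rk (48 * C) fun k => cA k + cR k) μ + ν ^ 2 / 2 * ∑' k, cR k)) :=
    (hm.const_mul _).const_add _
  exact le_of_tendsto_of_tendsto' hL hR key

/-- The lower bound in terms of the mean-field transform. -/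
theorem LP_lower (hC : 0 < C) {D : ℝ} (hD : 0 ≤ D) (hRk : ∀ k, 20 ≤ Rk k) (hcA : ∀ k, 0 ≤ cA k)
    (hcAs : Summable cA) (hcR : ∀ k, 0 ≤ cR k) (hcRs : Summable cR)
    (hmass : ∑' k, cA k + ∑' k, cR k ≤ C) {μ : ℝ} (hμ : μ ≤ 0) (hμD : -D ≤ μ) :
    Top (∑' k, cR k) (Pr (vpot Rk (48 * C) cA)) μ
      ≤ Pr (vpot Rk (48 * C) fun k => cA k + cR k) μ + etaS Rk cR / 2 * Gm C D := by
  have hA0 : 0 ≤ ∑' k, cA k := tsum_nonneg hcA
  have hR0 : 0 ≤ ∑' k, cR k := tsum_nonneg hcR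
  have hG : Good (vpot Rk (48 * C) cA) (24 * C) (9 / 5 * C) :=
    good_vpot hC hRk hcA hcAs (by linarith)
  have hη0 : 0 ≤ etaS Rk cR := by
    unfold etaS
    refine tsum_nonneg fun k => ?_
    have hb := b1_pos
    have : 0 < Rk k := by linarith [hRk k]
    have := hcR k
    positivity
  set m := ∑' k, cR k with hm
  set η := etaS Rk cR with hη
  apply Top_le
  intro ν hν
  unfold Phi
  have h1 := Pr_lower_all hC hRk hcA hcAs hcR hcRs hmass μ ν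
  rw [← hm, ← hη] at h1
  have hm1 : m ≤ C := by linarith
  have hx : μ + m * ν ≤ 30 * C := by nlinarith [hν.1, hν.2]
  have hx0 : μ ≤ μ + m * ν := by nlinarith [hν.1]
  have hlip := Pr_lip hG (x := μ + (m * ν - η / 2)) (y := μ + m * ν) (by linarith)
  have e : μ + m * ν - (μ + (m * ν - η / 2)) = η / 2 := by ring
  rw [e] at hlip
  have hG2 := Gf_le_Gm (y := μ + m * ν + 1) hC hD (by linarith) (by linarith)
  have h3 : η / 2 * Gf (24 * C) (9 / 5 * C) (μ + m * ν + 1) ≤ η / 2 * Gm C D :=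
    mul_le_mul_of_nonneg_left hG2 (by linarith)
  have e2 : ν ^ 2 / 2 * m = m / 2 * ν ^ 2 := by ring
  rw [e2] at h1
  linarith

end lower

end Vale.Agent.Lib.P171H
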