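import Vale.Agent.Lib.P171H.Pressure

/-!
The lower bound for the pressure: testing the positive semi-definite tent kernels against a
constant density.
-/

open MeasureTheory Set Metric Filter Topology
open scoped ENNReal

namespace Vale.Agent.Lib.P171H

section offdiag

variable {ι : Type*} [Fintype ι]

lemma offdiag_sum (f : ι → ι → ℝ) :
    (∑ i, ∑ j, @ite ℝ (i = j) (Classical.propDecidable _) 0 (f i j))
      = (∑ i, ∑ j, f i j) - ∑ i, f i i := by
  classical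
  rw [← Finset.sum_sub_distrib]
  apply Finset.sum_congr rfl
  intro i _
  have : f i i = ∑ j, @ite ℝ (i = j) (Classical.propDecidable _) (f i j) 0 := by
    rw [Finset.sum_eq_single i]
    · simp
    · intro j _ hj
      rw [if_neg (Ne.symm hj)]
    · simp
  rw [this, ← Finset.sum_sub_distrib]
  apply Finset.sum_congr rfl
  intro j _
  split_ifs <;> simp

end offdiag

/-- The big cube containing all balls of radius `R` around points of `[0,B)^3`. -/
noncomputable def Ubig (B R : ℝ) : Set E3 :=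
  (fun x : E3 => x - vec fun _ => -R) ⁻¹' Cb (B + 2 * R)

lemma measurableSet_Ubig (B R : ℝ) : MeasurableSet (Ubig B R) :=
  (measurable_id.sub_const _) (measurableSet_Cb _)

lemma volume_Ubig {B R : ℝ} (hB : 0 ≤ B) (hR : 0 ≤ R) :
    volume (Ubig B R) = ENNReal.ofReal ((B + 2 * R) ^ 3) := by
  unfold Ubig
  rw [(measurePreserving_sub_right volume _).measure_preimage
    (measurableSet_Cb _).nullMeasurableSet, volume_Cb (by positivity)]

lemma ball_subset_Ubig {B R : ℝ} {x : E3} (hx : x ∈ Cb B) : ball x R ⊆ Ubig B R := by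
  intro u hu
  rw [mem_ball_iff_norm] at hu
  intro d
  have h1 := abs_coord_le_norm (u - x) d
  simp only [PiLp.sub_apply] at h1
  have h2 := abs_lt.1 (lt_of_le_of_lt h1 hu)
  have h3 := hx d
  simp only [PiLp.sub_apply, vec_apply]
  constructor <;> linarith [h2.1, h2.2, h3.1, h3.2]

/-- Normalised positive semi-definiteness: pair sum of the tent kernel against a constant density. -/
lemma ker_pairs_ge {ι : Type*} [Fintype ι] (X : ι → E3) {B R : ℝ} (hB : 0 ≤ B) (hR : 0 < R)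
    (hX : ∀ i, X i ∈ Cb B) (ν : ℝ) :
    2 * ν * (Fintype.card ι : ℝ) ≤ (∑ i, ∑ j, ker R ‖X i - X j‖) + ν ^ 2 * (B + 2 * R) ^ 3 := by
  have hb := b1_pos
  set w := b1 * R ^ 3 with hw
  have hw0 : 0 < w := by rw [hw]; positivity
  have hvolf : volume (Ubig B R) ≠ ⊤ := by
    rw [volume_Ubig hB hR.le]
    exact ENNReal.ofReal_ne_top
  have hreal : volume.real (Ubig B R) = (B + 2 * R) ^ 3 := by
    unfold Measure.real
    rw [volume_Ubig hB hR.le, ENNReal.toReal_ofReal (by positivity)]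
  have h := psd_bound X hR.le (measurableSet_Ubig B R) hvolf
    (fun i => ball_subset_Ubig (hX i)) (ν * w)
  rw [hreal] at h
  simp_rw [ker_norm]
  have e : ∑ i, ∑ j, volume.real (ball (X i) R ∩ ball (X j) R) / (b1 * R ^ 3) ^ 2
      = (∑ i, ∑ j, volume.real (ball (X i) R ∩ ball (X j) R)) / w ^ 2 := by
    rw [Finset.sum_div]
    apply Finset.sum_congr rfl
    intro i _
    rw [Finset.sum_div]
  rw [e]
  have h2 : (2 * ν * (Fintype.card ι : ℝ) - ν ^ 2 * (B + 2 * R) ^ 3) * w ^ 2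
      ≤ ∑ i, ∑ j, volume.real (ball (X i) R ∩ ball (X j) R) := by
    nlinarith
  have h3 := (le_div_iff₀ (by positivity : 0 < w ^ 2)).2 h2
  linarith

section lower

variable {v v' : ℝ → ℝ} {a b a' b' : ℝ}

/-- Pair-energy comparison when the profile `v'` dominates `v` plus finitely many tent kernels. -/
lemma pairE_lower {ι : Type*} [Fintype ι] (F : Finset ℕ) {c Rk : ℕ → ℝ}
    (hc : ∀ k ∈ F, 0 ≤ c k) (hR : ∀ k ∈ F, 0 < Rk k)
    (hvv : ∀ r, 0 ≤ r → v r + ∑ k ∈ F, c k * ker (Rk k) r ≤ v' r) (X : ι → E3) {B : ℝ} (hB : 0 ≤ B)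
    (hX : ∀ i, X i ∈ Cb B) (ν : ℝ) :
    pairE (rad v) X + ((∑ k ∈ F, c k) * ν - (∑ k ∈ F, c k / (b1 * Rk k ^ 3)) / 2)
        * (Fintype.card ι : ℝ)
      ≤ ν ^ 2 / 2 * (∑ k ∈ F, c k * (B + 2 * Rk k) ^ 3) + pairE (rad v') X := by
  classical
  set N := (Fintype.card ι : ℝ) with hN
  have h1 : pairE (rad v) X + (1 / 2) * ∑ i, ∑ j,
      @ite ℝ (i = j) (Classical.propDecidable _) 0 (∑ k ∈ F, c k * ker (Rk k) ‖X i - X j‖)
      ≤ pairE (rad v') X := by
    unfold pairE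
    rw [← mul_add, ← Finset.sum_add_distrib]
    apply mul_le_mul_of_nonneg_left _ (by norm_num)
    apply Finset.sum_le_sum
    intro i _
    rw [← Finset.sum_add_distrib]
    apply Finset.sum_le_sum
    intro j _
    by_cases hij : i = j
    · simp [hij]
    · simp only [if_neg hij]
      exact hvv _ (norm_nonneg _)
  rw [offdiag_sum] at h1
  have h2 : (∑ i, ∑ j, ∑ k ∈ F, c k * ker (Rk k) ‖X i - X j‖)
      = ∑ k ∈ F, c k * ∑ i, ∑ j, ker (Rk k) ‖X i - X j‖ := by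
    simp_rw [Finset.mul_sum]
    calc _ = ∑ i, ∑ k ∈ F, ∑ j, c k * ker (Rk k) ‖X i - X j‖ :=
          Finset.sum_congr rfl fun i _ => Finset.sum_comm
      _ = _ := Finset.sum_comm
  have h3 : ∑ i, ∑ k ∈ F, c k * ker (Rk k) ‖X i - X i‖ = N * ∑ k ∈ F, c k / (b1 * Rk k ^ 3) := by
    have : ∀ i : ι, ∑ k ∈ F, c k * ker (Rk k) ‖X i - X i‖ = ∑ k ∈ F, c k / (b1 * Rk k ^ 3) := by
      intro i
      apply Finset.sum_congr rfl
      intro k hk
      rw [sub_self, norm_zero, ker_zero (hR k hk), div_eq_mul_inv]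
    simp_rw [this]
    rw [Finset.sum_const, nsmul_eq_mul]
    rfl
  have h4 : ∑ k ∈ F, c k * (2 * ν * N - ν ^ 2 * (B + 2 * Rk k) ^ 3)
      ≤ ∑ k ∈ F, c k * ∑ i, ∑ j, ker (Rk k) ‖X i - X j‖ := by
    apply Finset.sum_le_sum
    intro k hk
    apply mul_le_mul_of_nonneg_left _ (hc k hk)
    have := ker_pairs_ge X hB (hR k hk) hX ν
    linarith
  rw [h2, h3] at h1
  have h5 : ∑ k ∈ F, c k * (2 * ν * N - ν ^ 2 * (B + 2 * Rk k) ^ 3)
      = 2 * ν * N * (∑ k ∈ F, c k) - ν ^ 2 * ∑ k ∈ F, c k * (B + 2 * Rk k) ^ 3 := by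
    rw [Finset.mul_sum, Finset.mul_sum, ← Finset.sum_sub_distrib]
    apply Finset.sum_congr rfl
    intro k _
    ring
  rw [h5] at h4
  nlinarith

/-- The lower bound for finitely many scales. -/
theorem Pr_lower_finset (hG : Good v a b) (hG' : Good v' a' b') (F : Finset ℕ) {c Rk : ℕ → ℝ}
    (hc : ∀ k ∈ F, 0 ≤ c k) (hR : ∀ k ∈ F, 0 < Rk k)
    (hvv : ∀ r, 0 ≤ r → v r + ∑ k ∈ F, c k * ker (Rk k) r ≤ v' r) (μ ν : ℝ) :
    Pr v (μ + ((∑ k ∈ F, c k) * ν - (∑ k ∈ F, c k / (b1 * Rk k ^ 3)) / 2))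
      ≤ Pr v' μ + ν ^ 2 / 2 * ∑ k ∈ F, c k := by
  set β := (∑ k ∈ F, c k) * ν - (∑ k ∈ F, c k / (b1 * Rk k ^ 3)) / 2 with hβ
  apply Pr_le
  intro ℓ hℓ
  set P' := Pr v' μ with hP'
  have hP'0 : 0 ≤ P' := Pr_nonneg hG' μ
  have hℓ1 : (0:ℝ) < (ℓ : ℝ) + 1 := by positivity
  -- the finite-volume inequality along multiples of `ℓ + 1`
  have key : ∀ M : ℕ, 1 ≤ M → term v (μ + β) ℓ ≤
      ν ^ 2 / 2 * (∑ k ∈ F, c k * (1 + 2 * Rk k / ((M : ℝ) * ((ℓ : ℝ) + 1))) ^ 3)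
        + (1 + 1 / ((M : ℝ) * ((ℓ : ℝ) + 1))) ^ 3 * P' := by
    intro M hM
    set B : ℕ := M * (ℓ + 1) with hB
    have hB1 : 1 ≤ B := Nat.mul_pos hM (by omega)
    have hBr : (B : ℝ) = (M : ℝ) * ((ℓ : ℝ) + 1) := by rw [hB]; push_cast; ring
    have hB0 : (0:ℝ) < B := by exact_mod_cast hB1
    have hM0 : (0:ℝ) < M := by exact_mod_cast hM
    have hcmp := Xi_le_const_shift (A := Cb (B : ℝ)) (V := rad v) (V' := rad v')
      (measurableSet_Cb _) (measurable_rad hG'.meas) (β := β)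
      (κ := ν ^ 2 / 2 * (∑ k ∈ F, c k * ((B : ℝ) + 2 * Rk k) ^ 3))
      (fun N X hX => by
        have := pairE_lower F hc hR hvv X (Nat.cast_nonneg B) hX ν
        rw [Fintype.card_fin] at this
        exact this) μ
    have hne : Xi (Cb (B : ℝ)) (rad v') μ ≠ ⊤ := Xi_Cb_ne_top hG' hB1 μ
    have h1le := one_le_Xi_Cb (B : ℝ) (rad v) (μ + β)
    have hL : Lg (Xi (Cb (B : ℝ)) (rad v) (μ + β))
        ≤ ν ^ 2 / 2 * (∑ k ∈ F, c k * ((B : ℝ) + 2 * Rk k) ^ 3)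
          + Lg (Xi (Cb (B : ℝ)) (rad v') μ) := by
      have h2 := Lg_mono h1le hcmp (ENNReal.mul_ne_top ENNReal.ofReal_ne_top hne)
      rwa [Lg_mul (by
          rw [← ENNReal.ofReal_one]
          apply ENNReal.ofReal_le_ofReal
          apply Real.one_le_exp
          have h3 : 0 ≤ ∑ k ∈ F, c k * ((B : ℝ) + 2 * Rk k) ^ 3 :=
            Finset.sum_nonneg fun k hk => mul_nonneg (hc k hk)
              (pow_nonneg (add_nonneg hB0.le (mul_nonneg (by norm_num) (hR k hk).le)) 3)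
          positivity) ENNReal.ofReal_ne_top (one_le_Xi_Cb _ _ _) hne, Lg_ofReal_exp] at h2
    have hsup := Lg_big_ge hG hℓ hM (μ + β)
    rw [← hB] at hsup
    have hP := Lg_Xi_le_Pr hG' hB1 μ
    rw [← hP'] at hP
    have hmain : (B : ℝ) ^ 3 * term v (μ + β) ℓ ≤ ν ^ 2 / 2 *
        (∑ k ∈ F, c k * ((B : ℝ) + 2 * Rk k) ^ 3) + ((B : ℝ) + 1) ^ 3 * P' := by
      have e : (B : ℝ) ^ 3 * term v (μ + β) ℓ = (M : ℝ) ^ 3 * Lg (Xi (Cb ℓ) (rad v) (μ + β)) := by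
        unfold term
        rw [hBr]
        field_simp
      rw [e]
      linarith
    have e2 : ν ^ 2 / 2 * (∑ k ∈ F, c k * (1 + 2 * Rk k / ((M : ℝ) * ((ℓ : ℝ) + 1))) ^ 3)
        + (1 + 1 / ((M : ℝ) * ((ℓ : ℝ) + 1))) ^ 3 * P'
        = (ν ^ 2 / 2 * (∑ k ∈ F, c k * ((B : ℝ) + 2 * Rk k) ^ 3)
          + ((B : ℝ) + 1) ^ 3 * P') / (B : ℝ) ^ 3 := by
      rw [← hBr]
      have hB3 : (1 + 1 / (B : ℝ)) ^ 3 = ((B : ℝ) + 1) ^ 3 / (B : ℝ) ^ 3 := by field_simp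
      have hR3 : ∑ k ∈ F, c k * (1 + 2 * Rk k / (B : ℝ)) ^ 3
          = (∑ k ∈ F, c k * ((B : ℝ) + 2 * Rk k) ^ 3) / (B : ℝ) ^ 3 := by
        rw [Finset.sum_div]
        apply Finset.sum_congr rfl
        intro k _
        field_simp
      rw [hB3, hR3]
      ring
    rw [e2, le_div_iff₀ (by positivity)]
    linarith
  -- pass to the limit along the multiples
  have hinv : Tendsto (fun M : ℕ => 1 / ((M : ℝ) * ((ℓ : ℝ) + 1))) atTop (𝓝 0) := by
    have h1 : Tendsto (fun M : ℕ => (M : ℝ) * ((ℓ : ℝ) + 1)) atTop atTop :=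
      tendsto_natCast_atTop_atTop.atTop_mul_const hℓ1
    exact tendsto_const_nhds.div_atTop h1
  have hlim : Tendsto (fun M : ℕ => ν ^ 2 / 2 *
        (∑ k ∈ F, c k * (1 + 2 * Rk k / ((M : ℝ) * ((ℓ : ℝ) + 1))) ^ 3)
        + (1 + 1 / ((M : ℝ) * ((ℓ : ℝ) + 1))) ^ 3 * P') atTop
      (𝓝 (ν ^ 2 / 2 * (∑ k ∈ F, c k * (1 + 2 * Rk k * 0) ^ 3) + (1 + 0) ^ 3 * P')) := by
    refine Tendsto.add (Tendsto.const_mul _ (tendsto_finsetSum _ fun k _ => ?_)) ?_
    · refine Tendsto.const_mul _ (Tendsto.pow (Tendsto.const_add _ ?_) 3)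
      have := hinv.const_mul (2 * Rk k)
      refine this.congr fun M => ?_
      rw [mul_one_div]
    · exact (Tendsto.pow (Tendsto.const_add _ hinv) 3).mul_const _
  have hfin := ge_of_tendsto hlim (Filter.eventually_atTop.2 ⟨1, key⟩)
  simp only [mul_zero, add_zero, one_pow, mul_one, one_mul] at hfin
  linarith

end lower

end Vale.Agent.Lib.P171H
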