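import Vale.Agent.Lib.P171H.Decouple

/-!
The upper bound, part one: pointwise decoupling for class potentials.
-/

open MeasureTheory Set Metric Filter Topology
open scoped ENNReal

namespace Vale.Agent.Lib.P171H

section arithmetic

variable {Rk : ℕ → ℝ}

lemma attr_add (hRk : ∀ k, 1 ≤ Rk k) {c₁ c₂ : ℕ → ℝ} (h₁ : ∀ k, 0 ≤ c₁ k) (h₂ : ∀ k, 0 ≤ c₂ k)
    (s₁ : Summable c₁) (s₂ : Summable c₂) (r : ℝ) :
    attr Rk (fun k => c₁ k + c₂ k) r = attr Rk c₁ r + attr Rk c₂ r := by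
  unfold attr
  rw [← (summable_term hRk h₁ s₁ r).tsum_add (summable_term hRk h₂ s₂ r)]
  apply tsum_congr
  intro k
  ring

lemma attr_smul (κ : ℝ) (c : ℕ → ℝ) (r : ℝ) :
    attr Rk (fun k => κ * c k) r = κ * attr Rk c r := by
  unfold attr
  rw [← tsum_mul_left]
  apply tsum_congr
  intro k
  ring

lemma vpot_add (hRk : ∀ k, 1 ≤ Rk k) {c₁ c₂ : ℕ → ℝ} (h₁ : ∀ k, 0 ≤ c₁ k) (h₂ : ∀ k, 0 ≤ c₂ k)
    (s₁ : Summable c₁) (s₂ : Summable c₂) (W r : ℝ) :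
    vpot Rk W (fun k => c₁ k + c₂ k) r = vpot Rk W c₁ r + attr Rk c₂ r := by
  unfold vpot
  rw [attr_add hRk h₁ h₂ s₁ s₂]
  ring

end arithmetic

section decouple

variable {Rk cA cR : ℕ → ℝ}

/-- The averaging inequality for one pair of distinct labels. -/
lemma pair_avg (hRk : ∀ k, 1 ≤ Rk k) (hcA : ∀ k, 0 ≤ cA k) (hcAs : Summable cA) {W : ℝ} (hW : 0 ≤ W)
    {ℓ : ℕ} (hℓ : 1 ≤ ℓ) {ρ δ : ℝ} (hρ : ∀ k, cA k ≠ 0 → 2 * Rk k ≤ ρ) (hδ0 : 0 ≤ δ)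
    (hδ : 1 ≤ (1 + δ) * (1 - 3 * (ρ + 1) / (ℓ : ℝ))) (x y : E3) :
    attr Rk cA ‖x - y‖ - W * (if ‖x - y‖ < 1 then 1 else 0)
      ≤ (((ℓ : ℝ) ^ 3)⁻¹ * ∑ t, sm ℓ t x y)
        * ((1 + δ) * attr Rk cA ‖x - y‖ - W * (if ‖x - y‖ < 1 then 1 else 0)) := by
  set π := ((ℓ : ℝ) ^ 3)⁻¹ * ∑ t, sm ℓ t x y with hπ
  have hπ1 : π ≤ 1 := avg_sm_le_one hℓ x y
  have hπ0 : 0 ≤ π := avg_sm_nonneg ℓ x y
  set A := attr Rk cA ‖x - y‖ with hA
  set K := W * (if ‖x - y‖ < 1 then (1:ℝ) else 0) with hK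
  have hK0 : 0 ≤ K := by
    rw [hK]
    split_ifs <;> simp [hW]
  have hA0 : 0 ≤ A := attr_nonneg hRk hcA hcAs _
  have hKπ : π * K ≤ K := by nlinarith
  rcases le_or_gt ρ ‖x - y‖ with hfar | hnear
  · have : A = 0 := attr_eq_zero hρ hfar
    rw [this]
    nlinarith
  · have hge := avg_sm_ge hℓ hnear.le
    rw [← hπ] at hge
    have h1 : 1 ≤ π * (1 + δ) := by
      calc (1:ℝ) ≤ (1 + δ) * (1 - 3 * (ρ + 1) / (ℓ : ℝ)) := hδ
        _ ≤ (1 + δ) * π := mul_le_mul_of_nonneg_left hge (by linarith)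
        _ = π * (1 + δ) := by ring
    nlinarith

/-- Pair sums of the shift indicators. -/
lemma offdiag_sm {ι : Type*} [Fintype ι] (ℓ : ℕ) (t : Fin 3 → Fin ℓ) (X : ι → E3) :
    (∑ i, ∑ j, @ite ℝ (i = j) (Classical.propDecidable _) 0 (sm ℓ t (X i) (X j)))
      = Sp (ℓ : ℝ) (fun d => (((t d : ℕ)) : ℝ)) X - (Fintype.card ι : ℝ) := by
  rw [offdiag_sum]
  have h1 : ∀ i, sm ℓ t (X i) (X i) = 1 := fun i => by
    unfold sm
    rw [if_pos rfl]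
  have h2 : ∑ i, sm ℓ t (X i) (X i) = (Fintype.card ι : ℝ) := by
    simp [h1]
  rw [h2]
  rfl

/-- Pointwise decoupling for class potentials. -/
theorem pairE_decouple (hRk : ∀ k, 1 ≤ Rk k) (hcA : ∀ k, 0 ≤ cA k) (hcAs : Summable cA)
    (hcR : ∀ k, 0 ≤ cR k) (hcRs : Summable cR) {W : ℝ} (hW : 0 ≤ W) {ℓ : ℕ} (hℓ : 1 ≤ ℓ)
    {ρ Λ δ : ℝ} (hΛ : 0 < Λ) (hρ : ∀ k, cA k ≠ 0 → 2 * Rk k ≤ ρ) (hΛs : ∀ k, cR k ≠ 0 → Λ ≤ Rk k)
    (hδ0 : 0 ≤ δ) (hδ : 1 ≤ (1 + δ) * (1 - 3 * (ρ + 1) / (ℓ : ℝ))) {ι : Type*} [Fintype ι]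
    (X : ι → E3) {κ : ℝ} (hκ : κ = (∑' k, cR k) * ((1 + 4 * (ℓ : ℝ) / Λ) ^ 6 / (ℓ : ℝ) ^ 3)) :
    pairE (rad (vpot Rk W fun k => cA k + cR k)) X
      ≤ ((ℓ : ℝ) ^ 3)⁻¹ * ∑ t : Fin 3 → Fin ℓ, (κ / 2 * (Fintype.card ι : ℝ)
        + pairE (Vt ℓ t fun r => vpot Rk W (fun k => (1 + δ) * cA k) r + κ) X) := by
  classical
  have hℓ0 : (0:ℝ) < ℓ := by exact_mod_cast hℓ
  set w := ((ℓ : ℝ) ^ 3)⁻¹ with hw
  set N := (Fintype.card ι : ℝ) with hN
  set A : ι → ι → ℝ := fun i j => attr Rk cA ‖X i - X j‖ with hA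
  set Rr : ι → ι → ℝ := fun i j => attr Rk cR ‖X i - X j‖ with hRr
  set K : ι → ι → ℝ := fun i j => W * (if ‖X i - X j‖ < 1 then 1 else 0) with hK
  set B : ι → ι → ℝ := fun i j => (1 + δ) * A i j - K i j with hB
  have hw1 : w * ∑ _t : Fin 3 → Fin ℓ, (1:ℝ) = 1 := by
    rw [sum_one_shift, hw]
    field_simp
  -- the long-range part
  have hRr0 : ∀ i j, 0 ≤ Rr i j := fun i j => attr_nonneg hRk hcR hcRs _
  have hlong : ∀ t : Fin 3 → Fin ℓ, ∑ i, ∑ j, Rr i j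
      ≤ κ * Sp (ℓ : ℝ) (fun d => (((t d : ℕ)) : ℝ)) X := by
    intro t
    have := attr_pairs_le hRk hcR hcRs X hℓ0 hΛ hΛs (fun d => (((t d : ℕ)) : ℝ))
    refine this.trans (le_of_eq ?_)
    rw [hκ]
    ring
  -- each decoupled pair function
  have hPt : ∀ t : Fin 3 → Fin ℓ,
      pairE (Vt ℓ t fun r => vpot Rk W (fun k => (1 + δ) * cA k) r + κ) X
      = (1 / 2) * (∑ i, ∑ j, @ite ℝ (i = j) (Classical.propDecidable _) 0
          (sm ℓ t (X i) (X j) * B i j))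
        + κ / 2 * (Sp (ℓ : ℝ) (fun d => (((t d : ℕ)) : ℝ)) X - N) := by
    intro t
    rw [← offdiag_sm ℓ t X]
    unfold pairE
    have : κ / 2 * (∑ i, ∑ j, @ite ℝ (i = j) (Classical.propDecidable _) 0 (sm ℓ t (X i) (X j)))
        = (1 / 2) * ∑ i, ∑ j, @ite ℝ (i = j) (Classical.propDecidable _) 0
            (sm ℓ t (X i) (X j) * κ) := by
      rw [show κ / 2 = (1 / 2) * κ by ring, mul_assoc]
      congr 1
      rw [Finset.mul_sum]
      apply Finset.sum_congr rfl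
      intro i _
      rw [Finset.mul_sum]
      apply Finset.sum_congr rfl
      intro j _
      split_ifs <;> ring
    rw [this, ← mul_add, ← Finset.sum_add_distrib]
    congr 1
    apply Finset.sum_congr rfl
    intro i _
    rw [← Finset.sum_add_distrib]
    apply Finset.sum_congr rfl
    intro j _
    by_cases hij : i = j
    · simp [hij]
    · rw [if_neg hij, if_neg hij, if_neg hij]
      unfold Vt sm
      by_cases hs : qSh ℓ t (X i) = qSh ℓ t (X j)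
      · rw [if_pos hs, if_pos hs]
        simp only [rad, vpot, hB, hA, hK]
        rw [attr_smul]
        ring
      · rw [if_neg hs, if_neg hs]
        ring
  -- assemble
  have hRHS : w * ∑ t : Fin 3 → Fin ℓ, (κ / 2 * N
        + pairE (Vt ℓ t fun r => vpot Rk W (fun k => (1 + δ) * cA k) r + κ) X)
      = (1 / 2) * (∑ i, ∑ j, @ite ℝ (i = j) (Classical.propDecidable _) 0
            ((w * ∑ t, sm ℓ t (X i) (X j)) * B i j))
        + w * ∑ t : Fin 3 → Fin ℓ, (κ / 2 * Sp (ℓ : ℝ) (fun d => (((t d : ℕ)) : ℝ)) X) := by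
    simp_rw [hPt]
    have e1 : ∀ t : Fin 3 → Fin ℓ, κ / 2 * N + ((1 / 2) * (∑ i, ∑ j,
          @ite ℝ (i = j) (Classical.propDecidable _) 0 (sm ℓ t (X i) (X j) * B i j))
          + κ / 2 * (Sp (ℓ : ℝ) (fun d => (((t d : ℕ)) : ℝ)) X - N))
        = (1 / 2) * (∑ i, ∑ j, @ite ℝ (i = j) (Classical.propDecidable _) 0
            (sm ℓ t (X i) (X j) * B i j))
          + κ / 2 * Sp (ℓ : ℝ) (fun d => (((t d : ℕ)) : ℝ)) X := fun t => by ring
    simp_rw [e1]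
    rw [Finset.sum_add_distrib, mul_add]
    congr 1
    rw [← Finset.mul_sum, mul_left_comm]
    congr 1
    rw [Finset.sum_comm, Finset.mul_sum]
    apply Finset.sum_congr rfl
    intro i _
    rw [Finset.sum_comm, Finset.mul_sum]
    apply Finset.sum_congr rfl
    intro j _
    by_cases hij : i = j
    · simp [hij]
    · simp only [if_neg hij]
      rw [← Finset.sum_mul]
      ring
  rw [hRHS]
  have hLHS : pairE (rad (vpot Rk W fun k => cA k + cR k)) X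
      ≤ (1 / 2) * (∑ i, ∑ j, @ite ℝ (i = j) (Classical.propDecidable _) 0
            ((w * ∑ t, sm ℓ t (X i) (X j)) * B i j))
        + (1 / 2) * ∑ i, ∑ j, Rr i j := by
    unfold pairE
    rw [← mul_add]
    apply mul_le_mul_of_nonneg_left _ (by norm_num)
    rw [← Finset.sum_add_distrib]
    apply Finset.sum_le_sum
    intro i _
    rw [← Finset.sum_add_distrib]
    apply Finset.sum_le_sum
    intro j _
    by_cases hij : i = j
    · simp only [if_pos hij, zero_add]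
      exact hRr0 i j
    · simp only [if_neg hij]
      have h1 := pair_avg hRk hcA hcAs hW hℓ hρ hδ0 hδ (X i) (X j)
      simp only [rad]
      rw [vpot_add hRk hcA hcR hcAs hcRs]
      unfold vpot
      have e : (w * ∑ t, sm ℓ t (X i) (X j)) * B i j
          = (w * ∑ t, sm ℓ t (X i) (X j))
            * ((1 + δ) * attr Rk cA ‖X i - X j‖ - W * (if ‖X i - X j‖ < 1 then 1 else 0)) := rfl
      rw [e]
      have e2 : Rr i j = attr Rk cR ‖X i - X j‖ := rfl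
      rw [e2]
      linarith
  refine hLHS.trans ?_
  have h2 : (1 / 2) * ∑ i, ∑ j, Rr i j
      ≤ w * ∑ t : Fin 3 → Fin ℓ, (κ / 2 * Sp (ℓ : ℝ) (fun d => (((t d : ℕ)) : ℝ)) X) := by
    have h3 : ∑ t : Fin 3 → Fin ℓ, (1 / 2) * ∑ i, ∑ j, Rr i j
        ≤ ∑ t : Fin 3 → Fin ℓ, (κ / 2 * Sp (ℓ : ℝ) (fun d => (((t d : ℕ)) : ℝ)) X) := by
      apply Finset.sum_le_sum
      intro t _
      have := hlong t
      linarith
    have h4 := mul_le_mul_of_nonneg_left h3 (by positivity : 0 ≤ w)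
    refine le_trans (le_of_eq ?_) h4
    have : ∑ _t : Fin 3 → Fin ℓ, ((1:ℝ) / 2) * ∑ i, ∑ j, Rr i j
        = (∑ _t : Fin 3 → Fin ℓ, (1:ℝ)) * (((1:ℝ) / 2) * ∑ i, ∑ j, Rr i j) := by
      rw [Finset.sum_mul]
      simp
    rw [this, ← mul_assoc, hw1, one_mul]
  linarith

end decouple

end Vale.Agent.Lib.P171H
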