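import Vale.Agent.Lib.P171H.Tent

/-!
The class of potentials: a bounded repulsive core plus a convergent sum of attractive tent kernels.
Stability on cubes.
-/

open MeasureTheory Set Metric Filter Topology
open scoped ENNReal

namespace Vale.Agent.Lib.P171H

/-- The pair function of a radial profile. -/
noncomputable def rad (v : ℝ → ℝ) (x y : E3) : ℝ := v ‖x - y‖

lemma rad_symm (v : ℝ → ℝ) (x y : E3) : rad v x y = rad v y x := by
  unfold rad
  rw [norm_sub_rev]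

lemma measurable_rad {v : ℝ → ℝ} (hv : Measurable v) : Measurable (Function.uncurry (rad v)) := by
  have h : Measurable (fun p : E3 × E3 => ‖p.1 - p.2‖) :=
    (continuous_norm.comp (continuous_fst.sub continuous_snd)).measurable
  exact hv.comp h

lemma rad_transl (v : ℝ → ℝ) (t x y : E3) : rad v (x - t) (y - t) = rad v x y := by
  unfold rad
  congr 2
  abel

/-- The attractive part of a potential: a sum of tent kernels with masses `c k` and radii
`Rk k`. -/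
noncomputable def attr (Rk c : ℕ → ℝ) (r : ℝ) : ℝ := ∑' k, c k * ker (Rk k) r

/-- The Boltzmann-sign radial profile: attraction minus a repulsive core of height `W` and
range one. -/
noncomputable def vpot (Rk : ℕ → ℝ) (W : ℝ) (c : ℕ → ℝ) (r : ℝ) : ℝ :=
  attr Rk c r - W * (if r < 1 then 1 else 0)

section basic

variable {Rk c : ℕ → ℝ}

lemma ker_le_inv_b1 {R : ℝ} (hR : 1 ≤ R) (r : ℝ) : ker R r ≤ b1⁻¹ := by
  have hb := b1_pos
  have hR0 : 0 < R := by linarith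
  refine (ker_le hR0 r).trans ?_
  apply inv_anti₀ hb
  have : 1 ≤ R ^ 3 := one_le_pow₀ hR
  nlinarith

lemma summable_term (hRk : ∀ k, 1 ≤ Rk k) (hc : ∀ k, 0 ≤ c k) (hcs : Summable c) (r : ℝ) :
    Summable fun k => c k * ker (Rk k) r := by
  refine Summable.of_nonneg_of_le (fun k => mul_nonneg (hc k) (ker_nonneg _ _))
    (fun k => mul_le_mul_of_nonneg_left (ker_le_inv_b1 (hRk k) r) (hc k)) (hcs.mul_right _)

lemma attr_nonneg (hRk : ∀ k, 1 ≤ Rk k) (hc : ∀ k, 0 ≤ c k) (hcs : Summable c) (r : ℝ) :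
    0 ≤ attr Rk c r := by
  have := summable_term hRk hc hcs r
  exact tsum_nonneg fun k => mul_nonneg (hc k) (ker_nonneg _ _)

lemma measurable_attr (hRk : ∀ k, 1 ≤ Rk k) (hc : ∀ k, 0 ≤ c k) (hcs : Summable c) :
    Measurable (attr Rk c) := by
  refine measurable_of_tendsto_metrizable (f := fun n r => ∑ k ∈ Finset.range n, c k * ker (Rk k) r)
    (fun n => Finset.measurable_sum _ fun k _ => (measurable_ker _).const_mul _) ?_
  rw [tendsto_pi_nhds]
  intro r
  exact (summable_term hRk hc hcs r).hasSum.tendsto_sum_nat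

lemma measurable_vpot (hRk : ∀ k, 1 ≤ Rk k) (hc : ∀ k, 0 ≤ c k) (hcs : Summable c) (W : ℝ) :
    Measurable (vpot Rk W c) := by
  unfold vpot
  refine (measurable_attr hRk hc hcs).sub (Measurable.const_mul ?_ _)
  exact Measurable.ite measurableSet_Iio measurable_const measurable_const

lemma attr_eq_zero {ρ r : ℝ} (h : ∀ k, c k ≠ 0 → 2 * Rk k ≤ ρ) (hr : ρ ≤ r) : attr Rk c r = 0 := by
  unfold attr
  have : ∀ k, c k * ker (Rk k) r = 0 := by
    intro k
    by_cases hk : c k = 0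
    · simp [hk]
    · rw [ker_eq_zero ((h k hk).trans hr), mul_zero]
  simp [this]

lemma attr_le (hRk : ∀ k, 1 ≤ Rk k) (hc : ∀ k, 0 ≤ c k) (hcs : Summable c) (r : ℝ) :
    attr Rk c r ≤ (∑' k, c k) * b1⁻¹ := by
  unfold attr
  rw [← tsum_mul_right]
  exact (summable_term hRk hc hcs r).tsum_le_tsum
    (fun k => mul_le_mul_of_nonneg_left (ker_le_inv_b1 (hRk k) r) (hc k)) (hcs.mul_right _)

/-- The Schur bound in normalised form. -/
lemma pairs_ker_le {ι : Type*} [Fintype ι] (X : ι → E3) {h R : ℝ} (hh : 0 < h) (hR : 0 < R)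
    (s : Fin 3 → ℝ) :
    ∑ i, ∑ j, ker R ‖X i - X j‖ ≤ (1 + 4 * h / R) ^ 6 / h ^ 3 * Sp h s X := by
  have hb := b1_pos
  have hp : 0 < (b1 * R ^ 3) ^ 2 := by positivity
  simp_rw [ker_norm]
  have e : ∑ i, ∑ j, volume.real (ball (X i) R ∩ ball (X j) R) / (b1 * R ^ 3) ^ 2
      = (∑ i, ∑ j, volume.real (ball (X i) R ∩ ball (X j) R)) / (b1 * R ^ 3) ^ 2 := by
    rw [Finset.sum_div]
    apply Finset.sum_congr rfl
    intro i _
    rw [Finset.sum_div]
  rw [e, div_le_iff₀ hp]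
  refine (schur_bound X hh hR.le s).trans ?_
  have hS := Sp_nonneg h s X
  rw [mul_assoc]
  have e2 : (1 + 4 * h / R) ^ 6 / h ^ 3 * Sp h s X * (b1 * R ^ 3) ^ 2
      = (b1 * ((R + 4 * h) ^ 3 * (R + 4 * h) ^ 3 / h ^ 3)) * (b1 * Sp h s X) := by
    field_simp
  rw [e2]
  have hk : (R + 2 * h) ^ 3 ≤ (R + 4 * h) ^ 3 := by
    apply pow_le_pow_left₀ (by positivity)
    linarith
  have hdiv : (0:ℝ) ≤ (R + 4 * h) ^ 3 / h ^ 3 := by positivity
  calc b1 * (R + 4 * h) ^ 3 / h ^ 3 * (b1 * (R + 2 * h) ^ 3 * Sp h s X)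
      = (b1 * ((R + 4 * h) ^ 3 / h ^ 3)) * (R + 2 * h) ^ 3 * (b1 * Sp h s X) := by ring
    _ ≤ (b1 * ((R + 4 * h) ^ 3 / h ^ 3)) * (R + 4 * h) ^ 3 * (b1 * Sp h s X) := by
        gcongr
    _ = _ := by ring

/-- The pair sum of the attraction, bounded through occupation numbers. -/
lemma attr_pairs_le {ι : Type*} [Fintype ι] (hRk : ∀ k, 1 ≤ Rk k) (hc : ∀ k, 0 ≤ c k)
    (hcs : Summable c) (X : ι → E3) {h Λ : ℝ} (hh : 0 < h) (hΛ : 0 < Λ)
    (hsupp : ∀ k, c k ≠ 0 → Λ ≤ Rk k) (s : Fin 3 → ℝ) :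
    ∑ i, ∑ j, attr Rk c ‖X i - X j‖ ≤ (∑' k, c k) * ((1 + 4 * h / Λ) ^ 6 / h ^ 3 * Sp h s X) := by
  unfold attr
  have hsum : ∀ i j, Summable fun k => c k * ker (Rk k) ‖X i - X j‖ := fun i j =>
    summable_term hRk hc hcs _
  have e : ∑ i, ∑ j, ∑' k, c k * ker (Rk k) ‖X i - X j‖
      = ∑' k, c k * ∑ i, ∑ j, ker (Rk k) ‖X i - X j‖ := by
    have h1 : ∀ i, ∑ j, ∑' k, c k * ker (Rk k) ‖X i - X j‖
        = ∑' k, ∑ j, c k * ker (Rk k) ‖X i - X j‖ := fun i =>
      (Summable.tsum_finsetSum fun j _ => hsum i j).symm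
    simp_rw [h1]
    rw [← Summable.tsum_finsetSum fun i _ => summable_sum fun j _ => hsum i j]
    apply tsum_congr
    intro k
    rw [Finset.mul_sum]
    apply Finset.sum_congr rfl
    intro i _
    rw [Finset.mul_sum]
  rw [e, ← tsum_mul_right]
  have hS := Sp_nonneg h s X
  have hb : ∀ k, c k * ∑ i, ∑ j, ker (Rk k) ‖X i - X j‖
      ≤ c k * ((1 + 4 * h / Λ) ^ 6 / h ^ 3 * Sp h s X) := by
    intro k
    by_cases hk : c k = 0
    · simp [hk]
    apply mul_le_mul_of_nonneg_left _ (hc k)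
    have hR0 : 0 < Rk k := by linarith [hRk k]
    refine (pairs_ker_le X hh hR0 s).trans ?_
    have : 4 * h / Rk k ≤ 4 * h / Λ :=
      div_le_div_of_nonneg_left (by positivity) hΛ (hsupp k hk)
    have h1 : (1 + 4 * h / Rk k) ^ 6 ≤ (1 + 4 * h / Λ) ^ 6 :=
      pow_le_pow_left₀ (by positivity) (by linarith) 6
    gcongr
  have hs2 : Summable fun k => c k * ((1 + 4 * h / Λ) ^ 6 / h ^ 3 * Sp h s X) := hcs.mul_right _
  refine Summable.tsum_le_tsum hb ?_ hs2
  refine Summable.of_nonneg_of_le (fun k => ?_) hb hs2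
  exact mul_nonneg (hc k) (Finset.sum_nonneg fun i _ => Finset.sum_nonneg fun j _ => ker_nonneg _ _)

end basic

section stab

variable {Rk c : ℕ → ℝ}

/-- Half-integer cells. -/
noncomputable def s0 : Fin 3 → ℝ := fun _ => 0

open Classical in
lemma occd_card_le {ι : Type*} [Fintype ι] (X : ι → E3) {ℓ : ℕ} (hX : ∀ i, X i ∈ Cb ℓ) :
    (((occd (1/2) s0 X).card : ℝ)) ≤ 8 * (ℓ : ℝ) ^ 3 := by
  have hsub : occd (1/2) s0 X ⊆
      Fintype.piFinset (fun _ : Fin 3 => Finset.Ico (0:ℤ) (2 * ℓ)) := by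
    intro q hq
    obtain ⟨i, _, rfl⟩ := Finset.mem_image.1 hq
    rw [Fintype.mem_piFinset]
    intro d
    have h1 := hX i d
    simp only [qIdx, s0, sub_zero, Finset.mem_Ico]
    have e : X i d / (1 / 2) = 2 * X i d := by ring
    rw [e]
    constructor
    · exact Int.floor_nonneg.2 (by linarith [h1.1])
    · rw [Int.floor_lt]
      push_cast
      linarith [h1.2]
  have hc := Finset.card_le_card hsub
  rw [Fintype.card_piFinset] at hc
  simp only [Int.card_Ico, Finset.prod_const, Finset.card_univ, Fintype.card_fin] at hc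
  have hc2 : (((occd (1/2) s0 X).card : ℝ)) ≤ (((2 * (ℓ:ℤ) - 0).toNat ^ 3 : ℕ) : ℝ) := by
    exact_mod_cast hc
  refine hc2.trans (le_of_eq ?_)
  have : (2 * (ℓ:ℤ) - 0).toNat = 2 * ℓ := by omega
  rw [this]
  push_cast
  ring

lemma Sp_half_same {ι : Type*} [Fintype ι] (X : ι → E3) (i j : ι)
    (h : qIdx (1/2) s0 (X i) = qIdx (1/2) s0 (X j)) : ‖X i - X j‖ < 1 := by
  have := same_cube_norm (h := 1/2) (by norm_num) h
  simpa using this

/-- The basic stability estimate in terms of occupation numbers. -/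
lemma pairE_vpot_le {ι : Type*} [Fintype ι] (hRk : ∀ k, 20 ≤ Rk k) (hc : ∀ k, 0 ≤ c k)
    (hcs : Summable c) {W : ℝ} (hW : 0 ≤ W) (X : ι → E3) :
    pairE (rad (vpot Rk W c)) X
      ≤ W / 2 * (Fintype.card ι : ℝ) - (W / 2 - 8 * ∑' k, c k) * Sp (1/2) s0 X := by
  classical
  have hRk1 : ∀ k, 1 ≤ Rk k := fun k => by linarith [hRk k]
  have hc0 : 0 ≤ ∑' k, c k := tsum_nonneg hc
  have hA := attr_pairs_le hRk1 hc hcs X (h := 1/2) (Λ := 20) (by norm_num) (by norm_num)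
    (fun k _ => hRk k) s0
  have hk : ((1:ℝ) + 4 * (1/2) / 20) ^ 6 / (1/2) ^ 3 ≤ 16 := by norm_num
  have hS := Sp_nonneg (1/2) s0 X
  have hA2 : ∑ i, ∑ j, attr Rk c ‖X i - X j‖ ≤ 16 * (∑' k, c k) * Sp (1/2) s0 X := by
    refine hA.trans ?_
    have := mul_le_mul_of_nonneg_right hk hS
    have h2 := mul_le_mul_of_nonneg_left this hc0
    calc _ ≤ _ := h2
      _ = _ := by ring
  have hterm : ∀ i j, (if i = j then (0:ℝ) else rad (vpot Rk W c) (X i) (X j))
      ≤ attr Rk c ‖X i - X j‖ - W * (if qIdx (1/2) s0 (X i) = qIdx (1/2) s0 (X j) then 1 else 0)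
        + W * (if i = j then 1 else 0) := by
    intro i j
    by_cases hij : i = j
    · subst hij
      simp only [if_true, mul_one]
      have := attr_nonneg hRk1 hc hcs ‖X i - X i‖
      linarith
    · simp only [hij, if_false, mul_zero, add_zero, rad, vpot]
      by_cases hq : qIdx (1/2) s0 (X i) = qIdx (1/2) s0 (X j)
      · have := Sp_half_same X i j hq
        rw [if_pos this, if_pos hq]
      · simp only [hq, if_false, mul_zero, sub_zero]
        have : 0 ≤ W * (if ‖X i - X j‖ < 1 then (1:ℝ) else 0) := by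
          split_ifs <;> simp [hW]
        linarith
  have hsum : ∑ i, ∑ j, (if i = j then (0:ℝ) else rad (vpot Rk W c) (X i) (X j))
      ≤ (∑ i, ∑ j, attr Rk c ‖X i - X j‖) - W * Sp (1/2) s0 X + W * (Fintype.card ι : ℝ) := by
    calc _ ≤ ∑ i, ∑ j, (attr Rk c ‖X i - X j‖
            - W * (if qIdx (1/2) s0 (X i) = qIdx (1/2) s0 (X j) then 1 else 0)
            + W * (if i = j then 1 else 0)) :=
          Finset.sum_le_sum fun i _ => Finset.sum_le_sum fun j _ => hterm i j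
      _ = _ := by
          simp only [Finset.sum_add_distrib, Finset.sum_sub_distrib, ← Finset.mul_sum]
          congr 2
          simp
  unfold pairE
  have hconv : (∑ i, ∑ j, if i = j then (0:ℝ) else rad (vpot Rk W c) (X i) (X j))
      ≤ 16 * (∑' k, c k) * Sp (1/2) s0 X - W * Sp (1/2) s0 X + W * (Fintype.card ι : ℝ) := by
    refine le_trans (le_of_eq ?_) (hsum.trans (by linarith))
    apply Finset.sum_congr rfl
    intro i _
    apply Finset.sum_congr rfl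
    intro j _
    congr
  nlinarith

/-- Stability on a cube with the quadratic gain coming from the core. -/
theorem vpot_cube_stab (hRk : ∀ k, 20 ≤ Rk k) (hc : ∀ k, 0 ≤ c k)
    (hcs : Summable c) {W : ℝ} (hW : 8 * ∑' k, c k ≤ W / 2) (hW0 : 0 ≤ W) {ℓ : ℕ} (hℓ : 1 ≤ ℓ) {N : ℕ}
    (X : Fin N → E3) (hX : ∀ i, X i ∈ Cb ℓ) :
    pairE (rad (vpot Rk W c)) X
      ≤ W / 2 * N - (W / 2 - 8 * ∑' k, c k) / 8 * ((N : ℝ) ^ 2 / (ℓ : ℝ) ^ 3) := by
  classical
  have h1 := pairE_vpot_le hRk hc hcs hW0 X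
  rw [Fintype.card_fin] at h1
  have h2 := card_sq_le (1/2) s0 X
  rw [Fintype.card_fin] at h2
  have h3 := occd_card_le X hX
  have hℓ0 : (0:ℝ) < (ℓ:ℝ) ^ 3 := by
    have : (1:ℝ) ≤ ℓ := by exact_mod_cast hℓ
    positivity
  have hS := Sp_nonneg (1/2) s0 X
  have h4 : (N : ℝ) ^ 2 ≤ 8 * (ℓ:ℝ) ^ 3 * Sp (1/2) s0 X :=
    h2.trans (mul_le_mul_of_nonneg_right h3 hS)
  have h5 : (N : ℝ) ^ 2 / (ℓ : ℝ) ^ 3 / 8 ≤ Sp (1/2) s0 X := by
    rw [div_div, div_le_iff₀ (by positivity)]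
    linarith
  have h6 : 0 ≤ W / 2 - 8 * ∑' k, c k := by linarith
  have h7 := mul_le_mul_of_nonneg_left h5 h6
  have e : (W / 2 - 8 * ∑' k, c k) / 8 * ((N : ℝ) ^ 2 / (ℓ : ℝ) ^ 3)
      = (W / 2 - 8 * ∑' k, c k) * ((N : ℝ) ^ 2 / (ℓ : ℝ) ^ 3 / 8) := by ring
  rw [e]
  linarith

end stab

end Vale.Agent.Lib.P171H
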