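import Vale.Agent.Lib.P171H.Pot
import Vale.Agent.Lib.P171H.Kink

/-!
Finite-volume bounds and the pressure of a good radial profile: definition as a supremum over cubes,
bounds, superadditivity, convexity.
-/

open MeasureTheory Set Metric Filter Topology
open scoped ENNReal

namespace Vale.Agent.Lib.P171H

/-- The real logarithm of an extended non-negative real. -/
noncomputable def Lg (x : ℝ≥0∞) : ℝ := Real.log x.toReal

section Lg

lemma one_le_toReal {x : ℝ≥0∞} (h1 : 1 ≤ x) (h2 : x ≠ ⊤) : 1 ≤ x.toReal := by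
  have := ENNReal.toReal_mono h2 h1
  simpa using this

lemma Lg_nonneg {x : ℝ≥0∞} (h1 : 1 ≤ x) (h2 : x ≠ ⊤) : 0 ≤ Lg x :=
  Real.log_nonneg (one_le_toReal h1 h2)

lemma Lg_mono {x y : ℝ≥0∞} (h1 : 1 ≤ x) (hxy : x ≤ y) (h2 : y ≠ ⊤) : Lg x ≤ Lg y := by
  have hx := one_le_toReal h1 (ne_top_of_le_ne_top h2 hxy)
  exact Real.log_le_log (by linarith) (ENNReal.toReal_mono h2 hxy)

lemma Lg_ofReal_exp (y : ℝ) : Lg (ENNReal.ofReal (Real.exp y)) = y := by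
  unfold Lg
  rw [ENNReal.toReal_ofReal (Real.exp_pos y).le, Real.log_exp]

lemma Lg_le_of_le {x : ℝ≥0∞} {y : ℝ} (h1 : 1 ≤ x) (h : x ≤ ENNReal.ofReal (Real.exp y)) :
    Lg x ≤ y := by
  have := Lg_mono h1 h ENNReal.ofReal_ne_top
  rwa [Lg_ofReal_exp] at this

lemma Lg_mul {x y : ℝ≥0∞} (hx : 1 ≤ x) (hx' : x ≠ ⊤) (hy : 1 ≤ y) (hy' : y ≠ ⊤) :
    Lg (x * y) = Lg x + Lg y := by
  unfold Lg
  have h1 := one_le_toReal hx hx'
  have h2 := one_le_toReal hy hy'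
  rw [ENNReal.toReal_mul, Real.log_mul (by linarith) (by linarith)]

lemma Lg_pow {x : ℝ≥0∞} (n : ℕ) : Lg (x ^ n) = n * Lg x := by
  unfold Lg
  rw [ENNReal.toReal_pow, Real.log_pow]

lemma Lg_rpow {x : ℝ≥0∞} (h1 : 1 ≤ x) (h2 : x ≠ ⊤) (p : ℝ) : Lg (x ^ p) = p * Lg x := by
  unfold Lg
  have := one_le_toReal h1 h2
  rw [← ENNReal.toReal_rpow, Real.log_rpow (by linarith)]

lemma one_le_rpow_ennreal {x : ℝ≥0∞} (h1 : 1 ≤ x) {p : ℝ} (hp : 0 ≤ p) : 1 ≤ x ^ p := by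
  rcases hp.eq_or_lt with rfl | hp
  · simp
  · exact ENNReal.one_le_rpow h1 hp

lemma rpow_ne_top_ennreal {x : ℝ≥0∞} (h2 : x ≠ ⊤) {p : ℝ} (hp : 0 ≤ p) : x ^ p ≠ ⊤ :=
  ENNReal.rpow_ne_top_of_nonneg hp h2

/-- Logarithmic Hölder bound. -/
lemma Lg_le_of_holder {x y z : ℝ≥0∞} {p q : ℝ} (hp : 0 ≤ p) (hq : 0 ≤ q) (hx : 1 ≤ x)
    (hy : 1 ≤ y) (hy' : y ≠ ⊤) (hz : 1 ≤ z) (hz' : z ≠ ⊤) (h : x ≤ y ^ p * z ^ q) :
    Lg x ≤ p * Lg y + q * Lg z := by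
  have h1 := one_le_rpow_ennreal hy hp
  have h2 := one_le_rpow_ennreal hz hq
  have h3 := rpow_ne_top_ennreal hy' hp
  have h4 := rpow_ne_top_ennreal hz' hq
  have := Lg_mono hx h (ENNReal.mul_ne_top h3 h4)
  rwa [Lg_mul h1 h3 h2 h4, Lg_rpow hy hy', Lg_rpow hz hz'] at this

end Lg

/-- The exponential series in the extended non-negative reals. -/
lemma tsum_exp_series {y : ℝ} (hy : 0 ≤ y) :
    ∑' N : ℕ, ENNReal.ofReal (y ^ N / (N.factorial : ℝ)) = ENNReal.ofReal (Real.exp y) := by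
  rw [← ENNReal.ofReal_tsum_of_nonneg (fun N => by positivity) (Real.summable_pow_div_factorial y)]
  congr 1
  have := (NormedSpace.expSeries_div_hasSum_exp (𝔸 := ℝ) y).tsum_eq
  rw [this, Real.exp_eq_exp_ℝ]

/-- Good radial profiles: measurable, nonnegative at distances at least one, and stable on cubes with
a quadratic gain. -/
structure Good (v : ℝ → ℝ) (a b : ℝ) : Prop where
  meas : Measurable v
  far : ∀ r, 1 ≤ r → 0 ≤ v r
  bpos : 0 < b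
  stab : ∀ ℓ : ℕ, 1 ≤ ℓ → ∀ (N : ℕ) (X : Fin N → E3), (∀ i, X i ∈ Cb ℓ) →
    pairE (rad v) X ≤ a * N - b * ((N : ℝ) ^ 2 / (ℓ : ℝ) ^ 3)

/-- The bound for the pressure coming from stability on cubes. -/
noncomputable def Gf (a b x : ℝ) : ℝ := 1 + (x + a) ^ 2 / (4 * b)

section finite

variable {v : ℝ → ℝ} {a b : ℝ}

lemma complete_square {y N D b : ℝ} (hb : 0 < b) (hD : 0 < D) :
    y * N - b * (N ^ 2 / D) ≤ D * (y ^ 2 / (4 * b)) := by
  have key : 0 ≤ (y * D - 2 * b * N) ^ 2 := sq_nonneg _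
  have e : D * (y ^ 2 / (4 * b)) - (y * N - b * (N ^ 2 / D))
      = (y * D - 2 * b * N) ^ 2 / (4 * b * D) := by
    field_simp
    ring
  have : 0 ≤ D * (y ^ 2 / (4 * b)) - (y * N - b * (N ^ 2 / D)) := by
    rw [e]
    positivity
  linarith

/-- General bound for the labelled integral from a uniform bound on the exponent. -/
lemma Zi_le_of_bound {ι : Type*} [Fintype ι] {A : Set E3} (hA : MeasurableSet A) {V : E3 → E3 → ℝ}
    {g : ℝ} (h : ∀ X : ι → E3, (∀ i, X i ∈ A) → pairE V X ≤ g) :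
    Zi A V ι ≤ ENNReal.ofReal (Real.exp g) * (volume A) ^ Fintype.card ι := by
  unfold Zi
  calc ∫⁻ X, (Set.pi univ fun _ : ι => A).indicator (wgt V) X
      ≤ ∫⁻ X, (Set.pi univ fun _ : ι => A).indicator (fun _ => ENNReal.ofReal (Real.exp g)) X := by
        apply lintegral_mono
        intro X
        by_cases hX : ∀ i, X i ∈ A
        · have h1 : X ∈ Set.pi univ (fun _ : ι => A) := pi_mem_iff.2 hX
          simp only [indicator_of_mem h1]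
          exact ENNReal.ofReal_le_ofReal (Real.exp_le_exp.2 (h X hX))
        · have h1 : X ∉ Set.pi univ (fun _ : ι => A) := fun h => hX (pi_mem_iff.1 h)
          simp only [indicator_of_notMem h1]
          exact le_rfl
    _ = _ := by
        rw [lintegral_indicator_const (measurableSet_piA hA), volume_piA]

lemma inv_factorial_eq (N : ℕ) :
    ((N.factorial : ℝ≥0∞))⁻¹ = ENNReal.ofReal ((N.factorial : ℝ))⁻¹ := by
  rw [ENNReal.ofReal_inv_of_pos (by positivity), ENNReal.ofReal_natCast]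

/-- The canonical function on a set of finite volume with a uniform bound on the exponent. -/
lemma Zc_le_of_bound {A : Set E3} (hA : MeasurableSet A) {V : E3 → E3 → ℝ} {D g : ℝ} (hD : 0 ≤ D)
    (hvol : volume A ≤ ENNReal.ofReal D) {N : ℕ}
    (h : ∀ X : Fin N → E3, (∀ i, X i ∈ A) → pairE V X ≤ g) :
    Zc A V N ≤ ENNReal.ofReal (Real.exp g) * ENNReal.ofReal (D ^ N / (N.factorial : ℝ)) := by
  unfold Zc
  have h1 := Zi_le_of_bound hA h
  rw [Fintype.card_fin] at h1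
  have e : ENNReal.ofReal (D ^ N / (N.factorial : ℝ))
      = ((N.factorial : ℝ≥0∞))⁻¹ * ENNReal.ofReal D ^ N := by
    rw [inv_factorial_eq, ← ENNReal.ofReal_pow hD, ← ENNReal.ofReal_mul (by positivity)]
    congr 1
    field_simp
  rw [e]
  calc _ ≤ ((N.factorial : ℝ≥0∞))⁻¹ * (ENNReal.ofReal (Real.exp g) * (ENNReal.ofReal D) ^ N) := by
        gcongr
        refine h1.trans ?_
        gcongr
    _ = _ := by ring

lemma volume_Cb_nat (ℓ : ℕ) : volume (Cb (ℓ : ℝ)) = ENNReal.ofReal ((ℓ : ℝ) ^ 3) :=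
  volume_Cb (Nat.cast_nonneg ℓ)

/-- The finite-volume bound. -/
theorem Xi_Cb_le (hG : Good v a b) {ℓ : ℕ} (hℓ : 1 ≤ ℓ) (μ : ℝ) :
    Xi (Cb ℓ) (rad v) μ ≤ ENNReal.ofReal (Real.exp ((ℓ : ℝ) ^ 3 * Gf a b μ)) := by
  set D : ℝ := (ℓ : ℝ) ^ 3 with hD
  have hℓ1 : (1:ℝ) ≤ ℓ := by exact_mod_cast hℓ
  have hD0 : 0 < D := by rw [hD]; positivity
  have hb := hG.bpos
  set y := (μ + a) ^ 2 / (4 * b) with hy
  have hterm : ∀ N : ℕ, xt (Cb ℓ) (rad v) μ N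
      ≤ ENNReal.ofReal (Real.exp (D * y)) * ENNReal.ofReal (D ^ N / (N.factorial : ℝ)) := by
    intro N
    have h1 := Zc_le_of_bound (measurableSet_Cb ℓ) (V := rad v) hD0.le (volume_Cb_nat ℓ).le
      (N := N) (g := a * N - b * ((N : ℝ) ^ 2 / D)) (fun X hX => hG.stab ℓ hℓ N X hX)
    unfold xt
    calc _ ≤ ENNReal.ofReal (Real.exp (μ * N)) * (ENNReal.ofReal (Real.exp (a * N - b * ((N : ℝ) ^ 2 / D)))
          * ENNReal.ofReal (D ^ N / (N.factorial : ℝ))) := by gcongr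
      _ = ENNReal.ofReal (Real.exp ((μ + a) * N - b * ((N : ℝ) ^ 2 / D)))
          * ENNReal.ofReal (D ^ N / (N.factorial : ℝ)) := by
          rw [← mul_assoc, ← ENNReal.ofReal_mul (Real.exp_pos _).le, ← Real.exp_add]
          congr 3
          ring
      _ ≤ _ := by
          gcongr
          exact complete_square hb hD0
  unfold Xi
  calc _ ≤ ∑' N : ℕ, ENNReal.ofReal (Real.exp (D * y)) * ENNReal.ofReal (D ^ N / (N.factorial : ℝ)) :=
        ENNReal.tsum_le_tsum hterm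
    _ = _ := by
        rw [ENNReal.tsum_mul_left, tsum_exp_series hD0.le, ← ENNReal.ofReal_mul (Real.exp_pos _).le,
          ← Real.exp_add, Gf]
        congr 2
        ring

lemma Xi_Cb_ne_top (hG : Good v a b) {ℓ : ℕ} (hℓ : 1 ≤ ℓ) (μ : ℝ) :
    Xi (Cb ℓ) (rad v) μ ≠ ⊤ :=
  ne_top_of_le_ne_top ENNReal.ofReal_ne_top (Xi_Cb_le hG hℓ μ)

lemma one_le_Xi_Cb (ℓ : ℝ) (V : E3 → E3 → ℝ) (μ : ℝ) : 1 ≤ Xi (Cb ℓ) V μ :=
  one_le_Xi (measurableSet_Cb ℓ) V μ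

end finite

/-- The pressure at finite volume, normalised by `(ℓ+1)^3`. -/
noncomputable def term (v : ℝ → ℝ) (μ : ℝ) (ℓ : ℕ) : ℝ :=
  (((ℓ : ℝ) + 1) ^ 3)⁻¹ * Lg (Xi (Cb ℓ) (rad v) μ)

/-- The pressure of a radial profile. -/
noncomputable def Pr (v : ℝ → ℝ) (μ : ℝ) : ℝ := ⨆ n : ℕ, term v μ (n + 1)

section pressure

variable {v : ℝ → ℝ} {a b : ℝ}

lemma Gf_pos (hG : Good v a b) (x : ℝ) : 0 < Gf a b x := by
  have := hG.bpos
  unfold Gf
  positivity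

lemma term_nonneg (hG : Good v a b) {ℓ : ℕ} (hℓ : 1 ≤ ℓ) (μ : ℝ) : 0 ≤ term v μ ℓ := by
  unfold term
  have := Lg_nonneg (one_le_Xi_Cb ℓ (rad v) μ) (Xi_Cb_ne_top hG hℓ μ)
  positivity

lemma Lg_Xi_le (hG : Good v a b) {ℓ : ℕ} (hℓ : 1 ≤ ℓ) (μ : ℝ) :
    Lg (Xi (Cb ℓ) (rad v) μ) ≤ (ℓ : ℝ) ^ 3 * Gf a b μ :=
  Lg_le_of_le (one_le_Xi_Cb ℓ (rad v) μ) (Xi_Cb_le hG hℓ μ)

lemma term_le_G (hG : Good v a b) {ℓ : ℕ} (hℓ : 1 ≤ ℓ) (μ : ℝ) : term v μ ℓ ≤ Gf a b μ := by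
  unfold term
  have h1 := Lg_Xi_le hG hℓ μ
  have hpos : (0:ℝ) < ((ℓ : ℝ) + 1) ^ 3 := by positivity
  rw [inv_mul_le_iff₀ hpos]
  refine h1.trans ?_
  have hG0 := Gf_pos hG μ
  have : (ℓ : ℝ) ^ 3 ≤ ((ℓ : ℝ) + 1) ^ 3 :=
    pow_le_pow_left₀ (Nat.cast_nonneg ℓ) (by linarith) 3
  exact mul_le_mul_of_nonneg_right this hG0.le

lemma bdd_term (hG : Good v a b) (μ : ℝ) : BddAbove (Set.range fun n : ℕ => term v μ (n + 1)) := by
  refine ⟨Gf a b μ, ?_⟩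
  rintro _ ⟨n, rfl⟩
  exact term_le_G hG (by omega) μ

lemma term_le_Pr (hG : Good v a b) {ℓ : ℕ} (hℓ : 1 ≤ ℓ) (μ : ℝ) : term v μ ℓ ≤ Pr v μ := by
  obtain ⟨n, rfl⟩ : ∃ n, ℓ = n + 1 := ⟨ℓ - 1, by omega⟩
  exact le_ciSup (bdd_term hG μ) n

lemma Pr_le {μ B : ℝ} (h : ∀ ℓ : ℕ, 1 ≤ ℓ → term v μ ℓ ≤ B) : Pr v μ ≤ B :=
  ciSup_le fun n => h (n + 1) (by omega)

lemma Pr_nonneg (hG : Good v a b) (μ : ℝ) : 0 ≤ Pr v μ :=
  (term_nonneg hG le_rfl μ).trans (term_le_Pr hG le_rfl μ)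

lemma Pr_le_G (hG : Good v a b) (μ : ℝ) : Pr v μ ≤ Gf a b μ :=
  Pr_le fun _ hℓ => term_le_G hG hℓ μ

lemma Lg_Xi_le_Pr (hG : Good v a b) {ℓ : ℕ} (hℓ : 1 ≤ ℓ) (μ : ℝ) :
    Lg (Xi (Cb ℓ) (rad v) μ) ≤ ((ℓ : ℝ) + 1) ^ 3 * Pr v μ := by
  have := term_le_Pr hG hℓ μ
  unfold term at this
  have hpos : (0:ℝ) < ((ℓ : ℝ) + 1) ^ 3 := by positivity
  rwa [inv_mul_le_iff₀ hpos] at this

/-- Monotonicity in the chemical potential. -/
lemma Pr_mono (hG : Good v a b) : Monotone (Pr v) := by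
  intro μ μ' h
  apply Pr_le
  intro ℓ hℓ
  refine le_trans ?_ (term_le_Pr hG hℓ μ')
  unfold term
  apply mul_le_mul_of_nonneg_left _ (by positivity)
  exact Lg_mono (one_le_Xi_Cb ℓ (rad v) μ) (Xi_mono_mu h) (Xi_Cb_ne_top hG hℓ μ')

/-- Joint convexity in the profile and the chemical potential. -/
theorem Pr_joint {v₀ v₁ vτ : ℝ → ℝ} {a₀ b₀ a₁ b₁ : ℝ} (h₀ : Good v₀ a₀ b₀) (h₁ : Good v₁ a₁ b₁)
    {p q : ℝ} (hp : 0 ≤ p) (hq : 0 ≤ q) (hpq : p + q = 1)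
    (hv : ∀ r, vτ r = p * v₀ r + q * v₁ r) (μ₀ μ₁ : ℝ) :
    Pr vτ (p * μ₀ + q * μ₁) ≤ p * Pr v₀ μ₀ + q * Pr v₁ μ₁ := by
  apply Pr_le
  intro ℓ hℓ
  have hV : rad vτ = fun x y => p * rad v₀ x y + q * rad v₁ x y := by
    funext x y
    exact hv _
  have h := Xi_holder (measurableSet_Cb ℓ) (measurable_rad h₀.meas) (measurable_rad h₁.meas)
    hp hq hpq μ₀ μ₁
  rw [← hV] at h
  have hL := Lg_le_of_holder hp hq (one_le_Xi_Cb ℓ _ _) (one_le_Xi_Cb ℓ _ _)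
    (Xi_Cb_ne_top h₀ hℓ μ₀) (one_le_Xi_Cb ℓ _ _) (Xi_Cb_ne_top h₁ hℓ μ₁) h
  unfold term
  have hpos : (0:ℝ) < ((ℓ : ℝ) + 1) ^ 3 := by positivity
  rw [inv_mul_le_iff₀ hpos]
  refine hL.trans ?_
  have t0 := Lg_Xi_le_Pr h₀ hℓ μ₀
  have t1 := Lg_Xi_le_Pr h₁ hℓ μ₁
  have := mul_le_mul_of_nonneg_left t0 hp
  have := mul_le_mul_of_nonneg_left t1 hq
  nlinarith

/-- Convexity of the pressure. -/
theorem Pr_convex (hG : Good v a b) : ConvexOn ℝ univ (Pr v) := by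
  refine ⟨convex_univ, ?_⟩
  intro x _ y _ p q hp hq hpq
  simp only [smul_eq_mul]
  exact Pr_joint hG hG hp hq hpq (fun r => by
    have : p * v r + q * v r = (p + q) * v r := by ring
    rw [this, hpq, one_mul]) x y

theorem Pr_continuous (hG : Good v a b) : Continuous (Pr v) := by
  have := (Pr_convex hG).continuousOn isOpen_univ
  exact continuousOn_univ.1 this

/-- A Lipschitz-type bound, from convexity and nonnegativity. -/
lemma Pr_lip (hG : Good v a b) {x y : ℝ} (hxy : x ≤ y) :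
    Pr v y - Pr v x ≤ (y - x) * Gf a b (y + 1) := by
  rcases eq_or_lt_of_le hxy with rfl | hlt
  · simp
  have h := chord_mul_le (Pr_convex hG) hlt (by linarith : y < y + 1) hlt.le (by linarith)
  have e : y + 1 - y = 1 := by ring
  rw [e, mul_one] at h
  have h1 := Pr_le_G hG (y + 1)
  have h2 := Pr_nonneg hG y
  have hyx : 0 ≤ y - x := by linarith
  calc Pr v y - Pr v x ≤ (Pr v (y + 1) - Pr v y) * (y - x) := h
    _ ≤ Gf a b (y + 1) * (y - x) := mul_le_mul_of_nonneg_right (by linarith) hyx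
    _ = _ := by ring

end pressure

section superadd

variable {v : ℝ → ℝ} {a b : ℝ}

/-- The translation vector of a subcube. -/
noncomputable def tvec (ℓ : ℕ) (n : Fin 3 → ℕ) : E3 := vec fun d => ((ℓ : ℝ) + 1) * n d

/-- Subcubes of side `ℓ` separated by corridors of width one. -/
def subcube (ℓ : ℕ) (n : Fin 3 → ℕ) : Set E3 := (fun x : E3 => x - tvec ℓ n) ⁻¹' Cb ℓ

lemma mem_subcube {ℓ : ℕ} {n : Fin 3 → ℕ} {x : E3} :
    x ∈ subcube ℓ n ↔ ∀ d, ((ℓ : ℝ) + 1) * n d ≤ x d ∧ x d < ((ℓ : ℝ) + 1) * n d + ℓ := by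
  simp only [subcube, mem_preimage, Cb, mem_ofPred_eq, tvec, PiLp.sub_apply, vec_apply]
  constructor
  · intro h d
    constructor <;> linarith [(h d).1, (h d).2]
  · intro h d
    constructor <;> linarith [(h d).1, (h d).2]

lemma measurableSet_subcube (ℓ : ℕ) (n : Fin 3 → ℕ) : MeasurableSet (subcube ℓ n) :=
  (measurable_id.sub_const _) (measurableSet_Cb ℓ)

lemma Xi_subcube (hv : Measurable v) (ℓ : ℕ) (n : Fin 3 → ℕ) (μ : ℝ) :
    Xi (subcube ℓ n) (rad v) μ = Xi (Cb ℓ) (rad v) μ :=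
  Xi_transl (measurePreserving_sub_right volume (tvec ℓ n)) (measurableSet_Cb ℓ) (measurable_rad hv)
    (fun x y => rad_transl v _ x y) μ

lemma subcube_sep {ℓ : ℕ} {n m : Fin 3 → ℕ} (hnm : n ≠ m) {x y : E3} (hx : x ∈ subcube ℓ n)
    (hy : y ∈ subcube ℓ m) : 1 ≤ ‖x - y‖ := by
  obtain ⟨d, hd⟩ := Function.ne_iff.1 hnm
  have hx' := mem_subcube.1 hx d
  have hy' := mem_subcube.1 hy d
  have hl : (0:ℝ) ≤ ℓ := Nat.cast_nonneg ℓ
  have h1 : 1 ≤ |x d - y d| := by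
    rcases lt_or_gt_of_ne hd with h | h
    · have h2 : (n d : ℝ) + 1 ≤ m d := by exact_mod_cast h
      have h3 : ((ℓ : ℝ) + 1) * ((n d : ℝ) + 1) ≤ ((ℓ : ℝ) + 1) * m d :=
        mul_le_mul_of_nonneg_left h2 (by linarith)
      rw [abs_sub_comm]
      refine le_trans ?_ (le_abs_self _)
      nlinarith [hx'.2, hy'.1]
    · have h2 : (m d : ℝ) + 1 ≤ n d := by exact_mod_cast h
      have h3 : ((ℓ : ℝ) + 1) * ((m d : ℝ) + 1) ≤ ((ℓ : ℝ) + 1) * n d :=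
        mul_le_mul_of_nonneg_left h2 (by linarith)
      refine le_trans ?_ (le_abs_self _)
      nlinarith [hy'.2, hx'.1]
  have h2 := abs_coord_le_norm (x - y) d
  simp only [PiLp.sub_apply] at h2
  linarith

lemma Xi_biUnion_ge (hG : Good v a b) (ℓ : ℕ) (F : Finset (Fin 3 → ℕ)) (μ : ℝ) :
    (Xi (Cb ℓ) (rad v) μ) ^ F.card ≤ Xi (⋃ n ∈ F, subcube ℓ n) (rad v) μ := by
  classical
  induction F using Finset.induction_on with
  | empty =>
    simp only [Finset.card_empty, pow_zero, Finset.notMem_empty, iUnion_of_empty, iUnion_empty]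
    exact one_le_Xi MeasurableSet.empty _ _
  | insert m F hm ih =>
    rw [Finset.card_insert_of_notMem hm, pow_succ, Finset.set_biUnion_insert, union_comm]
    have hmF : MeasurableSet (⋃ n ∈ F, subcube ℓ n) :=
      Finset.measurableSet_biUnion _ fun n _ => measurableSet_subcube ℓ n
    have hd : Disjoint (⋃ n ∈ F, subcube ℓ n) (subcube ℓ m) := by
      rw [Set.disjoint_left]
      intro x hx hx'
      simp only [mem_iUnion, exists_prop] at hx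
      obtain ⟨n, hn, hxn⟩ := hx
      have hne : n ≠ m := fun h => hm (h ▸ hn)
      have := subcube_sep hne hxn hx'
      simp at this
      linarith
    have hc : ∀ x ∈ ⋃ n ∈ F, subcube ℓ n, ∀ y ∈ subcube ℓ m, 0 ≤ rad v x y := by
      intro x hx y hy
      simp only [mem_iUnion, exists_prop] at hx
      obtain ⟨n, hn, hxn⟩ := hx
      have hne : n ≠ m := fun h => hm (h ▸ hn)
      exact hG.far _ (subcube_sep hne hxn hy)
    have h := Xi_union_ge hmF (measurableSet_subcube ℓ m) hd (measurable_rad hG.meas) (rad_symm v)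
      hc μ
    rw [Xi_subcube hG.meas] at h
    exact le_trans (by gcongr) h

/-- Superadditivity along multiples. -/
theorem Xi_big_ge (hG : Good v a b) (ℓ M : ℕ) (μ : ℝ) :
    (Xi (Cb ℓ) (rad v) μ) ^ (M ^ 3) ≤ Xi (Cb ((M * (ℓ + 1) : ℕ) : ℝ)) (rad v) μ := by
  classical
  set F : Finset (Fin 3 → ℕ) := Fintype.piFinset fun _ => Finset.range M with hF
  have hcard : F.card = M ^ 3 := by
    rw [hF, Fintype.card_piFinset]
    simp
  have h := Xi_biUnion_ge hG ℓ F μ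
  rw [hcard] at h
  refine h.trans (Xi_mono_set ?_ _ _)
  intro x hx
  simp only [mem_iUnion, exists_prop] at hx
  obtain ⟨n, hn, hxn⟩ := hx
  rw [hF, Fintype.mem_piFinset] at hn
  intro d
  have h1 := mem_subcube.1 hxn d
  have h2 : (n d : ℝ) + 1 ≤ M := by
    have := Finset.mem_range.1 (hn d)
    exact_mod_cast this
  have hl : (0:ℝ) ≤ ℓ := Nat.cast_nonneg ℓ
  constructor
  · exact le_trans (by positivity) h1.1
  · push_cast
    have h3 : ((ℓ : ℝ) + 1) * ((n d : ℝ) + 1) ≤ ((ℓ : ℝ) + 1) * M :=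
      mul_le_mul_of_nonneg_left h2 (by linarith)
    nlinarith [h1.2]

/-- The logarithmic form of superadditivity. -/
theorem Lg_big_ge (hG : Good v a b) {ℓ M : ℕ} (hℓ : 1 ≤ ℓ) (hM : 1 ≤ M) (μ : ℝ) :
    (M : ℝ) ^ 3 * Lg (Xi (Cb ℓ) (rad v) μ) ≤ Lg (Xi (Cb ((M * (ℓ + 1) : ℕ) : ℝ)) (rad v) μ) := by
  have h := Xi_big_ge hG ℓ M μ
  have h1 := one_le_Xi_Cb (ℓ : ℝ) (rad v) μ
  have h2 : (1 : ℝ≥0∞) ≤ (Xi (Cb ℓ) (rad v) μ) ^ (M ^ 3) := one_le_pow₀ h1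
  have hle : 1 ≤ M * (ℓ + 1) := Nat.mul_pos hM (by omega)
  have := Lg_mono h2 h (Xi_Cb_ne_top hG hle μ)
  rw [Lg_pow, Nat.cast_pow] at this
  exact this

end superadd

end Vale.Agent.Lib.P171H
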