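import Vale.Agent.Lib.P171H.LP
import Vale.Agent.Lib.P171H.Hierarchy

/-!
The explicit hierarchy of scales and the closeness estimates at each level.
-/

open MeasureTheory Set Metric Filter Topology
open scoped ENNReal

namespace Vale.Agent.Lib.P171H

/-- The doubly exponential sequence `T_k = T₀^(2^k)`. -/
def Tk (T₀ k : ℕ) : ℕ := T₀ ^ (2 ^ k)

lemma Tk_zero (T₀ : ℕ) : Tk T₀ 0 = T₀ := by simp [Tk]

lemma Tk_succ (T₀ k : ℕ) : Tk T₀ (k + 1) = (Tk T₀ k) ^ 2 := by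
  unfold Tk
  rw [← pow_mul, pow_succ]

lemma Tk_ge {T₀ : ℕ} (h : 2 ≤ T₀) (k : ℕ) : 2 ^ k * T₀ ≤ Tk T₀ k := by
  induction k with
  | zero => simp [Tk]
  | succ k ih =>
    rw [Tk_succ, pow_succ, sq]
    have h2 : 2 ≤ Tk T₀ k := by
      have : 1 ≤ 2 ^ k := Nat.one_le_two_pow
      nlinarith
    nlinarith

lemma Tk_mono {T₀ : ℕ} (h : 1 ≤ T₀) : Monotone (Tk T₀) := by
  intro a b hab
  exact Nat.pow_le_pow_right h (Nat.pow_le_pow_right (by norm_num) hab)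

/-- The radius of scale `k`. -/
noncomputable def Rs (T₀ k : ℕ) : ℝ := ((Tk T₀ k : ℕ) : ℝ) ^ 64

/-- The mass of scale `k`. -/
noncomputable def cm (cs : ℝ) (T₀ k : ℕ) : ℝ := cs * (T₀ : ℝ) ^ 2 / ((Tk T₀ k : ℕ) : ℝ) ^ 2

section params

variable {T₀ : ℕ} {cs : ℝ}

lemma Tk_real_ge {T₀ : ℕ} (h : 2 ≤ T₀) (k : ℕ) : (2:ℝ) ^ k * T₀ ≤ ((Tk T₀ k : ℕ) : ℝ) := by
  have := Tk_ge h k
  exact_mod_cast this

lemma Tk_real_pos {T₀ : ℕ} (h : 2 ≤ T₀) (k : ℕ) : (0:ℝ) < ((Tk T₀ k : ℕ) : ℝ) := by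
  have h2 := Tk_real_ge h k
  have : (2:ℝ) ≤ T₀ := by exact_mod_cast h
  have h3 : (0:ℝ) < (2:ℝ) ^ k * T₀ := by positivity
  linarith

lemma Tk_real_ge_two {T₀ : ℕ} (h : 2 ≤ T₀) (k : ℕ) : (2:ℝ) ≤ ((Tk T₀ k : ℕ) : ℝ) := by
  have h2 := Tk_real_ge h k
  have h3 : (2:ℝ) ≤ T₀ := by exact_mod_cast h
  have h4 : (1:ℝ) ≤ (2:ℝ) ^ k := one_le_pow₀ (by norm_num)
  nlinarith

lemma Rs_ge_20 (h : 2 ≤ T₀) (k : ℕ) : 20 ≤ Rs T₀ k := by
  unfold Rs
  have h2 := Tk_real_ge_two h k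
  calc (20:ℝ) ≤ 2 ^ 64 := by norm_num
    _ ≤ _ := pow_le_pow_left₀ (by norm_num) h2 64

lemma Rs_mono (h : 2 ≤ T₀) : Monotone (Rs T₀) := by
  intro a b hab
  unfold Rs
  apply pow_le_pow_left₀ (Nat.cast_nonneg _)
  exact_mod_cast Tk_mono (by omega) hab

lemma cm_nonneg (hcs : 0 ≤ cs) (k : ℕ) : 0 ≤ cm cs T₀ k := by
  unfold cm
  positivity

lemma cm_pos (hcs : 0 < cs) (h : 2 ≤ T₀) (k : ℕ) : 0 < cm cs T₀ k := by
  unfold cm
  have h0 : (0:ℝ) < T₀ := by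
    have : 0 < T₀ := by omega
    exact_mod_cast this
  have := Tk_real_pos h k
  positivity

lemma cm_le (hcs : 0 ≤ cs) (h : 2 ≤ T₀) (k : ℕ) : cm cs T₀ k ≤ cs * (1 / 4) ^ k := by
  unfold cm
  have h0 : (0:ℝ) < T₀ := by
    have : 0 < T₀ := by omega
    exact_mod_cast this
  have h1 := Tk_real_ge h k
  have hpos := Tk_real_pos h k
  rw [div_le_iff₀ (by positivity)]
  have h2 : ((2:ℝ) ^ k * T₀) ^ 2 ≤ ((Tk T₀ k : ℕ) : ℝ) ^ 2 :=
    pow_le_pow_left₀ (by positivity) h1 2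
  have h3 : (1 / 4 : ℝ) ^ k * ((2:ℝ) ^ k * T₀) ^ 2 = (T₀ : ℝ) ^ 2 := by
    rw [mul_pow, ← pow_mul, mul_comm k 2, pow_mul, ← mul_assoc, ← mul_pow]
    norm_num
  have h4 : (0:ℝ) ≤ (1 / 4 : ℝ) ^ k := by positivity
  calc cs * (T₀ : ℝ) ^ 2 = cs * ((1 / 4 : ℝ) ^ k * ((2:ℝ) ^ k * T₀) ^ 2) := by rw [h3]
    _ ≤ cs * ((1 / 4 : ℝ) ^ k * ((Tk T₀ k : ℕ) : ℝ) ^ 2) := by gcongr
    _ = _ := by ring

lemma summable_cm (hcs : 0 ≤ cs) (h : 2 ≤ T₀) : Summable (cm cs T₀) :=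
  Summable.of_nonneg_of_le (cm_nonneg hcs) (cm_le hcs h)
    ((summable_geometric_of_lt_one (by norm_num) (by norm_num)).mul_left _)

lemma tsum_cm_le (hcs : 0 ≤ cs) (h : 2 ≤ T₀) : ∑' k, cm cs T₀ k ≤ 2 * cs := by
  have h1 := (summable_cm hcs h).tsum_le_tsum (cm_le hcs h)
    ((summable_geometric_of_lt_one (by norm_num : (0:ℝ) ≤ 1 / 4) (by norm_num)).mul_left _)
  refine h1.trans ?_
  rw [tsum_mul_left, tsum_geometric_of_lt_one (by norm_num) (by norm_num)]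
  norm_num
  linarith

/-- The masses below level `K`. -/
noncomputable def cut (cs : ℝ) (T₀ K k : ℕ) : ℝ := if k < K then cm cs T₀ k else 0

lemma cut_nonneg (hcs : 0 ≤ cs) (K k : ℕ) : 0 ≤ cut cs T₀ K k := by
  unfold cut
  split_ifs
  · exact cm_nonneg hcs k
  · exact le_rfl

lemma cut_le (hcs : 0 ≤ cs) (K k : ℕ) : cut cs T₀ K k ≤ cm cs T₀ k := by
  unfold cut
  split_ifs
  · exact le_rfl
  · exact cm_nonneg hcs k

lemma summable_cut (hcs : 0 ≤ cs) (h : 2 ≤ T₀) (K : ℕ) : Summable (cut cs T₀ K) :=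
  Summable.of_nonneg_of_le (cut_nonneg hcs K) (cut_le hcs K) (summable_cm hcs h)

/-- The support condition for the short-range part. -/
lemma cut_support (h : 2 ≤ T₀) {K k : ℕ} (hk : cut cs T₀ K k ≠ 0) :
    2 * Rs T₀ k ≤ 2 * ((Tk T₀ K : ℕ) : ℝ) ^ 32 := by
  have hlt : k < K := by
    by_contra hn
    exact hk (by unfold cut; rw [if_neg hn])
  have h1 : Tk T₀ (k + 1) ≤ Tk T₀ K := Tk_mono (by omega) hlt
  have h2 : Rs T₀ k = ((Tk T₀ (k + 1) : ℕ) : ℝ) ^ 32 := by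
    unfold Rs
    rw [Tk_succ]
    push_cast
    rw [← pow_mul]
  rw [h2]
  have h3 : ((Tk T₀ (k + 1) : ℕ) : ℝ) ≤ ((Tk T₀ K : ℕ) : ℝ) := by exact_mod_cast h1
  have h4 : ((Tk T₀ (k + 1) : ℕ) : ℝ) ^ 32 ≤ ((Tk T₀ K : ℕ) : ℝ) ^ 32 :=
    pow_le_pow_left₀ (Nat.cast_nonneg _) h3 32
  linarith

/-- A logarithm estimate for the cube-count term. -/
lemma log_term_le {T : ℝ} (hT : 2 ≤ T) :
    Real.log (30 * (T ^ 48) ^ 3 + 3) / (T ^ 48) ^ 3 ≤ 148 / T ^ 16 := by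
  have hT0 : 0 < T := by linarith
  have hT1 : 1 ≤ T := by linarith
  have hle : 1 ≤ T ^ 144 := one_le_pow₀ hT1
  have e3 : (T ^ 48) ^ 3 = T ^ 144 := by rw [← pow_mul]
  rw [e3, div_le_div_iff₀ (by positivity) (by positivity)]
  have h1 : Real.log (30 * T ^ 144 + 3) ≤ Real.log (33 * T ^ 144) :=
    Real.log_le_log (by positivity) (by linarith)
  have h2 : Real.log (33 * T ^ 144) = Real.log 33 + 144 * Real.log T := by
    rw [Real.log_mul (by norm_num) (by positivity), Real.log_pow]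
    norm_num
  have h3 : Real.log T ≤ T := (Real.log_le_sub_one_of_pos hT0).trans (by linarith)
  have h4 : Real.log 33 ≤ 4 := by
    rw [Real.log_le_iff_le_exp (by norm_num)]
    have h5 : Real.exp 4 = (Real.exp 1) ^ 4 := by
      rw [← Real.exp_nat_mul]
      norm_num
    have h6 : (2.5:ℝ) ≤ Real.exp 1 := by
      have := Real.exp_one_gt_d9
      linarith
    rw [h5]
    calc (33:ℝ) ≤ 2.5 ^ 4 := by norm_num
      _ ≤ _ := pow_le_pow_left₀ (by norm_num) h6 4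
  have h7 : Real.log (30 * T ^ 144 + 3) ≤ 148 * T := by
    refine h1.trans ?_
    rw [h2]
    nlinarith
  have h8 : T ^ 17 ≤ T ^ 144 := pow_le_pow_right₀ hT1 (by norm_num)
  calc Real.log (30 * T ^ 144 + 3) * T ^ 16 ≤ 148 * T * T ^ 16 :=
        mul_le_mul_of_nonneg_right h7 (by positivity)
    _ = 148 * T ^ 17 := by ring
    _ ≤ _ := by linarith

/-- The error constant at every level. -/
noncomputable def Cone (C D : ℝ) : ℝ := (30 * (C * 252) + 180 + 7 + C / b1) * Gm C D + 148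

lemma Cone_pos {C D : ℝ} (hC : 0 < C) : 0 < Cone C D := by
  unfold Cone
  have := b1_pos
  have := Gm_pos hC (D := D)
  positivity

/-- The closeness estimate at level `K`: the short-range part is the cut at `K` and the long-range
part has scales at least `K`. -/
theorem level_close (hcs : 0 < cs) (h : 2 ≤ T₀) (K : ℕ) {cR : ℕ → ℝ} (hcR0 : ∀ k, 0 ≤ cR k)
    (hcRle : ∀ k, cR k ≤ cm cs T₀ k) (hcRs : ∀ k, cR k ≠ 0 → K ≤ k) {D μ : ℝ} (hD : 0 ≤ D)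
    (hμ : μ ≤ 0) (hμD : -D ≤ μ) :
    |Pr (vpot (Rs T₀) (48 * (2 * cs)) fun k => cut cs T₀ K k + cR k) μ
      - Top (∑' k, cR k) (Pr (vpot (Rs T₀) (48 * (2 * cs)) (cut cs T₀ K))) μ|
      ≤ Cone (2 * cs) D / ((Tk T₀ K : ℕ) : ℝ) ^ 16 := by
  set C := 2 * cs with hC
  have hC0 : 0 < C := by rw [hC]; positivity
  set T := ((Tk T₀ K : ℕ) : ℝ) with hT
  have hT2 : 2 ≤ T := Tk_real_ge_two h K
  have hT0 : 0 < T := by linarith
  have hRk := Rs_ge_20 h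
  have hcAs := summable_cut hcs.le h K
  have hcA := cut_nonneg (T₀ := T₀) hcs.le K
  have hcRsum : Summable cR := Summable.of_nonneg_of_le hcR0 hcRle (summable_cm hcs.le h)
  have hmass : ∑' k, cut cs T₀ K k + ∑' k, cR k ≤ C := by
    rw [← hcAs.tsum_add hcRsum]
    refine le_trans ((hcAs.add hcRsum).tsum_le_tsum (fun k => ?_) (summable_cm hcs.le h))
      (tsum_cm_le hcs.le h)
    by_cases hk : k < K
    · have : cR k = 0 := by
        by_contra hne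
        exact absurd (hcRs k hne) (not_le.2 hk)
      rw [this, add_zero]
      exact cut_le hcs.le K k
    · have : cut cs T₀ K k = 0 := by unfold cut; rw [if_neg hk]
      rw [this, zero_add]
      exact hcRle k
  set ℓ : ℕ := (Tk T₀ K) ^ 48 with hℓ
  have hℓr : (ℓ : ℝ) = T ^ 48 := by rw [hℓ]; push_cast; rfl
  have hTk1 : 1 ≤ Tk T₀ K := by
    have : (1:ℝ) ≤ ((Tk T₀ K : ℕ) : ℝ) := by linarith
    exact_mod_cast this
  have hℓ1 : 1 ≤ ℓ := Nat.one_le_pow _ _ hTk1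
  have hΛ : Rs T₀ K = T ^ 64 := rfl
  have hΛ0 : 0 < Rs T₀ K := by linarith [hRk K]
  have hT16 : (65536:ℝ) ≤ T ^ 16 := by
    calc (65536:ℝ) = 2 ^ 16 := by norm_num
      _ ≤ T ^ 16 := pow_le_pow_left₀ (by norm_num) hT2 16
  have hT32 : 1 ≤ T ^ 32 := one_le_pow₀ (by linarith)
  have hρ0 : (0:ℝ) ≤ 2 * T ^ 32 := by positivity
  have hℓρ : 60 * (2 * T ^ 32 + 1) ≤ (ℓ : ℝ) := by
    rw [hℓr]
    have e : T ^ 48 = T ^ 32 * T ^ 16 := by ring
    rw [e]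
    nlinarith
  have hℓΛ : 252 * (ℓ : ℝ) ≤ Rs T₀ K := by
    rw [hℓr, hΛ]
    have e : T ^ 64 = T ^ 48 * T ^ 16 := by ring
    rw [e]
    have : (0:ℝ) < T ^ 48 := by positivity
    nlinarith
  have hup := LP_upper hC0 hD hRk hcA hcAs hcR0 hcRsum hmass hℓ1 hρ0 hΛ0
    (fun k hk => cut_support h hk)
    (fun k hk => Rs_mono h (hcRs k hk)) hℓρ hℓΛ hμ hμD
  have hlow := LP_lower hC0 hD hRk hcA hcAs hcR0 hcRsum hmass hμ hμD
  set P' := Pr (vpot (Rs T₀) (48 * C) fun k => cut cs T₀ K k + cR k) μ with hP'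
  set Q := Top (∑' k, cR k) (Pr (vpot (Rs T₀) (48 * C) (cut cs T₀ K))) μ with hQ
  have hGm := Gm_pos hC0 (D := D)
  have hb := b1_pos
  have hT16pos : 0 < T ^ 16 := by positivity
  -- the error terms
  have e1 : 252 * (ℓ : ℝ) / Rs T₀ K = 252 / T ^ 16 := by
    rw [hℓr, hΛ]
    field_simp
  have e2 : 60 * (2 * T ^ 32 + 1) / (ℓ : ℝ) ≤ 180 / T ^ 16 := by
    rw [hℓr, div_le_div_iff₀ (by positivity) (by positivity)]
    have e : T ^ 48 = T ^ 32 * T ^ 16 := by ring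
    rw [e]
    nlinarith
  have e3 : 7 / (ℓ : ℝ) ≤ 7 / T ^ 16 := by
    rw [hℓr]
    apply div_le_div_of_nonneg_left (by norm_num) hT16pos
    exact pow_le_pow_right₀ (by linarith) (by norm_num)
  have e4 := log_term_le hT2
  rw [← hℓr] at e4
  have hup2 : P' ≤ Q + Cone C D / T ^ 16 := by
    refine hup.trans ?_
    have e5 : 30 * (C * (252 * (ℓ : ℝ) / Rs T₀ K)) + 60 * (2 * T ^ 32 + 1) / (ℓ : ℝ) + 7 / (ℓ : ℝ)
        ≤ (30 * (C * 252) + 180 + 7) / T ^ 16 := by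
      rw [e1]
      have : (30 * (C * 252) + 180 + 7) / T ^ 16
          = 30 * (C * (252 / T ^ 16)) + 180 / T ^ 16 + 7 / T ^ 16 := by
        field_simp
      rw [this]
      linarith
    have e6 := mul_le_mul_of_nonneg_right e5 hGm.le
    have e7 : Cone C D / T ^ 16 = (30 * (C * 252) + 180 + 7) / T ^ 16 * Gm C D
        + (C / b1) / T ^ 16 * Gm C D + 148 / T ^ 16 := by
      unfold Cone
      field_simp
    rw [e7]
    have e8 : 0 ≤ (C / b1) / T ^ 16 * Gm C D := by positivity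
    linarith
  -- the inverse-volume term
  have hη : etaS (Rs T₀) cR ≤ (C / b1) / T ^ 16 := by
    unfold etaS
    have hR0 : 0 ≤ ∑' k, cR k := tsum_nonneg hcR0
    have hA0 : 0 ≤ ∑' k, cut cs T₀ K k := tsum_nonneg hcA
    have hbd : ∀ k, cR k / (b1 * Rs T₀ k ^ 3) ≤ cR k * ((b1 * T ^ 16)⁻¹) := by
      intro k
      by_cases hk : cR k = 0
      · simp [hk]
      rw [div_eq_mul_inv]
      apply mul_le_mul_of_nonneg_left _ (hcR0 k)
      apply inv_anti₀ (by positivity)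
      have h1 : T ^ 64 ≤ Rs T₀ k := Rs_mono h (hcRs k hk)
      have h2 : T ^ 16 ≤ Rs T₀ k ^ 3 := by
        have h3 : (1:ℝ) ≤ T ^ 64 := one_le_pow₀ (by linarith)
        have h4 : T ^ 16 ≤ T ^ 64 := pow_le_pow_right₀ (by linarith) (by norm_num)
        have h5 : T ^ 64 ≤ (T ^ 64) ^ 3 := le_self_pow₀ h3 (by norm_num)
        have h6 : (T ^ 64) ^ 3 ≤ Rs T₀ k ^ 3 := pow_le_pow_left₀ (by positivity) h1 3
        linarith
      exact mul_le_mul_of_nonneg_left h2 hb.le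
    have hsum := summable_eta hRk hcR0 hcRsum
    refine (hsum.tsum_le_tsum hbd (hcRsum.mul_right _)).trans ?_
    rw [tsum_mul_right]
    have e : (C / b1) / T ^ 16 = C * (b1 * T ^ 16)⁻¹ := by
      field_simp
    rw [e]
    apply mul_le_mul_of_nonneg_right _ (by positivity)
    linarith
  have hlow2 : Q ≤ P' + Cone C D / T ^ 16 := by
    refine hlow.trans ?_
    have hη0 : 0 ≤ etaS (Rs T₀) cR := by
      unfold etaS
      refine tsum_nonneg fun k => ?_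
      have h0 : 0 < Rs T₀ k := by linarith [hRk k]
      exact div_nonneg (hcR0 k) (mul_nonneg hb.le (pow_nonneg h0.le 3))
    have e7 : Cone C D / T ^ 16 = (30 * (C * 252) + 180 + 7) / T ^ 16 * Gm C D
        + (C / b1) / T ^ 16 * Gm C D + 148 / T ^ 16 := by
      unfold Cone
      field_simp
    rw [e7]
    have e8 : 0 ≤ (30 * (C * 252) + 180 + 7) / T ^ 16 * Gm C D := by positivity
    have e9 : 0 ≤ 148 / T ^ 16 := by positivity
    have e10 : etaS (Rs T₀) cR / 2 * Gm C D ≤ (C / b1) / T ^ 16 * Gm C D :=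
      mul_le_mul_of_nonneg_right (by linarith) hGm.le
    linarith
  rw [abs_le]
  constructor <;> linarith

end params

end Vale.Agent.Lib.P171H
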