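import Vale.Agent.Lib.P171H.Lower

/-!
Counting grid shifts that separate two nearby points.
-/

open MeasureTheory Set Metric Filter Topology
open scoped ENNReal

namespace Vale.Agent.Lib.P171H

/-- One-dimensional count: few integer shifts of a grid of side `ℓ` separate `x ≤ y`. -/
lemma card_bad_le_aux {ℓ : ℕ} (hℓ : 1 ≤ ℓ) {x y : ℝ} (hxy : x ≤ y) :
    (((Finset.univ.filter fun j : Fin ℓ =>
      ⌊(x - (j : ℕ)) / (ℓ : ℝ)⌋ ≠ ⌊(y - (j : ℕ)) / (ℓ : ℝ)⌋).card : ℕ) : ℝ) ≤ y - x + 1 := by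
  have hℓ0 : (0:ℝ) < ℓ := by exact_mod_cast hℓ
  set t : Fin ℓ → ℤ := fun j => (ℓ : ℤ) * ⌊(y - (j : ℕ)) / (ℓ : ℝ)⌋ + ((j : ℕ) : ℤ) with ht
  have hmaps : ∀ j ∈ (Finset.univ.filter fun j : Fin ℓ =>
      ⌊(x - (j : ℕ)) / (ℓ : ℝ)⌋ ≠ ⌊(y - (j : ℕ)) / (ℓ : ℝ)⌋), t j ∈ Finset.Ioc ⌊x⌋ ⌊y⌋ := by
    intro j hj
    have hne := (Finset.mem_filter.1 hj).2
    set n := ⌊(y - (j : ℕ)) / (ℓ : ℝ)⌋ with hn
    have h1 : (n : ℝ) ≤ (y - (j : ℕ)) / (ℓ : ℝ) := Int.floor_le _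
    have h2 : ⌊(x - (j : ℕ)) / (ℓ : ℝ)⌋ ≤ n := by
      apply Int.floor_mono
      apply div_le_div_of_nonneg_right _ hℓ0.le
      linarith
    have h3 : ⌊(x - (j : ℕ)) / (ℓ : ℝ)⌋ < n := lt_of_le_of_ne h2 hne
    have h4 : (x - (j : ℕ)) / (ℓ : ℝ) < n := Int.floor_lt.1 h3
    rw [le_div_iff₀ hℓ0] at h1
    rw [div_lt_iff₀ hℓ0] at h4
    have htr : ((t j : ℤ) : ℝ) = (ℓ : ℝ) * n + ((j : ℕ) : ℝ) := by
      simp only [ht]
      push_cast
      ring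
    rw [Finset.mem_Ioc]
    constructor
    · rw [Int.floor_lt, htr]
      linarith
    · rw [Int.le_floor, htr]
      linarith
  have hinj : Set.InjOn t (Finset.univ.filter fun j : Fin ℓ =>
      ⌊(x - (j : ℕ)) / (ℓ : ℝ)⌋ ≠ ⌊(y - (j : ℕ)) / (ℓ : ℝ)⌋ : Finset (Fin ℓ)) := by
    intro j _ j' _ he
    have hmod : ∀ i : Fin ℓ, t i % (ℓ : ℤ) = ((i : ℕ) : ℤ) := by
      intro i
      simp only [ht]
      rw [add_comm, Int.add_mul_emod_self_left]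
      exact Int.emod_eq_of_lt (by positivity) (by exact_mod_cast i.2)
    have := congrArg (· % (ℓ : ℤ)) he
    simp only [hmod] at this
    exact Fin.ext (by exact_mod_cast this)
  have hcard := Finset.card_le_card_of_injOn t hmaps hinj
  rw [Int.card_Ioc] at hcard
  have hcast : (((Finset.univ.filter fun j : Fin ℓ =>
      ⌊(x - (j : ℕ)) / (ℓ : ℝ)⌋ ≠ ⌊(y - (j : ℕ)) / (ℓ : ℝ)⌋).card : ℕ) : ℝ)
      ≤ ((⌊y⌋ - ⌊x⌋).toNat : ℝ) := by exact_mod_cast hcard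
  refine hcast.trans ?_
  have hfl : ⌊x⌋ ≤ ⌊y⌋ := Int.floor_mono hxy
  have hto : (((⌊y⌋ - ⌊x⌋).toNat : ℕ) : ℝ) = ((⌊y⌋ - ⌊x⌋ : ℤ) : ℝ) := by
    have h0 : 0 ≤ ⌊y⌋ - ⌊x⌋ := by omega
    have := Int.toNat_of_nonneg h0
    exact_mod_cast this
  rw [hto]
  push_cast
  have h1 := Int.floor_le y
  have h2 := Int.lt_floor_add_one x
  linarith

lemma card_bad_le {ℓ : ℕ} (hℓ : 1 ≤ ℓ) (x y : ℝ) :
    (((Finset.univ.filter fun j : Fin ℓ =>
      ⌊(x - (j : ℕ)) / (ℓ : ℝ)⌋ ≠ ⌊(y - (j : ℕ)) / (ℓ : ℝ)⌋).card : ℕ) : ℝ) ≤ |x - y| + 1 := by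
  rcases le_total x y with h | h
  · have := card_bad_le_aux hℓ h
    rw [abs_sub_comm, abs_of_nonneg (by linarith)]
    exact this
  · have := card_bad_le_aux hℓ h
    rw [abs_of_nonneg (by linarith)]
    refine le_trans (le_of_eq ?_) this
    congr 2
    ext j
    simp only [Finset.mem_filter, Finset.mem_univ, true_and, ne_comm]

lemma prod_ite_fin3 (G L : ℝ) (d : Fin 3) : ∏ i, (if i = d then G else L) = L ^ 2 * G := by
  rw [Fin.prod_univ_three]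
  fin_cases d
  · simp only [Fin.isValue, Fin.zero_eta, if_true]
    rw [if_neg (by decide), if_neg (by decide)]
    ring
  · show (if (0 : Fin 3) = 1 then G else L) * (if (1 : Fin 3) = 1 then G else L)
      * (if (2 : Fin 3) = 1 then G else L) = _
    rw [if_neg (by decide), if_pos rfl, if_neg (by decide)]
    ring
  · show (if (0 : Fin 3) = 2 then G else L) * (if (1 : Fin 3) = 2 then G else L)
      * (if (2 : Fin 3) = 2 then G else L) = _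
    rw [if_neg (by decide), if_neg (by decide), if_pos rfl]
    ring

/-- Summation over shift vectors of a function of one coordinate. -/
lemma sum_shift_coord (ℓ : ℕ) (d : Fin 3) (g : Fin ℓ → ℝ) :
    ∑ t : Fin 3 → Fin ℓ, g (t d) = (ℓ : ℝ) ^ 2 * ∑ j, g j := by
  classical
  have h := (Finset.prod_univ_sum (fun _ : Fin 3 => (Finset.univ : Finset (Fin ℓ)))
    (fun e j => if e = d then g j else 1)).symm
  rw [Fintype.piFinset_univ] at h
  have e1 : ∀ t : Fin 3 → Fin ℓ, ∏ e, (if e = d then g (t e) else 1) = g (t d) := by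
    intro t
    rw [Finset.prod_ite_eq']
    simp
  simp_rw [e1] at h
  rw [h]
  have e2 : ∀ i : Fin 3, (∑ j, if i = d then g j else 1) = if i = d then ∑ j, g j else (ℓ : ℝ) := by
    intro i
    split_ifs <;> simp
  simp_rw [e2]
  exact prod_ite_fin3 _ _ d

/-- The grid index for the shift vector `t`. -/
noncomputable def qSh (ℓ : ℕ) (t : Fin 3 → Fin ℓ) (x : E3) : Fin 3 → ℤ :=
  qIdx (ℓ : ℝ) (fun d => (((t d : ℕ)) : ℝ)) x

open Classical in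
/-- Indicator that two points lie in a common cube of the grid with shift `t`. -/
noncomputable def sm (ℓ : ℕ) (t : Fin 3 → Fin ℓ) (x y : E3) : ℝ :=
  if qSh ℓ t x = qSh ℓ t y then 1 else 0

lemma sm_nonneg (ℓ : ℕ) (t : Fin 3 → Fin ℓ) (x y : E3) : 0 ≤ sm ℓ t x y := by
  unfold sm
  split_ifs <;> norm_num

lemma sm_le_one (ℓ : ℕ) (t : Fin 3 → Fin ℓ) (x y : E3) : sm ℓ t x y ≤ 1 := by
  unfold sm
  split_ifs <;> norm_num

lemma sum_one_shift (ℓ : ℕ) : ∑ _t : Fin 3 → Fin ℓ, (1:ℝ) = (ℓ : ℝ) ^ 3 := by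
  simp

/-- The fraction of shifts keeping two points together is at most one. -/
lemma avg_sm_le_one {ℓ : ℕ} (hℓ : 1 ≤ ℓ) (x y : E3) :
    ((ℓ : ℝ) ^ 3)⁻¹ * ∑ t, sm ℓ t x y ≤ 1 := by
  have hℓ0 : (0:ℝ) < ℓ := by exact_mod_cast hℓ
  rw [inv_mul_le_iff₀ (by positivity), mul_one, ← sum_one_shift]
  exact Finset.sum_le_sum fun t _ => sm_le_one ℓ t x y

lemma avg_sm_nonneg (ℓ : ℕ) (x y : E3) : 0 ≤ ((ℓ : ℝ) ^ 3)⁻¹ * ∑ t, sm ℓ t x y :=
  mul_nonneg (by positivity) (Finset.sum_nonneg fun t _ => sm_nonneg ℓ t x y)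

/-- Lower bound for the fraction of shifts keeping two nearby points together. -/
lemma avg_sm_ge {ℓ : ℕ} (hℓ : 1 ≤ ℓ) {x y : E3} {ρ : ℝ} (hxy : ‖x - y‖ ≤ ρ) :
    1 - 3 * (ρ + 1) / (ℓ : ℝ) ≤ ((ℓ : ℝ) ^ 3)⁻¹ * ∑ t, sm ℓ t x y := by
  classical
  have hℓ0 : (0:ℝ) < ℓ := by exact_mod_cast hℓ
  set B : Fin 3 → Finset (Fin ℓ) := fun d => Finset.univ.filter fun j : Fin ℓ =>
      ⌊(x d - (j : ℕ)) / (ℓ : ℝ)⌋ ≠ ⌊(y d - (j : ℕ)) / (ℓ : ℝ)⌋ with hB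
  have hBc : ∀ d, ((B d).card : ℝ) ≤ ρ + 1 := by
    intro d
    have h1 := card_bad_le hℓ (x d) (y d)
    have h2 := abs_coord_le_norm (x - y) d
    simp only [PiLp.sub_apply] at h2
    have h3 : ((B d).card : ℝ) ≤ |x d - y d| + 1 := h1
    linarith
  -- a shift vector separating the points is bad in some coordinate
  have hpt : ∀ t : Fin 3 → Fin ℓ,
      1 - sm ℓ t x y ≤ ∑ d, (if t d ∈ B d then (1:ℝ) else 0) := by
    intro t
    by_cases hs : qSh ℓ t x = qSh ℓ t y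
    · have : sm ℓ t x y = 1 := by unfold sm; rw [if_pos hs]
      rw [this, sub_self]
      exact Finset.sum_nonneg fun d _ => by split_ifs <;> norm_num
    · have : sm ℓ t x y = 0 := by unfold sm; rw [if_neg hs]
      rw [this, sub_zero]
      obtain ⟨d, hd⟩ := Function.ne_iff.1 hs
      have hmem : t d ∈ B d := by
        simp only [hB, Finset.mem_filter, Finset.mem_univ, true_and]
        exact hd
      calc (1:ℝ) = if t d ∈ B d then (1:ℝ) else 0 := by rw [if_pos hmem]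
        _ ≤ _ := Finset.single_le_sum (f := fun d => if t d ∈ B d then (1:ℝ) else 0)
            (fun e _ => by positivity) (Finset.mem_univ d)
  have hsum : ∑ t : Fin 3 → Fin ℓ, (1 - sm ℓ t x y) ≤ 3 * (ρ + 1) * (ℓ : ℝ) ^ 2 := by
    calc _ ≤ ∑ t : Fin 3 → Fin ℓ, ∑ d, (if t d ∈ B d then (1:ℝ) else 0) :=
          Finset.sum_le_sum fun t _ => hpt t
      _ = ∑ d, ∑ t : Fin 3 → Fin ℓ, (if t d ∈ B d then (1:ℝ) else 0) := Finset.sum_comm
      _ = ∑ d, (ℓ : ℝ) ^ 2 * ((B d).card : ℝ) := by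
          apply Finset.sum_congr rfl
          intro d _
          rw [sum_shift_coord ℓ d (fun j => if j ∈ B d then (1:ℝ) else 0)]
          congr 1
          rw [Finset.sum_ite_mem]
          simp
      _ ≤ ∑ _d : Fin 3, (ℓ : ℝ) ^ 2 * (ρ + 1) :=
          Finset.sum_le_sum fun d _ => mul_le_mul_of_nonneg_left (hBc d) (by positivity)
      _ = _ := by simp; ring
  rw [Finset.sum_sub_distrib, sum_one_shift] at hsum
  have e : ((ℓ : ℝ) ^ 3)⁻¹ * ∑ t, sm ℓ t x y = (∑ t, sm ℓ t x y) / (ℓ : ℝ) ^ 3 := by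
    rw [div_eq_inv_mul]
  rw [e, le_div_iff₀ (by positivity)]
  have e2 : (1 - 3 * (ρ + 1) / (ℓ : ℝ)) * (ℓ : ℝ) ^ 3 = (ℓ : ℝ) ^ 3 - 3 * (ρ + 1) * (ℓ : ℝ) ^ 2 := by
    field_simp
  rw [e2]
  linarith

end Vale.Agent.Lib.P171H
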