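import Vale.Agent.Lib.P171H.Geometry

/-!
The tent kernel: normalised overlap volume of two balls. It is radial, bounded, compactly supported,
positive semi-definite, and obeys a Schur-type bound in terms of occupation numbers of grid cubes.
-/

open MeasureTheory Set Metric
open scoped ENNReal RealInnerProductSpace

namespace Vale.Agent.Lib.P171H

/-- The first coordinate vector. -/
noncomputable def e0 : E3 := EuclideanSpace.single 0 1

lemma norm_e0 : ‖e0‖ = 1 := by simp [e0]

/-- Overlap volume of two balls of radius `R` whose centres are at distance `r`. -/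
noncomputable def ovl (R r : ℝ) : ℝ := volume.real (ball (0 : E3) R ∩ ball (r • e0) R)

/-- The normalised tent kernel. -/
noncomputable def ker (R r : ℝ) : ℝ := ovl R r / (b1 * R ^ 3) ^ 2

lemma overlap_eq (R : ℝ) (x y : E3) :
    volume (ball x R ∩ ball y R) = volume (ball (0 : E3) R ∩ ball (‖x - y‖ • e0) R) := by
  set v := y - x with hv
  set w : E3 := ‖v‖ • e0 with hw
  have hnorm : ‖v‖ = ‖w‖ := by
    rw [hw, norm_smul, norm_e0, mul_one, norm_norm]
  have hmeas : ∀ a b : E3, MeasurableSet (ball a R ∩ ball b R) := fun a b =>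
    measurableSet_ball.inter measurableSet_ball
  have s1 : ball x R ∩ ball y R = (fun u : E3 => u - x) ⁻¹' (ball (0 : E3) R ∩ ball v R) := by
    ext u
    simp only [mem_inter_iff, mem_ball_iff_norm, mem_preimage, sub_zero, hv]
    have : u - x - (y - x) = u - y := by abel
    rw [this]
  have e1 : volume (ball x R ∩ ball y R) = volume (ball (0 : E3) R ∩ ball v R) := by
    rw [s1, (measurePreserving_sub_right volume x).measure_preimage (hmeas 0 v).nullMeasurableSet]
  set U : E3 ≃ₗᵢ[ℝ] E3 := (ℝ ∙ (v - w))ᗮ.reflection with hU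
  have hUv : U v = w := Submodule.reflection_sub hnorm
  have s2 : ball (0 : E3) R ∩ ball v R = U ⁻¹' (ball (0 : E3) R ∩ ball w R) := by
    ext u
    simp only [mem_inter_iff, mem_ball_iff_norm, mem_preimage, sub_zero]
    rw [← hUv, ← map_sub, U.norm_map, U.norm_map]
  have e2 : volume (ball (0 : E3) R ∩ ball v R) = volume (ball (0 : E3) R ∩ ball w R) := by
    rw [s2, U.measurePreserving.measure_preimage (hmeas 0 w).nullMeasurableSet]
  rw [e1, e2, hw, hv, norm_sub_rev]

lemma ovl_norm (R : ℝ) (x y : E3) : ovl R ‖x - y‖ = volume.real (ball x R ∩ ball y R) := by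
  unfold ovl Measure.real
  rw [overlap_eq R x y]

lemma ker_norm (R : ℝ) (x y : E3) :
    ker R ‖x - y‖ = volume.real (ball x R ∩ ball y R) / (b1 * R ^ 3) ^ 2 := by
  unfold ker
  rw [ovl_norm]

lemma ovl_nonneg (R r : ℝ) : 0 ≤ ovl R r := measureReal_nonneg

lemma ker_nonneg (R r : ℝ) : 0 ≤ ker R r := by
  unfold ker
  exact div_nonneg (ovl_nonneg R r) (sq_nonneg _)

lemma real_ball_eq (x : E3) {R : ℝ} (hR : 0 ≤ R) : volume.real (ball x R) = b1 * R ^ 3 := by
  unfold Measure.real
  rw [volume_ball_eq x hR, ENNReal.toReal_ofReal]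
  have := b1_pos
  positivity

lemma ovl_le {R : ℝ} (hR : 0 ≤ R) (r : ℝ) : ovl R r ≤ b1 * R ^ 3 := by
  unfold ovl
  rw [← real_ball_eq (0 : E3) hR]
  exact measureReal_mono inter_subset_left (measure_ball_lt_top.ne)

lemma ker_le {R : ℝ} (hR : 0 < R) (r : ℝ) : ker R r ≤ (b1 * R ^ 3)⁻¹ := by
  have hb := b1_pos
  have hp : 0 < b1 * R ^ 3 := by positivity
  unfold ker
  rw [div_le_iff₀ (by positivity), sq, ← mul_assoc, inv_mul_cancel₀ hp.ne', one_mul]
  exact ovl_le hR.le r

lemma ovl_eq_zero {R r : ℝ} (hr : 2 * R ≤ r) : ovl R r = 0 := by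
  unfold ovl
  have : ball (0 : E3) R ∩ ball (r • e0) R = ∅ := by
    ext u
    simp only [mem_inter_iff, mem_ball_iff_norm, sub_zero, mem_empty_iff_false, iff_false, not_and,
      not_lt]
    intro h1
    by_contra h2
    push Not at h2
    have hr0 : |r| = r ∨ r < 0 := by
      rcases le_or_gt 0 r with h | h
      · exact Or.inl (abs_of_nonneg h)
      · exact Or.inr h
    have h3 : ‖r • e0‖ ≤ ‖u‖ + ‖u - r • e0‖ := by
      have := norm_sub_le u (u - r • e0)
      simpa using this
    rw [norm_smul, norm_e0, mul_one, Real.norm_eq_abs] at h3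
    have h4 : r ≤ |r| := le_abs_self r
    have hR0 : 0 ≤ ‖u‖ := norm_nonneg u
    linarith
  rw [this]
  simp

lemma ker_eq_zero {R r : ℝ} (hr : 2 * R ≤ r) : ker R r = 0 := by
  unfold ker
  rw [ovl_eq_zero hr, zero_div]

lemma ovl_zero {R : ℝ} (hR : 0 ≤ R) : ovl R 0 = b1 * R ^ 3 := by
  unfold ovl
  simp only [zero_smul, inter_self]
  exact real_ball_eq 0 hR

lemma ker_zero {R : ℝ} (hR : 0 < R) : ker R 0 = (b1 * R ^ 3)⁻¹ := by
  have hb := b1_pos
  have hp : 0 < b1 * R ^ 3 := by positivity
  unfold ker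
  rw [ovl_zero hR.le]
  field_simp

lemma measurable_ovl (R : ℝ) : Measurable (ovl R) := by
  have hS : MeasurableSet {p : ℝ × E3 | p.2 ∈ ball (0 : E3) R ∧ p.2 ∈ ball (p.1 • e0) R} := by
    apply IsOpen.measurableSet
    simp only [mem_ball_iff_norm, sub_zero]
    apply IsOpen.and
    · exact isOpen_lt (by fun_prop) continuous_const
    · exact isOpen_lt (by fun_prop) continuous_const
  have h := measurable_measure_prodMk_left (ν := (volume : Measure E3)) hS
  have e : (fun r : ℝ => volume (Prod.mk r ⁻¹'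
      {p : ℝ × E3 | p.2 ∈ ball (0 : E3) R ∧ p.2 ∈ ball (p.1 • e0) R}))
      = fun r => volume (ball (0 : E3) R ∩ ball (r • e0) R) := by
    funext r
    congr 1
  rw [e] at h
  unfold ovl Measure.real
  exact h.ennreal_toReal

lemma measurable_ker (R : ℝ) : Measurable (ker R) := by
  unfold ker
  exact (measurable_ovl R).div_const _

/-! ### Counting functions -/

section count

variable {ι : Type*} [Fintype ι]

/-- The number of balls of radius `R` around the configuration points that contain `u`. -/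
noncomputable def cnt (X : ι → E3) (R : ℝ) (u : E3) : ℝ :=
  ∑ i, (ball (X i) R).indicator (fun _ => (1:ℝ)) u

lemma integrable_ind {S : Set E3} (hS : MeasurableSet S) (hf : volume S ≠ ⊤) :
    Integrable (S.indicator (fun _ => (1:ℝ))) volume := by
  rw [integrable_indicator_iff hS]
  exact integrableOn_const hf

lemma integral_ind {S : Set E3} (hS : MeasurableSet S) :
    ∫ u, S.indicator (fun _ => (1:ℝ)) u = volume.real S := by
  exact integral_indicator_one (μ := (volume : Measure E3)) hS

lemma cnt_sq_eq (X : ι → E3) (R : ℝ) (u : E3) :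
    (cnt X R u) ^ 2 = ∑ i, ∑ j, (ball (X i) R ∩ ball (X j) R).indicator (fun _ => (1:ℝ)) u := by
  unfold cnt
  rw [sq, Finset.sum_mul_sum]
  apply Finset.sum_congr rfl
  intro i _
  apply Finset.sum_congr rfl
  intro j _
  by_cases h1 : u ∈ ball (X i) R <;> by_cases h2 : u ∈ ball (X j) R <;>
    simp [indicator, h1, h2]

lemma integrable_cnt (X : ι → E3) (R : ℝ) : Integrable (cnt X R) volume := by
  unfold cnt
  exact integrable_finsetSum _ fun i _ =>
    integrable_ind measurableSet_ball measure_ball_lt_top.ne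

lemma integrable_cnt_sq (X : ι → E3) (R : ℝ) : Integrable (fun u => (cnt X R u) ^ 2) volume := by
  simp_rw [cnt_sq_eq]
  refine integrable_finsetSum _ fun i _ => integrable_finsetSum _ fun j _ => ?_
  refine integrable_ind (measurableSet_ball.inter measurableSet_ball) ?_
  exact (lt_of_le_of_lt (measure_mono inter_subset_left) measure_ball_lt_top).ne

/-- The double sum of overlaps is the integral of the squared counting function. -/
lemma integral_cnt_sq (X : ι → E3) (R : ℝ) :
    ∫ u, (cnt X R u) ^ 2 = ∑ i, ∑ j, volume.real (ball (X i) R ∩ ball (X j) R) := by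
  simp_rw [cnt_sq_eq]
  have hint : ∀ i j, Integrable
      ((ball (X i) R ∩ ball (X j) R).indicator (fun _ => (1:ℝ))) volume := fun i j =>
    integrable_ind (measurableSet_ball.inter measurableSet_ball)
      (lt_of_le_of_lt (measure_mono inter_subset_left) measure_ball_lt_top).ne
  rw [integral_finsetSum _ fun i _ => integrable_finsetSum _ fun j _ => hint i j]
  apply Finset.sum_congr rfl
  intro i _
  rw [integral_finsetSum _ fun j _ => hint i j]
  apply Finset.sum_congr rfl
  intro j _
  exact integral_ind (measurableSet_ball.inter measurableSet_ball)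

lemma integral_cnt (X : ι → E3) {R : ℝ} (hR : 0 ≤ R) :
    ∫ u, cnt X R u = (Fintype.card ι : ℝ) * (b1 * R ^ 3) := by
  unfold cnt
  rw [integral_finsetSum _ fun i _ =>
    integrable_ind measurableSet_ball measure_ball_lt_top.ne]
  simp_rw [integral_ind measurableSet_ball, real_ball_eq _ hR]
  simp

/-- Positive semi-definiteness of the overlap kernel, tested against a constant density on a set
containing all the balls. -/
lemma psd_bound (X : ι → E3) {R : ℝ} (hR : 0 ≤ R) {U : Set E3} (hU : MeasurableSet U)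
    (hUf : volume U ≠ ⊤) (hsub : ∀ i, ball (X i) R ⊆ U) (ν : ℝ) :
    2 * ν * ((Fintype.card ι : ℝ) * (b1 * R ^ 3))
      ≤ (∑ i, ∑ j, volume.real (ball (X i) R ∩ ball (X j) R)) + ν ^ 2 * volume.real U := by
  have hpt : ∀ u, 2 * ν * cnt X R u ≤ (cnt X R u) ^ 2 + ν ^ 2 * U.indicator (fun _ => (1:ℝ)) u := by
    intro u
    by_cases hu : u ∈ U
    · rw [indicator_of_mem hu]
      nlinarith [sq_nonneg (cnt X R u - ν)]
    · have h0 : cnt X R u = 0 := by
        unfold cnt
        apply Finset.sum_eq_zero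
        intro i _
        exact indicator_of_notMem (fun h => hu (hsub i h)) _
      rw [indicator_of_notMem hu, h0]
      simp
  have hL : Integrable (fun u => 2 * ν * cnt X R u) volume := (integrable_cnt X R).const_mul _
  have hI := integrable_ind hU hUf
  have hRi : Integrable (fun u => (cnt X R u) ^ 2 + ν ^ 2 * U.indicator (fun _ => (1:ℝ)) u) volume :=
    (integrable_cnt_sq X R).add (hI.const_mul _)
  have h := integral_mono hL hRi hpt
  rw [integral_const_mul, integral_cnt X hR, integral_add (integrable_cnt_sq X R) (hI.const_mul _),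
    integral_const_mul, integral_cnt_sq, integral_ind hU] at h
  exact h

end count

/-! ### Occupation numbers of grid cubes -/

section occupation

variable {ι : Type*} [Fintype ι]

open Classical in
/-- Number of ordered pairs of labels in a common grid cube (diagonal included). -/
noncomputable def Sp (h : ℝ) (s : Fin 3 → ℝ) (X : ι → E3) : ℝ :=
  ∑ i, ∑ j, if qIdx h s (X i) = qIdx h s (X j) then (1:ℝ) else 0

open Classical in
/-- The occupation number of a grid cube. -/
noncomputable def occ (h : ℝ) (s : Fin 3 → ℝ) (X : ι → E3) (q : Fin 3 → ℤ) : ℕ :=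
  (Finset.univ.filter fun i => qIdx h s (X i) = q).card

open Classical in
/-- The set of occupied grid cubes. -/
noncomputable def occd (h : ℝ) (s : Fin 3 → ℝ) (X : ι → E3) : Finset (Fin 3 → ℤ) :=
  Finset.univ.image fun i => qIdx h s (X i)

open Classical in
lemma sum_over_occd (h : ℝ) (s : Fin 3 → ℝ) (X : ι → E3) (f : ι → ℝ) :
    ∑ i, f i = ∑ q ∈ occd h s X, ∑ i ∈ Finset.univ.filter (fun i => qIdx h s (X i) = q), f i := by
  rw [Finset.sum_fiberwise_of_maps_to]
  intro i _
  exact Finset.mem_image_of_mem _ (Finset.mem_univ i)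

open Classical in
lemma Sp_eq_sum_occ (h : ℝ) (s : Fin 3 → ℝ) (X : ι → E3) :
    Sp h s X = ∑ q ∈ occd h s X, ((occ h s X q : ℝ)) ^ 2 := by
  unfold Sp
  rw [sum_over_occd h s X]
  apply Finset.sum_congr rfl
  intro q _
  have hrow : ∀ i ∈ Finset.univ.filter (fun i => qIdx h s (X i) = q),
      (∑ j, if qIdx h s (X i) = qIdx h s (X j) then (1:ℝ) else 0) = occ h s X q := by
    intro i hi
    have hi' : qIdx h s (X i) = q := (Finset.mem_filter.1 hi).2
    simp only [hi']
    unfold occ
    rw [Finset.card_filter]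
    push_cast
    apply Finset.sum_congr rfl
    intro j _
    by_cases hj : qIdx h s (X j) = q
    · simp [hj]
    · have : ¬ q = qIdx h s (X j) := fun e => hj e.symm
      simp [hj, this]
  rw [Finset.sum_congr rfl hrow, Finset.sum_const, nsmul_eq_mul, sq]
  rfl

lemma Sp_nonneg (h : ℝ) (s : Fin 3 → ℝ) (X : ι → E3) : 0 ≤ Sp h s X := by
  classical
  rw [Sp_eq_sum_occ]
  exact Finset.sum_nonneg fun q _ => sq_nonneg _

open Classical in
/-- Cauchy-Schwarz for occupation numbers. -/
lemma card_sq_le (h : ℝ) (s : Fin 3 → ℝ) (X : ι → E3) :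
    ((Fintype.card ι : ℝ)) ^ 2 ≤ ((occd h s X).card : ℝ) * Sp h s X := by
  rw [Sp_eq_sum_occ]
  have e : (Fintype.card ι : ℝ) = ∑ q ∈ occd h s X, (occ h s X q : ℝ) := by
    have := sum_over_occd h s X (fun _ => (1:ℝ))
    simp only [Finset.sum_const, nsmul_eq_mul, mul_one] at this
    rw [← Finset.card_univ]
    exact this
  rw [e]
  exact sq_sum_le_card_mul_sum_sq

open Classical in
/-- The Schur-type bound for the overlap kernel. -/
theorem schur_bound (X : ι → E3) {h R : ℝ} (hh : 0 < h) (hR : 0 ≤ R) (s : Fin 3 → ℝ) :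
    ∑ i, ∑ j, volume.real (ball (X i) R ∩ ball (X j) R)
      ≤ (b1 * (R + 4 * h) ^ 3 / h ^ 3) * (b1 * (R + 2 * h) ^ 3) * Sp h s X := by
  set Y := occd h s X with hY
  have hrep : ∀ q ∈ Y, ∃ i, qIdx h s (X i) = q := by
    intro q hq
    obtain ⟨i, _, hi⟩ := Finset.mem_image.1 hq
    exact ⟨i, hi⟩
  -- representatives of occupied cubes
  set c : (Fin 3 → ℤ) → E3 := fun q =>
    if hq : q ∈ Y then X (Classical.choose (hrep q hq)) else 0 with hc
  have hcq : ∀ q ∈ Y, qIdx h s (c q) = q := by
    intro q hq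
    simp only [hc, dif_pos hq]
    exact Classical.choose_spec (hrep q hq)
  set R' := R + 2 * h with hR'
  have hR'0 : 0 ≤ R' := by rw [hR']; positivity
  set g : (Fin 3 → ℤ) → E3 → ℝ := fun q u => (ball (c q) R').indicator (fun _ => (1:ℝ)) u with hg
  have hg01 : ∀ q u, g q u = 0 ∨ g q u = 1 := by
    intro q u
    by_cases hu : u ∈ ball (c q) R'
    · right; simp [hg, hu]
    · left; simp [hg, hu]
  have hg0 : ∀ q u, 0 ≤ g q u := fun q u => by
    rcases hg01 q u with h | h <;> rw [h] <;> norm_num
  set M := b1 * (R + 4 * h) ^ 3 / h ^ 3 with hM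
  have hb := b1_pos
  have hM0 : 0 ≤ M := by rw [hM]; positivity
  -- first pointwise bound
  have hP1 : ∀ u, cnt X R u ≤ ∑ q ∈ Y, (occ h s X q : ℝ) * g q u := by
    intro u
    unfold cnt
    rw [sum_over_occd h s X]
    apply Finset.sum_le_sum
    intro q hq
    have hle : ∀ i ∈ Finset.univ.filter (fun i => qIdx h s (X i) = q),
        (ball (X i) R).indicator (fun _ => (1:ℝ)) u ≤ g q u := by
      intro i hi
      have hi' : qIdx h s (X i) = q := (Finset.mem_filter.1 hi).2
      by_cases hu : u ∈ ball (X i) R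
      · have hu2 : u ∈ ball (c q) R' := by
          rw [mem_ball_iff_norm] at hu ⊢
          have h1 : ‖X i - c q‖ < 2 * h :=
            same_cube_norm hh (by rw [hi', hcq q hq])
          have h2 : ‖u - c q‖ ≤ ‖u - X i‖ + ‖X i - c q‖ := norm_sub_le_norm_sub_add_norm_sub u (X i) (c q)
          rw [hR']
          linarith
        simp [hg, hu, hu2]
      · rw [indicator_of_notMem hu]
        exact hg0 q u
    calc _ ≤ ∑ _i ∈ Finset.univ.filter (fun i => qIdx h s (X i) = q), g q u := Finset.sum_le_sum hle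
      _ = (occ h s X q : ℝ) * g q u := by
        rw [Finset.sum_const, nsmul_eq_mul]
        rfl
  -- number of relevant cubes at a point
  have hP3 : ∀ u, ∑ q ∈ Y, g q u ≤ M := by
    intro u
    set Yu := Y.filter fun q => u ∈ ball (c q) R' with hYu
    have e : ∑ q ∈ Y, g q u = (Yu.card : ℝ) := by
      rw [hYu, Finset.card_filter]
      push_cast
      apply Finset.sum_congr rfl
      intro q _
      by_cases hu : u ∈ ball (c q) R' <;> simp [hg, hu]
    rw [e, hM, le_div_iff₀ (by positivity)]
    apply count_cubes hh (by positivity) s u Yu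
    intro q hq x hx
    have hqY : q ∈ Y := (Finset.mem_filter.1 hq).1
    have hu : u ∈ ball (c q) R' := (Finset.mem_filter.1 hq).2
    have hx1 : ‖x - c q‖ < 2 * h := by
      apply same_cube_norm hh
      rw [hcq q hqY]
      exact hx
    rw [mem_ball_iff_norm] at hu ⊢
    have h2 : ‖x - u‖ ≤ ‖x - c q‖ + ‖c q - u‖ := norm_sub_le_norm_sub_add_norm_sub x (c q) u
    rw [norm_sub_rev (c q) u] at h2
    have : R + 4 * h = R' + 2 * h := by rw [hR']; ring
    rw [this]
    linarith
  have hcnt0 : ∀ u, 0 ≤ cnt X R u := fun u => by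
    unfold cnt
    exact Finset.sum_nonneg fun i _ => indicator_nonneg (fun _ _ => zero_le_one) _
  -- the pointwise bound for the square
  have hP4 : ∀ u, (cnt X R u) ^ 2 ≤ M * ∑ q ∈ Y, ((occ h s X q : ℝ)) ^ 2 * g q u := by
    intro u
    have h1 : (cnt X R u) ^ 2 ≤ (∑ q ∈ Y, g q u * ((occ h s X q : ℝ) * g q u)) ^ 2 := by
      apply pow_le_pow_left₀ (hcnt0 u)
      refine (hP1 u).trans (le_of_eq ?_)
      apply Finset.sum_congr rfl
      intro q _
      rcases hg01 q u with h | h <;> rw [h] <;> ring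
    have h2 := Finset.sum_mul_sq_le_sq_mul_sq Y (fun q => g q u) (fun q => (occ h s X q : ℝ) * g q u)
    have h3 : ∑ q ∈ Y, (g q u) ^ 2 = ∑ q ∈ Y, g q u := by
      apply Finset.sum_congr rfl
      intro q _
      rcases hg01 q u with h | h <;> rw [h] <;> norm_num
    have h4 : ∑ q ∈ Y, ((occ h s X q : ℝ) * g q u) ^ 2 = ∑ q ∈ Y, ((occ h s X q : ℝ)) ^ 2 * g q u := by
      apply Finset.sum_congr rfl
      intro q _
      rcases hg01 q u with h | h <;> rw [h] <;> ring
    rw [h3, h4] at h2
    have h5 : 0 ≤ ∑ q ∈ Y, ((occ h s X q : ℝ)) ^ 2 * g q u :=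
      Finset.sum_nonneg fun q _ => mul_nonneg (sq_nonneg _) (hg0 q u)
    calc _ ≤ _ := h1
      _ ≤ _ := h2
      _ ≤ _ := mul_le_mul_of_nonneg_right (hP3 u) h5
  -- integrate
  have hgint : ∀ q, Integrable (g q) volume := fun q =>
    integrable_ind measurableSet_ball measure_ball_lt_top.ne
  have hRint : Integrable (fun u => M * ∑ q ∈ Y, ((occ h s X q : ℝ)) ^ 2 * g q u) volume :=
    (integrable_finsetSum _ fun q _ => (hgint q).const_mul _).const_mul _
  have hmono := integral_mono (integrable_cnt_sq X R) hRint hP4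
  rw [integral_cnt_sq, integral_const_mul,
    integral_finsetSum _ fun q _ => (hgint q).const_mul _] at hmono
  have hgi : ∀ q, ∫ u, g q u = b1 * R' ^ 3 := fun q => by
    rw [hg]
    simp only
    rw [integral_ind measurableSet_ball, real_ball_eq _ hR'0]
  simp_rw [integral_const_mul, hgi] at hmono
  rw [Sp_eq_sum_occ, ← hY]
  refine hmono.trans (le_of_eq ?_)
  rw [← Finset.sum_mul]
  ring

end occupation

end Vale.Agent.Lib.P171H
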